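import Mathlib

set_option autoImplicit false

open MeasureTheory Set
open scoped Pointwise

namespace Vale.Agent.Lib.Helper9.P243

/-- One-dimensional Brunn-Minkowski inequality for nonempty compact sets. -/
theorem bm1_compact {I J W : Set ℝ} (hI : IsCompact I) (hJ : IsCompact J) (hIne : I.Nonempty)
    (hJne : J.Nonempty) {a b : ℝ} (ha : 0 ≤ a) (hb : 0 ≤ b)
    (hsub : ∀ x ∈ I, ∀ y ∈ J, a * x + b * y ∈ W) :
    ENNReal.ofReal a * volume I + ENNReal.ofReal b * volume J ≤ volume W := by
  set p : ℝ := sSup I with hp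
  set q : ℝ := sInf J with hq
  have hpI : p ∈ I := hI.sSup_mem hIne
  have hqJ : q ∈ J := hJ.sInf_mem hJne
  have hple : ∀ x ∈ I, x ≤ p := fun x hx => le_csSup hI.bddAbove hx
  have hqle : ∀ y ∈ J, q ≤ y := fun y hy => csInf_le hJ.bddBelow hy
  set I' : Set ℝ := (fun x => a * x + b * q) '' I with hI'
  set J' : Set ℝ := (fun y => a * p + b * y) '' J with hJ'
  have hI'c : IsCompact I' := hI.image (by fun_prop)
  have hJ'c : IsCompact J' := hJ.image (by fun_prop)
  have hvolI : volume I' = ENNReal.ofReal a * volume I := by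
    have e : I' = (b * q) +ᵥ (a • I) := by
      ext w
      simp only [hI', mem_image, mem_vadd_set, mem_smul_set, smul_eq_mul, vadd_eq_add]
      constructor
      · rintro ⟨x, hx, rfl⟩
        exact ⟨a * x, ⟨x, hx, rfl⟩, by ring⟩
      · rintro ⟨_, ⟨x, hx, rfl⟩, rfl⟩
        exact ⟨x, hx, by ring⟩
    rw [e, measure_vadd, Measure.addHaar_smul]
    simp [abs_of_nonneg ha]
  have hvolJ : volume J' = ENNReal.ofReal b * volume J := by
    have e : J' = (a * p) +ᵥ (b • J) := by
      ext w
      simp only [hJ', mem_image, mem_vadd_set, mem_smul_set, smul_eq_mul, vadd_eq_add]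
      constructor
      · rintro ⟨x, hx, rfl⟩
        exact ⟨b * x, ⟨x, hx, rfl⟩, by ring⟩
      · rintro ⟨_, ⟨x, hx, rfl⟩, rfl⟩
        exact ⟨x, hx, by ring⟩
    rw [e, measure_vadd, Measure.addHaar_smul]
    simp [abs_of_nonneg hb]
  have hinter : volume (I' ∩ J') = 0 := by
    have hs : I' ∩ J' ⊆ {a * p + b * q} := by
      rintro w ⟨⟨x, hx, rfl⟩, ⟨y, hy, hxy⟩⟩
      have h1 : a * x ≤ a * p := mul_le_mul_of_nonneg_left (hple x hx) ha
      have h2 : b * q ≤ b * y := mul_le_mul_of_nonneg_left (hqle y hy) hb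
      have h3 : a * p + b * y = a * x + b * q := hxy
      simp only [mem_singleton_iff]
      linarith
    exact measure_mono_null hs (by simp)
  have hunion : I' ∪ J' ⊆ W := by
    rintro w (⟨x, hx, rfl⟩ | ⟨y, hy, rfl⟩)
    · exact hsub x hx q hqJ
    · exact hsub p hpI y hy
  calc ENNReal.ofReal a * volume I + ENNReal.ofReal b * volume J
      = volume I' + volume J' := by rw [hvolI, hvolJ]
    _ = volume (I' ∪ J') + volume (I' ∩ J') :=
        (measure_union_add_inter I' hJ'c.measurableSet).symm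
    _ = volume (I' ∪ J') := by rw [hinter, add_zero]
    _ ≤ volume W := measure_mono hunion

/-- One-dimensional Brunn-Minkowski inequality for nonempty measurable sets of finite measure. -/
theorem bm1_meas {I J W : Set ℝ} (hI : MeasurableSet I) (hJ : MeasurableSet J)
    (hIf : volume I ≠ ⊤) (hJf : volume J ≠ ⊤) (hIne : I.Nonempty)
    (hJne : J.Nonempty) {a b : ℝ} (ha : 0 ≤ a) (hb : 0 ≤ b)
    (hsub : ∀ x ∈ I, ∀ y ∈ J, a * x + b * y ∈ W) :
    ENNReal.ofReal a * volume I + ENNReal.ofReal b * volume J ≤ volume W := by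
  apply ENNReal.le_of_forall_pos_le_add
  intro ε hε _
  set c : ENNReal := ENNReal.ofReal a + ENNReal.ofReal b + 1 with hc
  have hc0 : c ≠ 0 := by
    simp [hc]
  have hct : c ≠ ⊤ := by
    simp [hc]
  set δ : ENNReal := (ε : ENNReal) / c with hδ
  have hδ0 : δ ≠ 0 := by
    simp only [hδ, ne_eq, ENNReal.div_eq_zero_iff, not_or]
    exact ⟨by simpa using hε.ne', hct⟩
  have hcδ : c * δ = ε := by
    rw [hδ]
    exact ENNReal.mul_div_cancel hc0 hct
  obtain ⟨I0, hI0sub, hI0c, hI0⟩ := hI.exists_isCompact_lt_add hIf hδ0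
  obtain ⟨J0, hJ0sub, hJ0c, hJ0⟩ := hJ.exists_isCompact_lt_add hJf hδ0
  obtain ⟨x0, hx0⟩ := hIne
  obtain ⟨y0, hy0⟩ := hJne
  set I1 : Set ℝ := I0 ∪ {x0} with hI1
  set J1 : Set ℝ := J0 ∪ {y0} with hJ1
  have hI1c : IsCompact I1 := hI0c.union isCompact_singleton
  have hJ1c : IsCompact J1 := hJ0c.union isCompact_singleton
  have hI1sub : I1 ⊆ I := union_subset hI0sub (singleton_subset_iff.mpr hx0)
  have hJ1sub : J1 ⊆ J := union_subset hJ0sub (singleton_subset_iff.mpr hy0)
  have hI1 : volume I ≤ volume I1 + δ :=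
    le_trans hI0.le (by gcongr; exact subset_union_left)
  have hJ1' : volume J ≤ volume J1 + δ :=
    le_trans hJ0.le (by gcongr; exact subset_union_left)
  have hmain := bm1_compact hI1c hJ1c ⟨x0, Or.inr rfl⟩ ⟨y0, Or.inr rfl⟩ ha hb
    (W := W) (fun x hx y hy => hsub x (hI1sub hx) y (hJ1sub hy))
  calc ENNReal.ofReal a * volume I + ENNReal.ofReal b * volume J
      ≤ ENNReal.ofReal a * (volume I1 + δ) + ENNReal.ofReal b * (volume J1 + δ) := by gcongr
    _ = (ENNReal.ofReal a * volume I1 + ENNReal.ofReal b * volume J1)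
          + (ENNReal.ofReal a + ENNReal.ofReal b) * δ := by ring
    _ ≤ volume W + c * δ := by
        gcongr
        rw [hc]
        exact le_self_add
    _ = volume W + ε := by rw [hcδ]

/-- Vertical sections of a compact planar set are compact. -/
theorem isCompact_sectionL {X : Set (ℝ × ℝ)} (hX : IsCompact X) (s : ℝ) :
    IsCompact (Prod.mk s ⁻¹' X) := by
  have e : Prod.mk s ⁻¹' X = Prod.snd '' (X ∩ {p : ℝ × ℝ | p.1 = s}) := by
    ext z
    constructor
    · intro hz
      exact ⟨(s, z), ⟨hz, rfl⟩, rfl⟩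
    · rintro ⟨p, ⟨hp, hps⟩, rfl⟩
      have hps' : p.1 = s := hps
      have : (s, p.2) = p := by rw [← hps']
      show (s, p.2) ∈ X
      rw [this]; exact hp
  rw [e]
  exact (hX.inter_right (isClosed_eq continuous_fst continuous_const)).image continuous_snd

/-- Section length as a real number. -/
noncomputable def secLen (X : Set (ℝ × ℝ)) (s : ℝ) : ℝ := (volume (Prod.mk s ⁻¹' X)).toReal

theorem secLen_nonneg (X : Set (ℝ × ℝ)) (s : ℝ) : 0 ≤ secLen X s := ENNReal.toReal_nonneg

theorem measurable_secLen {X : Set (ℝ × ℝ)} (hX : IsCompact X) : Measurable (secLen X) :=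
  (measurable_measure_prodMk_left hX.measurableSet).ennreal_toReal

theorem ofReal_secLen {X : Set (ℝ × ℝ)} (hX : IsCompact X) (s : ℝ) :
    ENNReal.ofReal (secLen X s) = volume (Prod.mk s ⁻¹' X) :=
  ENNReal.ofReal_toReal (isCompact_sectionL hX s).measure_lt_top.ne

theorem secLen_le {X : Set (ℝ × ℝ)} (hX : IsCompact X) (s : ℝ) :
    secLen X s ≤ (volume (Prod.snd '' X)).toReal := by
  apply ENNReal.toReal_mono (hX.image continuous_snd).measure_lt_top.ne
  apply measure_mono
  intro z hz
  exact ⟨(s, z), hz, rfl⟩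

theorem bddAbove_secLen {X : Set (ℝ × ℝ)} (hX : IsCompact X) : BddAbove (range (secLen X)) :=
  ⟨(volume (Prod.snd '' X)).toReal, by rintro _ ⟨s, rfl⟩; exact secLen_le hX s⟩

theorem secLen_pos_mem {X : Set (ℝ × ℝ)} {s : ℝ} (h : 0 < secLen X s) :
    s ∈ Prod.fst '' X ∧ (Prod.mk s ⁻¹' X).Nonempty := by
  have hne : (Prod.mk s ⁻¹' X).Nonempty := by
    by_contra hemp
    rw [not_nonempty_iff_eq_empty] at hemp
    simp [secLen, hemp] at h
  obtain ⟨z, hz⟩ := hne
  exact ⟨⟨(s, z), hz, rfl⟩, ⟨z, hz⟩⟩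

/-- The area is the integral of the section lengths. -/
theorem volume_eq_lintegral_secLen {X : Set (ℝ × ℝ)} (hX : IsCompact X) :
    volume X = ∫⁻ s, ENNReal.ofReal (secLen X s) := by
  rw [Measure.volume_eq_prod, Measure.prod_apply hX.measurableSet]
  exact lintegral_congr (fun s => (ofReal_secLen hX s).symm)

/-- Layer cake for the normalised section length. -/
theorem layer_secLen {X : Set (ℝ × ℝ)} (hX : IsCompact X) {α : ℝ} (hα : 0 < α) :
    volume X * (ENNReal.ofReal α)⁻¹
      = ∫⁻ t in Ioi (0 : ℝ), volume {s : ℝ | t < secLen X s / α} := by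
  have h := lintegral_eq_lintegral_meas_lt (volume : Measure ℝ) (f := fun s => secLen X s / α)
    (Filter.Eventually.of_forall (fun s => div_nonneg (secLen_nonneg X s) hα.le))
    ((measurable_secLen hX).div_const α).aemeasurable
  rw [← h, volume_eq_lintegral_secLen hX]
  have hinv : (ENNReal.ofReal α)⁻¹ ≠ ⊤ := by
    simp only [ne_eq, ENNReal.inv_eq_top, ENNReal.ofReal_eq_zero, not_le]
    exact hα
  rw [← lintegral_mul_const' _ _ hinv]
  apply lintegral_congr
  intro s
  rw [ENNReal.ofReal_div_of_pos hα, div_eq_mul_inv]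

/-- Degenerate case of planar Brunn-Minkowski: only one of the two sets counts. -/
theorem planar_bm_one {Y Z : Set (ℝ × ℝ)} (_hY : IsCompact Y) (hZ : IsCompact Z)
    {b : ℝ} (_hb : 0 ≤ b) (c : ℝ × ℝ) (hsub : ∀ q ∈ Y, c + b • q ∈ Z) :
    b * Real.sqrt (volume Y).toReal ≤ Real.sqrt (volume Z).toReal := by
  have hsub' : c +ᵥ (b • Y) ⊆ Z := by
    rintro _ ⟨_, ⟨q, hq, rfl⟩, rfl⟩
    exact hsub q hq
  have hvol : volume (c +ᵥ (b • Y)) = ENNReal.ofReal (b ^ 2) * volume Y := by
    rw [measure_vadd, Measure.addHaar_smul]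
    simp [abs_of_nonneg (sq_nonneg b)]
  have hle : ENNReal.ofReal (b ^ 2) * volume Y ≤ volume Z := by
    rw [← hvol]; exact measure_mono hsub'
  have hreal : b ^ 2 * (volume Y).toReal ≤ (volume Z).toReal := by
    have := ENNReal.toReal_mono hZ.measure_lt_top.ne hle
    rwa [ENNReal.toReal_mul, ENNReal.toReal_ofReal (sq_nonneg b)] at this
  apply Real.le_sqrt_of_sq_le
  rw [mul_pow, Real.sq_sqrt ENNReal.toReal_nonneg]
  exact hreal

/-- Planar Brunn-Minkowski inequality for nonempty compact sets. -/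
theorem planar_bm {X Y Z : Set (ℝ × ℝ)} (hX : IsCompact X) (hY : IsCompact Y) (hZ : IsCompact Z)
    (hXne : X.Nonempty) (hYne : Y.Nonempty) {a b : ℝ} (ha : 0 ≤ a) (hb : 0 ≤ b)
    (hsub : ∀ p ∈ X, ∀ q ∈ Y, a • p + b • q ∈ Z) :
    a * Real.sqrt (volume X).toReal + b * Real.sqrt (volume Y).toReal
      ≤ Real.sqrt (volume Z).toReal := by
  have hXt : volume X ≠ ⊤ := hX.measure_lt_top.ne
  have hYt : volume Y ≠ ⊤ := hY.measure_lt_top.ne
  have hZt : volume Z ≠ ⊤ := hZ.measure_lt_top.ne
  by_cases hX0 : volume X = 0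
  · obtain ⟨p0, hp0⟩ := hXne
    rw [hX0]
    simp only [ENNReal.toReal_zero, Real.sqrt_zero, mul_zero, zero_add]
    exact planar_bm_one hY hZ hb (a • p0) (fun q hq => hsub p0 hp0 q hq)
  by_cases hY0 : volume Y = 0
  · obtain ⟨q0, hq0⟩ := hYne
    rw [hY0]
    simp only [ENNReal.toReal_zero, Real.sqrt_zero, mul_zero, add_zero]
    exact planar_bm_one hX hZ ha (b • q0)
      (fun p hp => by rw [add_comm]; exact hsub p hp q0 hq0)
  by_cases hab : a = 0 ∧ b = 0
  · rw [hab.1, hab.2]
    simp
  have hab' : 0 < a ∨ 0 < b := by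
    by_contra h
    push Not at h
    exact hab ⟨le_antisymm h.1 ha, le_antisymm h.2 hb⟩
  set α : ℝ := ⨆ s, secLen X s with hα
  set γ : ℝ := ⨆ r, secLen Y r with hγ
  have hxle : ∀ s, secLen X s ≤ α := fun s => le_ciSup (bddAbove_secLen hX) s
  have hyle : ∀ r, secLen Y r ≤ γ := fun r => le_ciSup (bddAbove_secLen hY) r
  have hαpos : 0 < α := by
    by_contra h
    apply hX0
    rw [volume_eq_lintegral_secLen hX]
    have : ∀ s, secLen X s = 0 := fun s =>
      le_antisymm (le_trans (hxle s) (not_lt.mp h)) (secLen_nonneg X s)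
    simp [this]
  have hγpos : 0 < γ := by
    by_contra h
    apply hY0
    rw [volume_eq_lintegral_secLen hY]
    have : ∀ s, secLen Y s = 0 := fun s =>
      le_antisymm (le_trans (hyle s) (not_lt.mp h)) (secLen_nonneg Y s)
    simp [this]
  set κ : ℝ := a * α + b * γ with hκ
  have hκpos : 0 < κ := by
    rcases hab' with h | h
    · have h1 : 0 < a * α := mul_pos h hαpos
      have h2 : 0 ≤ b * γ := mul_nonneg hb hγpos.le
      linarith
    · have h1 : 0 ≤ a * α := mul_nonneg ha hαpos.le
      have h2 : 0 < b * γ := mul_pos h hγpos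
      linarith
  -- the level sets
  have hpt : ∀ t ∈ Ioi (0 : ℝ),
      ENNReal.ofReal a * volume {s : ℝ | t < secLen X s / α}
        + ENNReal.ofReal b * volume {r : ℝ | t < secLen Y r / γ}
        ≤ volume {r : ℝ | t < secLen Z r / κ} := by
    intro t ht
    have ht0 : (0 : ℝ) < t := ht
    by_cases ht1 : t < 1
    · have hIm : MeasurableSet {s : ℝ | t < secLen X s / α} :=
        measurableSet_lt measurable_const ((measurable_secLen hX).div_const α)
      have hJm : MeasurableSet {r : ℝ | t < secLen Y r / γ} :=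
        measurableSet_lt measurable_const ((measurable_secLen hY).div_const γ)
      have hIsub : {s : ℝ | t < secLen X s / α} ⊆ Prod.fst '' X := by
        intro s hs
        have hs' : t < secLen X s / α := hs
        have : 0 < secLen X s := by
          have := (lt_div_iff₀ hαpos).mp hs'
          nlinarith [mul_pos ht0 hαpos]
        exact (secLen_pos_mem this).1
      have hJsub : {r : ℝ | t < secLen Y r / γ} ⊆ Prod.fst '' Y := by
        intro s hs
        have hs' : t < secLen Y s / γ := hs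
        have : 0 < secLen Y s := by
          have := (lt_div_iff₀ hγpos).mp hs'
          nlinarith [mul_pos ht0 hγpos]
        exact (secLen_pos_mem this).1
      have hIf : volume {s : ℝ | t < secLen X s / α} ≠ ⊤ :=
        ne_top_of_le_ne_top (hX.image continuous_fst).measure_lt_top.ne (measure_mono hIsub)
      have hJf : volume {r : ℝ | t < secLen Y r / γ} ≠ ⊤ :=
        ne_top_of_le_ne_top (hY.image continuous_fst).measure_lt_top.ne (measure_mono hJsub)
      have hIne : {s : ℝ | t < secLen X s / α}.Nonempty := by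
        have h1 : t * α < ⨆ s, secLen X s := by
          rw [← hα]; nlinarith
        obtain ⟨s, hs⟩ := exists_lt_of_lt_ciSup h1
        exact ⟨s, (lt_div_iff₀ hαpos).mpr hs⟩
      have hJne : {r : ℝ | t < secLen Y r / γ}.Nonempty := by
        have h1 : t * γ < ⨆ s, secLen Y s := by
          rw [← hγ]; nlinarith
        obtain ⟨s, hs⟩ := exists_lt_of_lt_ciSup h1
        exact ⟨s, (lt_div_iff₀ hγpos).mpr hs⟩
      apply bm1_meas hIm hJm hIf hJf hIne hJne ha hb
      intro s hs r hr
      have hs' : t * α < secLen X s := (lt_div_iff₀ hαpos).mp hs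
      have hr' : t * γ < secLen Y r := (lt_div_iff₀ hγpos).mp hr
      have hxs : 0 < secLen X s := lt_trans (mul_pos ht0 hαpos) hs'
      have hyr : 0 < secLen Y r := lt_trans (mul_pos ht0 hγpos) hr'
      have hsec := bm1_compact (isCompact_sectionL hX s) (isCompact_sectionL hY r)
        (secLen_pos_mem hxs).2 (secLen_pos_mem hyr).2 ha hb
        (W := Prod.mk (a * s + b * r) ⁻¹' Z)
        (fun u hu v hv => by
          have := hsub (s, u) hu (r, v) hv
          have e : a • ((s, u) : ℝ × ℝ) + b • ((r, v) : ℝ × ℝ)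
              = (a * s + b * r, a * u + b * v) := by
            ext <;> simp
          rw [e] at this
          exact this)
      have hreal : a * secLen X s + b * secLen Y r ≤ secLen Z (a * s + b * r) := by
        have h1 := ENNReal.toReal_mono (isCompact_sectionL hZ _).measure_lt_top.ne hsec
        rw [ENNReal.toReal_add (ENNReal.mul_ne_top ENNReal.ofReal_ne_top
            (isCompact_sectionL hX s).measure_lt_top.ne)
          (ENNReal.mul_ne_top ENNReal.ofReal_ne_top
            (isCompact_sectionL hY r).measure_lt_top.ne),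
          ENNReal.toReal_mul, ENNReal.toReal_mul, ENNReal.toReal_ofReal ha,
          ENNReal.toReal_ofReal hb] at h1
        exact h1
      show t < secLen Z (a * s + b * r) / κ
      rw [lt_div_iff₀ hκpos]
      have h3 : t * κ < a * secLen X s + b * secLen Y r := by
        rw [hκ]
        rcases hab' with h | h
        · have := mul_lt_mul_of_pos_left hs' h
          have := mul_le_mul_of_nonneg_left hr'.le hb
          nlinarith
        · have := mul_le_mul_of_nonneg_left hs'.le ha
          have := mul_lt_mul_of_pos_left hr' h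
          nlinarith
      linarith
    · have hI : {s : ℝ | t < secLen X s / α} = ∅ := by
        ext s
        simp only [mem_ofPred_eq, mem_empty_iff_false, iff_false, not_lt]
        have : secLen X s / α ≤ 1 := (div_le_one hαpos).mpr (hxle s)
        linarith
      have hJ : {r : ℝ | t < secLen Y r / γ} = ∅ := by
        ext s
        simp only [mem_ofPred_eq, mem_empty_iff_false, iff_false, not_lt]
        have : secLen Y s / γ ≤ 1 := (div_le_one hγpos).mpr (hyle s)
        linarith
      rw [hI, hJ]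
      simp
  -- integrate over the levels
  have hint : ENNReal.ofReal a * (volume X * (ENNReal.ofReal α)⁻¹)
      + ENNReal.ofReal b * (volume Y * (ENNReal.ofReal γ)⁻¹)
      ≤ volume Z * (ENNReal.ofReal κ)⁻¹ := by
    rw [layer_secLen hX hαpos, layer_secLen hY hγpos, layer_secLen hZ hκpos,
      ← lintegral_const_mul' _ _ ENNReal.ofReal_ne_top,
      ← lintegral_const_mul' _ _ ENNReal.ofReal_ne_top]
    exact le_trans (le_lintegral_add _ _) (setLIntegral_mono' measurableSet_Ioi hpt)
  -- back to real numbers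
  set P : ℝ := (volume X).toReal with hP
  set Q : ℝ := (volume Y).toReal with hQ
  set V : ℝ := (volume Z).toReal with hV
  have hreal : a * (P / α) + b * (Q / γ) ≤ V / κ := by
    have hfin : volume Z * (ENNReal.ofReal κ)⁻¹ ≠ ⊤ := by
      apply ENNReal.mul_ne_top hZt
      simp only [ne_eq, ENNReal.inv_eq_top, ENNReal.ofReal_eq_zero, not_le]
      exact hκpos
    have h1 := ENNReal.toReal_mono hfin hint
    have hfa : ENNReal.ofReal a * (volume X * (ENNReal.ofReal α)⁻¹) ≠ ⊤ := by
      apply ENNReal.mul_ne_top ENNReal.ofReal_ne_top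
      apply ENNReal.mul_ne_top hXt
      simp only [ne_eq, ENNReal.inv_eq_top, ENNReal.ofReal_eq_zero, not_le]
      exact hαpos
    have hfb : ENNReal.ofReal b * (volume Y * (ENNReal.ofReal γ)⁻¹) ≠ ⊤ := by
      apply ENNReal.mul_ne_top ENNReal.ofReal_ne_top
      apply ENNReal.mul_ne_top hYt
      simp only [ne_eq, ENNReal.inv_eq_top, ENNReal.ofReal_eq_zero, not_le]
      exact hγpos
    rw [ENNReal.toReal_add hfa hfb] at h1
    simp only [ENNReal.toReal_mul, ENNReal.toReal_inv, ENNReal.toReal_ofReal ha,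
      ENNReal.toReal_ofReal hb, ENNReal.toReal_ofReal hαpos.le, ENNReal.toReal_ofReal hγpos.le,
      ENNReal.toReal_ofReal hκpos.le] at h1
    simpa [div_eq_mul_inv] using h1
  have hP0 : 0 ≤ P := ENNReal.toReal_nonneg
  have hQ0 : 0 ≤ Q := ENNReal.toReal_nonneg
  set p : ℝ := Real.sqrt P with hp
  set q : ℝ := Real.sqrt Q with hq
  have hp0 : 0 ≤ p := Real.sqrt_nonneg _
  have hq0 : 0 ≤ q := Real.sqrt_nonneg _
  have hpP : p ^ 2 = P := Real.sq_sqrt hP0
  have hqQ : q ^ 2 = Q := Real.sq_sqrt hQ0
  apply Real.le_sqrt_of_sq_le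
  have hV' : κ * (a * (P / α) + b * (Q / γ)) ≤ V := by
    have := mul_le_mul_of_nonneg_left hreal hκpos.le
    rwa [mul_div_cancel₀ _ hκpos.ne'] at this
  have hkey : (a * p + b * q) ^ 2 ≤ κ * (a * (P / α) + b * (Q / γ)) := by
    have hid : κ * (a * (P / α) + b * (Q / γ))
        = (a * p + b * q) ^ 2 + a * b * (p * γ - q * α) ^ 2 / (α * γ) := by
      rw [hκ, ← hpP, ← hqQ]
      field_simp
      ring
    rw [hid]
    have : 0 ≤ a * b * (p * γ - q * α) ^ 2 / (α * γ) := by positivity
    linarith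
  exact le_trans hkey hV'

end Vale.Agent.Lib.Helper9.P243
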