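import Mathlib

set_option autoImplicit false

open MeasureTheory Set

namespace Vale.Agent.Lib.Helper9.P243

section Bang

variable {E : Type*} [NormedAddCommGroup E] [InnerProductSpace ℝ E]

/-- the sign attached to a truth value -/
noncomputable def bsgn (b : Bool) : ℝ := if b then 1 else -1

theorem bsgn_not (b : Bool) : bsgn (!b) = -bsgn b := by
  cases b <;> simp [bsgn]

theorem bsgn_sq (b : Bool) : bsgn b * bsgn b = 1 := by
  cases b <;> simp [bsgn]

theorem bsgn_mul_le_abs (b : Bool) (x : ℝ) : bsgn b * x ≤ |x| := by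
  cases b
  · simp only [bsgn, Bool.false_eq_true, if_false, neg_mul, one_mul]
    exact neg_le_abs x
  · simp only [bsgn, if_true, one_mul]
    exact le_abs_self x

theorem sum_update_bool {ι M : Type*} [Fintype ι] [DecidableEq ι] [AddCommGroup M]
    (g : ι → Bool → M) (ε : ι → Bool) (k : ι) (b : Bool) :
    ∑ i, g i (Function.update ε k b i) = ∑ i, g i (ε i) + (g k b - g k (ε k)) := by
  rw [← Finset.add_sum_erase _ _ (Finset.mem_univ k),
    ← Finset.add_sum_erase (f := fun i => g i (ε i)) _ (Finset.mem_univ k)]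
  have h : ∑ i ∈ Finset.univ.erase k, g i (Function.update ε k b i)
      = ∑ i ∈ Finset.univ.erase k, g i (ε i) := by
    apply Finset.sum_congr rfl
    intro i hi
    rw [Function.update_of_ne (Finset.ne_of_mem_erase hi)]
  rw [h, Function.update_self]
  abel

/-- Bang's sign lemma: for unit vectors `ν i`, half-widths `w i ≥ 0`, midpoints `m i` and a centre
`c`, some vertex `c + ∑ ± w i • ν i` avoids all the open planks `|⟪x, ν k⟫ - m k| < w k`. -/
theorem bang_sign {ι : Type*} [Fintype ι] [DecidableEq ι] (ν : ι → E) (hν : ∀ i, ‖ν i‖ = 1)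
    (w : ι → ℝ) (hw : ∀ i, 0 ≤ w i) (m : ι → ℝ) (c : E) :
    ∃ ε : ι → Bool, ∀ k,
      w k ≤ |inner ℝ (c + ∑ i, (bsgn (ε i) * w i) • ν i) (ν k) - m k| := by
  classical
  let Φ : (ι → Bool) → ℝ := fun ε =>
    ‖∑ i, (bsgn (ε i) * w i) • ν i‖ ^ 2
      + 2 * ∑ i, bsgn (ε i) * w i * (inner ℝ c (ν i) - m i)
  obtain ⟨ε, -, hmax⟩ := Finset.exists_max_image (Finset.univ : Finset (ι → Bool)) Φ
    Finset.univ_nonempty
  refine ⟨ε, fun k => ?_⟩
  have hk := hmax (Function.update ε k (!ε k)) (Finset.mem_univ _)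
  set q : E := ∑ i, (bsgn (ε i) * w i) • ν i with hq
  set s : ℝ := bsgn (ε k) with hs
  have hq' : ∑ i, (bsgn (Function.update ε k (!ε k) i) * w i) • ν i
      = q + (-(2 * s * w k)) • ν k := by
    rw [sum_update_bool (fun i b => (bsgn b * w i) • ν i) ε k (!ε k), bsgn_not, ← sub_smul]
    congr 2
    rw [hs]; ring
  have ha' : ∑ i, bsgn (Function.update ε k (!ε k) i) * w i * (inner ℝ c (ν i) - m i)
      = ∑ i, bsgn (ε i) * w i * (inner ℝ c (ν i) - m i)
        + (-(2 * s * w k)) * (inner ℝ c (ν k) - m k) := by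
    rw [sum_update_bool (fun i b => bsgn b * w i * (inner ℝ c (ν i) - m i)) ε k (!ε k), bsgn_not]
    congr 1
    rw [hs]; ring
  have hnorm : ‖q + (-(2 * s * w k)) • ν k‖ ^ 2
      = ‖q‖ ^ 2 - 4 * s * w k * inner ℝ q (ν k) + 4 * (w k) ^ 2 := by
    rw [← real_inner_self_eq_norm_sq, inner_add_left, inner_add_right, inner_add_right,
      inner_smul_left, inner_smul_right, inner_smul_left, inner_smul_right,
      real_inner_self_eq_norm_sq, real_inner_self_eq_norm_sq, hν k, real_inner_comm q (ν k)]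
    simp only [RCLike.conj_to_real]
    have hss : s * s = 1 := bsgn_sq (ε k)
    have : (2 * s * w k) * (2 * s * w k) = 4 * (w k) ^ 2 := by
      have : (2 * s * w k) * (2 * s * w k) = 4 * (s * s) * (w k) ^ 2 := by ring
      rw [this, hss]; ring
    nlinarith [this]
  have hineq : (w k) ^ 2 ≤ s * w k * (inner ℝ (c + q) (ν k) - m k) := by
    have h1 : Φ (Function.update ε k (!ε k)) ≤ Φ ε := hk
    simp only [Φ] at h1
    rw [hq', ha', hnorm] at h1
    rw [inner_add_left]
    nlinarith [h1]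
  rcases (hw k).eq_or_lt with h0 | hpos
  · rw [← h0]; exact abs_nonneg _
  · have h2 : w k ≤ s * (inner ℝ (c + q) (ν k) - m k) := by
      have : w k * w k ≤ w k * (s * (inner ℝ (c + q) (ν k) - m k)) := by nlinarith [hineq]
      exact le_of_mul_le_mul_left this hpos
    exact h2.trans (bsgn_mul_le_abs _ _)

end Bang

end Vale.Agent.Lib.Helper9.P243
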