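import Mathlib
import Vale.Agent.Lib.Helper9.P243.Bang1

set_option autoImplicit false

open MeasureTheory Set

namespace Vale.Agent.Lib.Helper9.P243

section Bang2

variable {E : Type*} [NormedAddCommGroup E] [InnerProductSpace ℝ E]

theorem convex_combo_add {M : Type*} [AddCommGroup M] [Module ℝ M] (x y c : M) {p q : ℝ}
    (hpq : p + q = 1) : p • (x + c) + q • (y + c) = p • x + q • y + c := by
  have h : p • c + q • c = c := by rw [← add_smul, hpq, one_smul]
  calc p • (x + c) + q • (y + c) = p • x + q • y + (p • c + q • c) := by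
        rw [smul_add, smul_add]; abel
    _ = p • x + q • y + c := by rw [h]

/-- every width of `C` (in every unit direction) is at least `r` -/
def WidthGE (C : Set E) (r : ℝ) : Prop :=
  ∀ μ : E, ‖μ‖ = 1 → ∃ x ∈ C, ∃ y ∈ C, r ≤ inner ℝ (x - y) μ

/-- a compact convex set all of whose widths are at least `r > 0` contains a chord of length `r`
in every direction -/
theorem exists_chord [CompleteSpace E] {C : Set E} (hC : Convex ℝ C) (hCc : IsCompact C)
    {r : ℝ} (hr : 0 < r) (hW : WidthGE C r) {v : E} (hv : ‖v‖ = 1) :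
    ∃ x ∈ C, x + r • v ∈ C := by
  by_contra hcon0
  have hcon : ∀ x ∈ C, x + r • v ∉ C := fun x hx h => hcon0 ⟨x, hx, h⟩
  set C' : Set E := (fun x => x + (-(r • v))) '' C with hC'
  have hC'conv : Convex ℝ C' := by
    rintro _ ⟨x, hx, rfl⟩ _ ⟨y, hy, rfl⟩ a b ha hb hab
    exact ⟨a • x + b • y, hC hx hy ha hb hab, (convex_combo_add x y _ hab).symm⟩
  have hC'closed : IsClosed C' :=
    (hCc.image (by fun_prop : Continuous fun x : E => x + (-(r • v)))).isClosed
  have hdisj : Disjoint C C' := by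
    rw [Set.disjoint_left]
    rintro z hz ⟨x, hx, rfl⟩
    apply hcon (x + -(r • v)) hz
    simpa using hx
  obtain ⟨f, u, w, hfu, huw, hfw⟩ :=
    geometric_hahn_banach_compact_closed hC hCc hC'conv hC'closed hdisj
  set g : E := (InnerProductSpace.toDual ℝ E).symm f with hg
  have hgf : ∀ x, f x = inner ℝ g x := fun x => by
    rw [hg, InnerProductSpace.toDual_symm_apply]
  have hxy : ∀ x ∈ C, ∀ y ∈ C, inner ℝ g (x - y) < -(r * inner ℝ g v) := by
    intro x hx y hy
    have h1 := hfu x hx
    have h2 := hfw (y + -(r • v)) ⟨y, hy, rfl⟩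
    rw [hgf] at h1 h2
    rw [inner_add_right, inner_neg_right, inner_smul_right] at h2
    rw [inner_sub_right]
    linarith
  obtain ⟨x0, hx0, -, -, -⟩ := hW v hv
  have hgv : inner ℝ g v < 0 := by
    have := hxy x0 hx0 x0 hx0
    rw [sub_self, inner_zero_right] at this
    nlinarith
  have hg0 : g ≠ 0 := by
    intro h
    rw [h, inner_zero_left] at hgv
    exact lt_irrefl _ hgv
  have hgn : 0 < ‖g‖ := norm_pos_iff.mpr hg0
  set μ : E := (‖g‖)⁻¹ • g with hμ
  have hμ1 : ‖μ‖ = 1 := by
    rw [hμ, norm_smul, norm_inv, norm_norm, inv_mul_cancel₀ hgn.ne']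
  obtain ⟨x, hx, y, hy, hle⟩ := hW μ hμ1
  have h3 := hxy x hx y hy
  have h4 : |inner ℝ g v| ≤ ‖g‖ * ‖v‖ := abs_real_inner_le_norm g v
  rw [hv, mul_one] at h4
  have h5 : inner ℝ (x - y) μ = (‖g‖)⁻¹ * inner ℝ g (x - y) := by
    rw [hμ, inner_smul_right, real_inner_comm]
  rw [h5] at hle
  have h6 : r * ‖g‖ ≤ inner ℝ g (x - y) := by
    have := mul_le_mul_of_nonneg_left hle hgn.le
    rwa [← mul_assoc, mul_inv_cancel₀ hgn.ne', one_mul, mul_comm] at this
  have h7 : -(inner ℝ g v) ≤ ‖g‖ := (neg_le_abs _).trans h4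
  nlinarith

/-- intersecting with a translate lowers all widths by at most the length of the translation -/
theorem widthGE_inter_translate [CompleteSpace E] {C : Set E} (hC : Convex ℝ C)
    (hCc : IsCompact C) {r a : ℝ} (ha : 0 ≤ a) (har : a < r) (hW : WidthGE C r) {v : E}
    (hv : ‖v‖ = 1) : WidthGE {z | z ∈ C ∧ z + a • v ∈ C} (r - a) := by
  have hr : 0 < r := lt_of_le_of_lt ha har
  obtain ⟨x0, hx0, hx1⟩ := exists_chord hC hCc hr hW hv
  intro μ hμ
  obtain ⟨x, hx, y, hy, hxy⟩ := hW μ hμ
  set lam : ℝ := a / r with hlam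
  have hlam0 : 0 ≤ lam := div_nonneg ha hr.le
  have hlam1 : lam ≤ 1 := (div_le_one hr).mpr har.le
  have hlamr : lam * r = a := div_mul_cancel₀ a hr.ne'
  have hmem : ∀ z ∈ C, lam • x0 + (1 - lam) • z ∈ C ∧ lam • x0 + (1 - lam) • z + a • v ∈ C := by
    intro z hz
    refine ⟨hC hx0 hz hlam0 (by linarith) (by ring), ?_⟩
    have : lam • x0 + (1 - lam) • z + a • v = lam • (x0 + r • v) + (1 - lam) • z := by
      rw [smul_add, smul_smul, hlamr]; abel
    rw [this]
    exact hC hx1 hz hlam0 (by linarith) (by ring)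
  refine ⟨lam • x0 + (1 - lam) • x, hmem x hx, lam • x0 + (1 - lam) • y, hmem y hy, ?_⟩
  have : lam • x0 + (1 - lam) • x - (lam • x0 + (1 - lam) • y) = (1 - lam) • (x - y) := by
    rw [smul_sub]; abel
  rw [this, inner_smul_left]
  simp only [RCLike.conj_to_real]
  have h1 : (1 - lam) * r ≤ (1 - lam) * inner ℝ (x - y) μ :=
    mul_le_mul_of_nonneg_left hxy (by linarith)
  have h2 : (1 - lam) * r = r - a := by rw [sub_mul, one_mul, hlamr]
  linarith

/-- a compact convex set of width at least `r` contains a translate of the vertex set of a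
zonotope whose generating segments have total length less than `r` -/
theorem zonotope_translate [CompleteSpace E] {ι : Type*} [DecidableEq ι] (ν : ι → E)
    (hν : ∀ i, ‖ν i‖ = 1) (w : ι → ℝ) (hw : ∀ i, 0 ≤ w i) (s : Finset ι) :
    ∀ (C : Set E), Convex ℝ C → IsCompact C → C.Nonempty → ∀ r : ℝ, WidthGE C r →
      ∑ i ∈ s, 2 * w i < r → ∃ y, ∀ T ⊆ s, y + ∑ i ∈ T, (2 * w i) • ν i ∈ C := by
  induction s using Finset.induction_on with
  | empty =>
    intro C _ _ hne r _ _
    obtain ⟨y, hy⟩ := hne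
    refine ⟨y, fun T hT => ?_⟩
    rw [Finset.subset_empty.mp hT]
    simpa using hy
  | insert a s ha ih =>
    intro C hC hCc hne r hW hsum
    rw [Finset.sum_insert ha] at hsum
    have hs0 : 0 ≤ ∑ i ∈ s, 2 * w i := Finset.sum_nonneg fun i _ => by have := hw i; positivity
    have hwa : 0 ≤ 2 * w a := by have := hw a; positivity
    set C1 : Set E := {z | z ∈ C ∧ z + (2 * w a) • ν a ∈ C} with hC1
    have hC1conv : Convex ℝ C1 := by
      intro x hx y hy p q hp hq hpq
      refine ⟨hC hx.1 hy.1 hp hq hpq, ?_⟩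
      rw [← convex_combo_add x y _ hpq]
      exact hC hx.2 hy.2 hp hq hpq
    have hC1c : IsCompact C1 := by
      have hcl : IsClosed ((fun z : E => z + (2 * w a) • ν a) ⁻¹' C) :=
        hCc.isClosed.preimage (by fun_prop)
      exact hCc.inter_right hcl
    have hW1 : WidthGE C1 (r - 2 * w a) :=
      widthGE_inter_translate hC hCc hwa (by linarith) hW (hν a)
    have hne1 : C1.Nonempty := by
      obtain ⟨x, hx, -, -, -⟩ := hW1 (ν a) (hν a)
      exact ⟨x, hx⟩
    obtain ⟨y, hy⟩ := ih C1 hC1conv hC1c hne1 (r - 2 * w a) hW1 (by linarith)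
    refine ⟨y, fun T hT => ?_⟩
    by_cases haT : a ∈ T
    · have hsub : T.erase a ⊆ s := by
        intro i hi
        have h1 := Finset.mem_of_mem_erase hi
        have h2 := Finset.ne_of_mem_erase hi
        exact (Finset.mem_insert.mp (hT h1)).resolve_left h2
      have := (hy (T.erase a) hsub).2
      rw [← Finset.add_sum_erase T _ haT]
      have e : y + ((2 * w a) • ν a + ∑ i ∈ T.erase a, (2 * w i) • ν i)
          = y + ∑ i ∈ T.erase a, (2 * w i) • ν i + (2 * w a) • ν a := by abel
      rw [e]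
      exact this
    · have hsub : T ⊆ s := by
        intro i hi
        have h1 := Finset.mem_insert.mp (hT hi)
        rcases h1 with h | h
        · exact absurd (h ▸ hi) haT
        · exact h
      exact (hy T hsub).1

/-- Bang's plank theorem for open planks: if the widths of the planks sum to less than `r` and all
widths of the compact convex set `C` are at least `r`, some point of `C` lies in no plank. -/
theorem bang_open [CompleteSpace E] {ι : Type*} [Fintype ι] [DecidableEq ι] (ν : ι → E)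
    (hν : ∀ i, ‖ν i‖ = 1) (w : ι → ℝ) (hw : ∀ i, 0 ≤ w i) (m : ι → ℝ)
    {C : Set E} (hC : Convex ℝ C) (hCc : IsCompact C) (hne : C.Nonempty) {r : ℝ}
    (hW : WidthGE C r) (hsum : ∑ i, 2 * w i < r) :
    ∃ x ∈ C, ∀ k, w k ≤ |inner ℝ x (ν k) - m k| := by
  classical
  obtain ⟨y, hy⟩ := zonotope_translate ν hν w hw Finset.univ C hC hCc hne r hW hsum
  obtain ⟨ε, hε⟩ := bang_sign ν hν w hw m (y + ∑ i, w i • ν i)
  refine ⟨_, ?_, hε⟩
  have h := hy (Finset.univ.filter (fun i => ε i = true)) (Finset.subset_univ _)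
  have e : y + ∑ i, w i • ν i + ∑ i, (bsgn (ε i) * w i) • ν i
      = y + ∑ i ∈ Finset.univ.filter (fun i => ε i = true), (2 * w i) • ν i := by
    rw [add_assoc, ← Finset.sum_add_distrib, Finset.sum_filter]
    congr 1
    apply Finset.sum_congr rfl
    intro i _
    cases hεi : ε i
    · simp [bsgn]
    · simp only [bsgn, if_true, one_mul]
      rw [← add_smul]; congr 1; ring
  rw [e]
  exact h

end Bang2

end Vale.Agent.Lib.Helper9.P243
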