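import Mathlib
import Vale.Agent.Lib.Helper9.P243.Bang2

set_option autoImplicit false

open MeasureTheory Set

namespace Vale.Agent.Lib.Helper9.P243

section Bang3

variable {E : Type*} [NormedAddCommGroup E] [InnerProductSpace ℝ E]

theorem mem_grid_iff {η : ℝ} (hη : 0 < η) (k : ℤ) (x : ℝ) :
    x ∈ Ico ((k : ℝ) * η) (((k : ℝ) + 1) * η) ↔ ⌊x / η⌋ = k := by
  rw [Int.floor_eq_iff, mem_Ico, le_div_iff₀ hη, div_lt_iff₀ hη]

/-- the total length of finitely many distinct grid intervals inside `U` is at most the measure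
of `U` -/
theorem grid_sum_le {η : ℝ} (hη : 0 < η) (U : Set ℝ) (G : Finset ℤ)
    (hG : ∀ k ∈ G, Ico ((k : ℝ) * η) (((k : ℝ) + 1) * η) ⊆ U) :
    ∑ _k ∈ G, ENNReal.ofReal η ≤ volume U := by
  have hdisj : (G : Set ℤ).PairwiseDisjoint
      (fun k : ℤ => Ico ((k : ℝ) * η) (((k : ℝ) + 1) * η)) := by
    intro k _ k' _ hkk'
    rw [Function.onFun, Set.disjoint_left]
    intro x hx hx'
    exact hkk' (((mem_grid_iff hη k x).mp hx).symm.trans ((mem_grid_iff hη k' x).mp hx'))
  have hmeas : ∀ k ∈ G, MeasurableSet (Ico ((k : ℝ) * η) (((k : ℝ) + 1) * η)) :=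
    fun k _ => measurableSet_Ico
  have h1 := measure_biUnion_finset (μ := (volume : Measure ℝ)) hdisj hmeas
  have h2 : ∀ k : ℤ, volume (Ico ((k : ℝ) * η) (((k : ℝ) + 1) * η)) = ENNReal.ofReal η := by
    intro k
    rw [Real.volume_Ico]
    congr 1
    ring
  simp only [h2] at h1
  rw [← h1]
  apply measure_mono
  intro x hx
  simp only [mem_iUnion] at hx
  obtain ⟨k, hk, hxk⟩ := hx
  exact hG k hk hxk

/-- Bang's plank theorem applied to a family of grid planks -/
theorem bang_grid [CompleteSpace E] {m : ℕ} (ν : Fin m → E) (hν : ∀ i, ‖ν i‖ = 1)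
    (G : Fin m → Finset ℤ) {η θ : ℝ} (hη : 0 < η) (hθ : 0 < θ)
    {C : Set E} (hC : Convex ℝ C) (hCc : IsCompact C) (hne : C.Nonempty)
    {r : ℝ} (hW : WidthGE C r) (hsum : (∑ i, ((G i).card : ℝ)) * (η + 2 * θ) < r) :
    ∃ x ∈ C, ∀ i, ∀ k ∈ G i, η / 2 + θ ≤ |inner ℝ x (ν i) - ((k : ℝ) + 1 / 2) * η| := by
  classical
  have hsum' : ∑ p : (Sigma fun i : Fin m => {k : ℤ // k ∈ G i}), 2 * (η / 2 + θ) < r := by
    have h1 : ∑ p : (Sigma fun i : Fin m => {k : ℤ // k ∈ G i}), 2 * (η / 2 + θ)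
        = (∑ i, ((G i).card : ℝ)) * (η + 2 * θ) := by
      rw [Fintype.sum_sigma, Finset.sum_mul]
      apply Finset.sum_congr rfl
      intro i _
      rw [Finset.sum_const, Finset.card_univ, Fintype.card_coe, nsmul_eq_mul]
      ring
    rw [h1]
    exact hsum
  obtain ⟨x, hxC, hx⟩ := bang_open (ι := Sigma fun i : Fin m => {k : ℤ // k ∈ G i})
    (fun p => ν p.1) (fun p => hν p.1)
    (fun _ => η / 2 + θ) (fun _ => by positivity) (fun p => ((p.2.1 : ℝ) + 1 / 2) * η)
    hC hCc hne hW hsum'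
  exact ⟨x, hxC, fun i k hk => hx ⟨i, ⟨k, hk⟩⟩⟩

/-- Bang's plank theorem for arbitrary sets of parallel hyperplanes: if a nonempty compact convex
set `C`, all of whose widths are at least `r`, is covered by the sets `{x | ⟪x, ν i⟫ ∈ S i}`
(`ν i` unit vectors, `S i` arbitrary sets of reals), then `r ≤ ∑ i, |S i|` (outer measure). -/
theorem bang_sets [CompleteSpace E] {m : ℕ} (ν : Fin m → E) (hν : ∀ i, ‖ν i‖ = 1)
    (S : Fin m → Set ℝ) {C : Set E} (hC : Convex ℝ C) (hCc : IsCompact C) (hne : C.Nonempty)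
    {r : ℝ} (hW : WidthGE C r) (hcov : ∀ x ∈ C, ∃ i, inner ℝ x (ν i) ∈ S i) :
    ENNReal.ofReal r ≤ ∑ i, volume (S i) := by
  classical
  by_contra hlt0
  have hlt : ∑ i, volume (S i) < ENNReal.ofReal r := not_le.mp hlt0
  have hfin : ∑ i, volume (S i) ≠ ⊤ := (lt_of_lt_of_le hlt le_top).ne
  have hfini : ∀ i, volume (S i) ≠ ⊤ := fun i =>
    (ENNReal.sum_ne_top.mp hfin) i (Finset.mem_univ i)
  set V : ℝ := ∑ i, (volume (S i)).toReal with hV
  have hVr : V < r := by
    have h1 : ENNReal.ofReal V = ∑ i, volume (S i) := by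
      rw [hV, ENNReal.ofReal_sum_of_nonneg (fun i _ => ENNReal.toReal_nonneg)]
      apply Finset.sum_congr rfl
      intro i _
      exact ENNReal.ofReal_toReal (hfini i)
    rw [← h1] at hlt
    exact (ENNReal.ofReal_lt_ofReal_iff_of_nonneg
      (Finset.sum_nonneg fun i _ => ENNReal.toReal_nonneg)).mp hlt
  -- open supersets
  set δ : ℝ := (r - V) / (2 * ((m : ℝ) + 1)) with hδ
  have hm1 : (0 : ℝ) < (m : ℝ) + 1 := by positivity
  have hδpos : 0 < δ := div_pos (by linarith) (by positivity)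
  have hopen : ∀ i, ∃ U : Set ℝ, S i ⊆ U ∧ IsOpen U ∧ volume U ≤ volume (S i) + ENNReal.ofReal δ :=
    fun i => by
      obtain ⟨U, hSU, hU, hle⟩ := (S i).exists_isOpen_le_add volume
        (ε := ENNReal.ofReal δ) (by simpa using hδpos)
      exact ⟨U, hSU, hU, hle⟩
  choose U hSU hUo hUle using hopen
  have hUfin : ∀ i, volume (U i) ≠ ⊤ := fun i =>
    ne_top_of_le_ne_top (ENNReal.add_ne_top.mpr ⟨hfini i, ENNReal.ofReal_ne_top⟩) (hUle i)
  have hUreal : ∀ i, (volume (U i)).toReal ≤ (volume (S i)).toReal + δ := by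
    intro i
    have h := ENNReal.toReal_mono (ENNReal.add_ne_top.mpr ⟨hfini i, ENNReal.ofReal_ne_top⟩) (hUle i)
    rwa [ENNReal.toReal_add (hfini i) ENNReal.ofReal_ne_top, ENNReal.toReal_ofReal hδpos.le] at h
  set V' : ℝ := ∑ i, (volume (U i)).toReal with hV'
  have hV'r : V' < r := by
    have h1 : V' ≤ V + (m : ℝ) * δ := by
      rw [hV', hV]
      calc ∑ i, (volume (U i)).toReal ≤ ∑ i, ((volume (S i)).toReal + δ) :=
            Finset.sum_le_sum fun i _ => hUreal i
        _ = ∑ i, (volume (S i)).toReal + (m : ℝ) * δ := by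
            rw [Finset.sum_add_distrib]; simp
    have h2 : (m : ℝ) * δ < r - V := by
      rw [hδ]
      have : (m : ℝ) * ((r - V) / (2 * ((m : ℝ) + 1))) = (r - V) * ((m : ℝ) / (2 * ((m : ℝ) + 1))) := by
        field_simp
      rw [this]
      have h3 : (m : ℝ) / (2 * ((m : ℝ) + 1)) < 1 := by
        rw [div_lt_one (by positivity)]
        have : (0 : ℝ) ≤ (m : ℝ) := Nat.cast_nonneg m
        linarith
      nlinarith
    linarith
  -- Lebesgue number
  have hcopen : ∀ i, IsOpen {x : E | inner ℝ x (ν i) ∈ U i} := fun i =>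
    (hUo i).preimage (by fun_prop)
  have hcover : C ⊆ ⋃ i, {x : E | inner ℝ x (ν i) ∈ U i} := by
    intro x hx
    obtain ⟨i, hi⟩ := hcov x hx
    exact mem_iUnion.mpr ⟨i, hSU i hi⟩
  obtain ⟨η, hη, hleb⟩ := lebesgue_number_lemma_of_metric hCc hcopen hcover
  -- bound
  obtain ⟨R, hR⟩ := hCc.isBounded.exists_norm_le
  set N : ℤ := ⌈R / η⌉ + 1 with hN
  set G : Fin m → Finset ℤ := fun i => (Finset.Icc (-N) N).filter
    (fun k : ℤ => Ico ((k : ℝ) * η) (((k : ℝ) + 1) * η) ⊆ U i) with hG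
  have hGsub : ∀ i, ∀ k ∈ G i, Ico ((k : ℝ) * η) (((k : ℝ) + 1) * η) ⊆ U i := fun i k hk =>
    (Finset.mem_filter.mp hk).2
  have hGsum : ∀ i, ((G i).card : ℝ) * η ≤ (volume (U i)).toReal := by
    intro i
    have h := grid_sum_le hη (U i) (G i) (hGsub i)
    rw [Finset.sum_const, nsmul_eq_mul] at h
    have h2 := ENNReal.toReal_mono (hUfin i) h
    rwa [ENNReal.toReal_mul, ENNReal.toReal_natCast, ENNReal.toReal_ofReal hη.le] at h2
  -- grid planks
  have hcnt0 : 0 ≤ ∑ i, ((G i).card : ℝ) := Finset.sum_nonneg fun i _ => Nat.cast_nonneg _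
  obtain ⟨cnt, hcnt⟩ : ∃ cnt : ℝ, cnt = ∑ i, ((G i).card : ℝ) := ⟨_, rfl⟩
  rw [← hcnt] at hcnt0
  obtain ⟨θ, hθ⟩ : ∃ θ : ℝ, θ = (r - V') / (2 * (cnt + 1)) := ⟨_, rfl⟩
  have hθpos : 0 < θ := by
    rw [hθ]
    exact div_pos (by linarith) (by positivity)
  have hsum : (∑ i, ((G i).card : ℝ)) * (η + 2 * θ) < r := by
    rw [← hcnt]
    have h2 : cnt * η ≤ V' := by
      rw [hcnt, Finset.sum_mul, hV']
      exact Finset.sum_le_sum fun i _ => hGsum i
    have h3 : cnt * (2 * θ) < r - V' := by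
      rw [hθ]
      have : cnt * (2 * ((r - V') / (2 * (cnt + 1)))) = (r - V') * (cnt / (cnt + 1)) := by
        field_simp
      rw [this]
      have h4 : cnt / (cnt + 1) < 1 := by
        rw [div_lt_one (by positivity)]
        linarith
      nlinarith
    nlinarith
  obtain ⟨x, hxC, hx⟩ := bang_grid ν hν G hη hθpos hC hCc hne hW hsum
  obtain ⟨i, hi⟩ := hleb x hxC
  set s : ℝ := inner ℝ x (ν i) with hs
  set k : ℤ := ⌊s / η⌋ with hk
  have hsk : s ∈ Ico ((k : ℝ) * η) (((k : ℝ) + 1) * η) := (mem_grid_iff hη k s).mpr rfl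
  have hkU : Ico ((k : ℝ) * η) (((k : ℝ) + 1) * η) ⊆ U i := by
    intro τ hτ
    have hdist : |τ - s| < η := by
      rw [abs_lt]
      constructor <;> nlinarith [hτ.1, hτ.2, hsk.1, hsk.2]
    have hball : x + (τ - s) • ν i ∈ Metric.ball x η := by
      rw [Metric.mem_ball, dist_eq_norm, add_sub_cancel_left, norm_smul, hν i, mul_one]
      exact hdist
    have := hi hball
    simp only [Set.mem_ofPred_eq] at this
    rw [inner_add_left, inner_smul_left, real_inner_self_eq_norm_sq, hν i] at this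
    simp only [RCLike.conj_to_real] at this
    have e : inner ℝ x (ν i) + (τ - s) * 1 ^ 2 = τ := by rw [← hs]; ring
    rwa [e] at this
  have hkN : k ∈ Finset.Icc (-N) N := by
    have hsR : |s| ≤ R := by
      have := abs_real_inner_le_norm x (ν i)
      rw [hν i, mul_one] at this
      exact this.trans (hR x hxC)
    have h1 : |s / η| ≤ R / η := by
      rw [abs_div, abs_of_pos hη]
      exact div_le_div_of_nonneg_right hsR hη.le
    have h2 : (k : ℝ) ≤ s / η := Int.floor_le _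
    have h3 : s / η < (k : ℝ) + 1 := Int.lt_floor_add_one _
    have h4 : R / η ≤ (⌈R / η⌉ : ℝ) := Int.le_ceil _
    have h5 := abs_le.mp h1
    rw [Finset.mem_Icc]
    constructor
    · have : ((-N : ℤ) : ℝ) ≤ (k : ℝ) := by
        rw [hN]; push_cast; linarith
      exact_mod_cast this
    · have : (k : ℝ) ≤ ((N : ℤ) : ℝ) := by
        rw [hN]; push_cast; linarith
      exact_mod_cast this
  have hkG : k ∈ G i := Finset.mem_filter.mpr ⟨hkN, hkU⟩
  have hcontra := hx i k hkG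
  have habs : |s - ((k : ℝ) + 1 / 2) * η| ≤ η / 2 := by
    rw [abs_le]
    constructor <;> nlinarith [hsk.1, hsk.2]
  linarith

end Bang3

end Vale.Agent.Lib.Helper9.P243
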