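import Mathlib

set_option autoImplicit false

namespace Vale.Agent.Lib.Helper9.P243

/-- corner triangle inequality of type 1 (box `[x1,x3] × [y0,y3]`, corner at the bottom left). -/
theorem cert_T1 (a2 a3 b1 b2 b3 A2 A3 B1 B2 B3 : ℝ)
    (ha2 : 0 ≤ a2) (ha3 : 0 ≤ a3) (hb1 : 0 ≤ b1) (hb2 : 0 ≤ b2) (hb3 : 0 ≤ b3)
    (hE : 0 < a2 * b3 + a3 * (b1 + b2 + b3))
    (e3 : b3 * A3 + a3 * B3 ≤ a3 * b3)
    (e2 : (b1 + b2) * (A2 + A3) + (a2 + a3) * (B1 + B2) ≤ (a2 + a3) * (b1 + b2))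
    (d2 : (b1 + b2 + b3) * A2 + a2 * (B1 + B2 + B3) ≤ a2 * (b1 + b2 + b3)) :
    (b1 + b2 + b3) * (A2 + A3) + (a2 + a3) * (B1 + B2 + B3) ≤ (a2 + a3) * (b1 + b2 + b3) := by
  by_contra hcon
  have hpos : 0 < (a2 * b3 + a3 * (b1 + b2 + b3)) *
      ((b1 + b2 + b3) * (A2 + A3) + (a2 + a3) * (B1 + B2 + B3) - (a2 + a3) * (b1 + b2 + b3)) :=
    mul_pos hE (by linarith)
  have h1 := mul_nonneg (mul_nonneg ha3 (add_nonneg (add_nonneg hb1 hb2) hb3)) (sub_nonneg.2 e2)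
  have h2 := mul_nonneg (mul_nonneg hb3 (add_nonneg ha2 ha3)) (sub_nonneg.2 d2)
  have h3 := mul_nonneg (mul_nonneg (add_nonneg ha2 ha3) (add_nonneg (add_nonneg hb1 hb2) hb3))
    (sub_nonneg.2 e3)
  linarith [hpos, h1, h2, h3]

/-- main certificate, case where the middle block is the flattest one. -/
theorem cert_pp (a1 a2 a3 b1 b2 b3 A1 A2 A3 B1 B2 B3 : ℝ)
    (ha1 : 0 < a1) (ha2 : 0 < a2) (ha3 : 0 < a3) (hb1 : 0 < b1) (hb2 : 0 < b2) (hb3 : 0 < b3)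
    (hs1 : a1 * b2 ≤ a2 * b1) (hs3 : a3 * b2 ≤ a2 * b3)
    (T1 : (b1 + b2 + b3) * (A2 + A3) + (a2 + a3) * (B1 + B2 + B3) ≤ (a2 + a3) * (b1 + b2 + b3))
    (T2 : (b1 + b2 + b3) * (A1 + A2) + (a1 + a2) * (B1 + B2 + B3) ≤ (a1 + a2) * (b1 + b2 + b3))
    (e1 : b1 * A1 + a1 * B1 ≤ a1 * b1) (e3 : b3 * A3 + a3 * B3 ≤ a3 * b3)
    (m : b2 * A2 + a2 * B2 ≤ a2 * b2) :
    (b1 + b2 + b3) * (A1 + A2 + A3) + (a1 + a2 + a3) * (B1 + B2 + B3)
      ≤ (a1 + a2 + a3) * (b1 + b2 + b3) := by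
  by_contra hcon
  have hc1 : 0 ≤ a3 * (a2 * b1 - a1 * b2) := mul_nonneg ha3.le (by linarith)
  have hc2 : 0 ≤ a1 * (a2 * b3 - a3 * b2) := mul_nonneg ha1.le (by linarith)
  have hD : 0 < a2 * a3 * b1 + a1 * a2 * b3 - a1 * a3 * b2 := by
    have : 0 < a1 * a2 * b3 := by positivity
    nlinarith [hc1, this]
  have hpos : 0 < (a2 * a3 * b1 + a1 * a2 * b3 - a1 * a3 * b2) *
      ((b1 + b2 + b3) * (A1 + A2 + A3) + (a1 + a2 + a3) * (B1 + B2 + B3)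
        - (a1 + a2 + a3) * (b1 + b2 + b3)) :=
    mul_pos hD (by linarith)
  have hl2 : 0 ≤ b1 + b2 + b3 := by positivity
  have h1 := mul_nonneg hc1 (sub_nonneg.2 T1)
  have h2 := mul_nonneg hc2 (sub_nonneg.2 T2)
  have h3 := mul_nonneg (mul_nonneg hl2 (mul_nonneg ha2.le ha3.le)) (sub_nonneg.2 e1)
  have h4 := mul_nonneg (mul_nonneg hl2 (mul_nonneg ha1.le ha2.le)) (sub_nonneg.2 e3)
  have h5 := mul_nonneg (mul_nonneg hl2 (mul_nonneg ha1.le ha3.le)) (sub_nonneg.2 m)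
  linarith [hpos, h1, h2, h3, h4, h5]

/-- main certificate, mixed case. -/
theorem cert_pm (a1 a2 a3 b1 b2 b3 A1 A2 A3 B1 B2 B3 : ℝ)
    (ha1 : 0 < a1) (ha2 : 0 < a2) (ha3 : 0 < a3) (hb1 : 0 < b1) (hb2 : 0 < b2) (hb3 : 0 < b3)
    (hs1 : a1 * b2 ≤ a2 * b1) (hs3 : a2 * b3 ≤ a3 * b2)
    (T1 : (b1 + b2 + b3) * (A2 + A3) + (a2 + a3) * (B1 + B2 + B3) ≤ (a2 + a3) * (b1 + b2 + b3))
    (T3 : (b1 + b2) * (A1 + A2 + A3) + (a1 + a2 + a3) * (B1 + B2) ≤ (a1 + a2 + a3) * (b1 + b2))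
    (e1 : b1 * A1 + a1 * B1 ≤ a1 * b1) (e3 : b3 * A3 + a3 * B3 ≤ a3 * b3)
    (m : b2 * A2 + a2 * B2 ≤ a2 * b2) :
    (b1 + b2 + b3) * (A1 + A2 + A3) + (a1 + a2 + a3) * (B1 + B2 + B3)
      ≤ (a1 + a2 + a3) * (b1 + b2 + b3) := by
  by_contra hcon
  have hl1 : 0 < a1 + a2 + a3 := by positivity
  have hl2 : 0 < b1 + b2 + b3 := by positivity
  have hc1 : 0 ≤ (a1 + a2 + a3) * b3 * (a2 * b1 - a1 * b2) :=
    mul_nonneg (mul_nonneg hl1.le hb3.le) (by linarith)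
  have hc3 : 0 ≤ (b1 + b2 + b3) * a1 * (b2 * a3 - b3 * a2) :=
    mul_nonneg (mul_nonneg hl2.le ha1.le) (by linarith)
  have hD : 0 < b3 * (a2 * b1 - a1 * b2) * (a2 + a3) + a1 * a3 * b2 * (b1 + b2 + b3) := by
    have h1 : 0 ≤ b3 * (a2 * b1 - a1 * b2) * (a2 + a3) :=
      mul_nonneg (mul_nonneg hb3.le (by linarith)) (by positivity)
    have h2 : 0 < a1 * a3 * b2 * (b1 + b2 + b3) := by positivity
    linarith
  have hpos : 0 < (b3 * (a2 * b1 - a1 * b2) * (a2 + a3) + a1 * a3 * b2 * (b1 + b2 + b3)) *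
      ((b1 + b2 + b3) * (A1 + A2 + A3) + (a1 + a2 + a3) * (B1 + B2 + B3)
        - (a1 + a2 + a3) * (b1 + b2 + b3)) :=
    mul_pos hD (by linarith)
  have hll : 0 ≤ (a1 + a2 + a3) * (b1 + b2 + b3) := by positivity
  have h1 := mul_nonneg hc1 (sub_nonneg.2 T1)
  have h2 := mul_nonneg hc3 (sub_nonneg.2 T3)
  have h3 := mul_nonneg (mul_nonneg hll (mul_nonneg ha2.le hb3.le)) (sub_nonneg.2 e1)
  have h4 := mul_nonneg (mul_nonneg hll (mul_nonneg ha1.le hb2.le)) (sub_nonneg.2 e3)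
  have h5 := mul_nonneg (mul_nonneg hll (mul_nonneg ha1.le hb3.le)) (sub_nonneg.2 m)
  linarith [hpos, h1, h2, h3, h4, h5]

/-- The algebraic core of the planar two-plank lemma in the diagonal configuration. -/
theorem certP_core (a1 a2 a3 b1 b2 b3 A1 A2 A3 B1 B2 B3 : ℝ)
    (ha1 : 0 ≤ a1) (ha2 : 0 ≤ a2) (ha3 : 0 ≤ a3) (hb1 : 0 ≤ b1) (hb2 : 0 ≤ b2) (hb3 : 0 ≤ b3)
    (hA1 : 0 ≤ A1) (hA2 : 0 ≤ A2) (hA3 : 0 ≤ A3) (hB1 : 0 ≤ B1) (hB2 : 0 ≤ B2) (hB3 : 0 ≤ B3)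
    (hA1' : A1 ≤ a1) (hA2' : A2 ≤ a2) (hA3' : A3 ≤ a3)
    (hB1' : B1 ≤ b1) (hB2' : B2 ≤ b2) (hB3' : B3 ≤ b3)
    (e1 : b1 * A1 + a1 * B1 ≤ a1 * b1) (e3 : b3 * A3 + a3 * B3 ≤ a3 * b3)
    (m : b2 * A2 + a2 * B2 ≤ a2 * b2)
    (e2 : (b1 + b2) * (A2 + A3) + (a2 + a3) * (B1 + B2) ≤ (a2 + a3) * (b1 + b2))
    (e4 : (b2 + b3) * (A1 + A2) + (a1 + a2) * (B2 + B3) ≤ (a1 + a2) * (b2 + b3))
    (d1 : b2 * (A1 + A2 + A3) + (a1 + a2 + a3) * B2 ≤ (a1 + a2 + a3) * b2)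
    (d2 : (b1 + b2 + b3) * A2 + a2 * (B1 + B2 + B3) ≤ a2 * (b1 + b2 + b3)) :
    (b1 + b2 + b3) * (A1 + A2 + A3) + (a1 + a2 + a3) * (B1 + B2 + B3)
      ≤ (a1 + a2 + a3) * (b1 + b2 + b3) := by
  rcases ha2.eq_or_lt with h2 | h2
  · have hA2z : A2 = 0 := by linarith
    subst hA2z
    subst h2
    linarith [e1, e2, e3, e4]
  rcases hb2.eq_or_lt with g2 | g2
  · have hB2z : B2 = 0 := by linarith
    subst hB2z
    subst g2
    linarith [e1, e2, e3, e4]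
  rcases ha1.eq_or_lt with h1 | h1
  · have hA1z : A1 = 0 := by linarith
    subst hA1z
    subst h1
    by_cases hE : 0 < a2 * b3 + a3 * (b1 + b2 + b3)
    · have := cert_T1 a2 a3 b1 b2 b3 A2 A3 B1 B2 B3 h2.le ha3 hb1 g2.le hb3 hE e3 e2 d2
      linarith
    · have t1 : 0 ≤ a2 * b3 := mul_nonneg h2.le hb3
      have t2 : 0 ≤ a3 * (b1 + b2 + b3) := mul_nonneg ha3 (by linarith)
      have hb3z : b3 = 0 := by
        have : a2 * b3 = 0 := by linarith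
        rcases mul_eq_zero.1 this with h | h
        · linarith
        · exact h
      have ha3z : a3 = 0 := by
        have : a3 * (b1 + b2 + b3) = 0 := by linarith
        rcases mul_eq_zero.1 this with h | h
        · exact h
        · linarith
      have hA3z : A3 = 0 := by linarith
      have hB3z : B3 = 0 := by linarith
      subst hA3z hB3z hb3z ha3z
      linarith [d2]
  rcases hb1.eq_or_lt with g1 | g1
  · have hB1z : B1 = 0 := by linarith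
    subst hB1z
    subst g1
    by_cases hE : 0 < b2 * a3 + b3 * (a1 + a2 + a3)
    · have := cert_T1 b2 b3 a1 a2 a3 B2 B3 A1 A2 A3 g2.le hb3 h1.le h2.le ha3 hE
        (by linarith) (by linarith) (by linarith)
      linarith
    · have t1 : 0 ≤ b2 * a3 := mul_nonneg g2.le ha3
      have t2 : 0 ≤ b3 * (a1 + a2 + a3) := mul_nonneg hb3 (by linarith)
      have ha3z : a3 = 0 := by
        have : b2 * a3 = 0 := by linarith
        rcases mul_eq_zero.1 this with h | h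
        · linarith
        · exact h
      have hb3z : b3 = 0 := by
        have : b3 * (a1 + a2 + a3) = 0 := by linarith
        rcases mul_eq_zero.1 this with h | h
        · exact h
        · linarith
      have hA3z : A3 = 0 := by linarith
      have hB3z : B3 = 0 := by linarith
      subst hA3z hB3z hb3z ha3z
      linarith [d1]
  have hT2 : (b1 + b2 + b3) * (A1 + A2) + (a1 + a2) * (B1 + B2 + B3)
      ≤ (a1 + a2) * (b1 + b2 + b3) := by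
    have hE : 0 < a2 * b1 + a1 * (b3 + b2 + b1) := by
      have : 0 < a1 * (b3 + b2 + b1) := mul_pos h1 (by linarith)
      have : 0 ≤ a2 * b1 := mul_nonneg h2.le g1.le
      linarith
    have := cert_T1 a2 a1 b3 b2 b1 A2 A1 B3 B2 B1 h2.le h1.le hb3 g2.le g1.le hE
      (by linarith) (by linarith) (by linarith)
    linarith
  have hT3 : (b1 + b2) * (A1 + A2 + A3) + (a1 + a2 + a3) * (B1 + B2)
      ≤ (a1 + a2 + a3) * (b1 + b2) := by
    have hE : 0 < b2 * a1 + b1 * (a3 + a2 + a1) := by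
      have : 0 < b1 * (a3 + a2 + a1) := mul_pos g1 (by linarith)
      have : 0 ≤ b2 * a1 := mul_nonneg g2.le h1.le
      linarith
    have := cert_T1 b2 b1 a3 a2 a1 B2 B1 A3 A2 A1 g2.le g1.le ha3 h2.le h1.le hE
      (by linarith) (by linarith) (by linarith)
    linarith
  rcases ha3.eq_or_lt with h3 | h3
  · have hA3z : A3 = 0 := by linarith
    subst hA3z
    subst h3
    linarith [hT2]
  rcases hb3.eq_or_lt with g3 | g3
  · have hB3z : B3 = 0 := by linarith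
    subst hB3z
    subst g3
    linarith [hT3]
  have hT1 : (b1 + b2 + b3) * (A2 + A3) + (a2 + a3) * (B1 + B2 + B3)
      ≤ (a2 + a3) * (b1 + b2 + b3) := by
    have hE : 0 < a2 * b3 + a3 * (b1 + b2 + b3) := by
      have : 0 < a3 * (b1 + b2 + b3) := mul_pos h3 (by linarith)
      have : 0 ≤ a2 * b3 := mul_nonneg h2.le g3.le
      linarith
    exact cert_T1 a2 a3 b1 b2 b3 A2 A3 B1 B2 B3 h2.le h3.le g1.le g2.le g3.le hE e3 e2 d2
  have hT4 : (b2 + b3) * (A1 + A2 + A3) + (a1 + a2 + a3) * (B2 + B3)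
      ≤ (a1 + a2 + a3) * (b2 + b3) := by
    have hE : 0 < b2 * a3 + b3 * (a1 + a2 + a3) := by
      have : 0 < b3 * (a1 + a2 + a3) := mul_pos g3 (by linarith)
      have : 0 ≤ b2 * a3 := mul_nonneg g2.le h3.le
      linarith
    have := cert_T1 b2 b3 a1 a2 a3 B2 B3 A1 A2 A3 g2.le g3.le h1.le h2.le h3.le hE
      (by linarith) (by linarith) (by linarith)
    linarith
  by_cases s1 : a1 * b2 ≤ a2 * b1
  · by_cases s3 : a3 * b2 ≤ a2 * b3
    · exact cert_pp a1 a2 a3 b1 b2 b3 A1 A2 A3 B1 B2 B3 h1 h2 h3 g1 g2 g3 s1 s3 hT1 hT2 e1 e3 m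
    · exact cert_pm a1 a2 a3 b1 b2 b3 A1 A2 A3 B1 B2 B3 h1 h2 h3 g1 g2 g3 s1 (by linarith)
        hT1 hT3 e1 e3 m
  · by_cases s3 : a3 * b2 ≤ a2 * b3
    · have := cert_pm a3 a2 a1 b3 b2 b1 A3 A2 A1 B3 B2 B1 h3 h2 h1 g3 g2 g1 s3 (by linarith)
        (by linarith) (by linarith) e3 e1 m
      linarith
    · have := cert_pp b1 b2 b3 a1 a2 a3 B1 B2 B3 A1 A2 A3 g1 g2 g3 h1 h2 h3 (by linarith)
        (by linarith) (by linarith) (by linarith) (by linarith) (by linarith) (by linarith)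
      linarith

end Vale.Agent.Lib.Helper9.P243
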