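import Mathlib

-- P243 part B, written by helper7 (copied from their library folder so that the P243 hand-in
-- depends on a single folder).

/-!
# P243, part B: the tent bound for sections of a planar convex body

`tent_bound`: for a compact convex `D ⊆ ℝ × ℝ` whose first coordinates fill `[t₀, t₁]`,
the length of the section at `τ` is at least `area D * 2 min (τ - t₀) (t₁ - τ) / (t₁ - t₀)^2`.
`tent_integral`: the integral of the tent function.
-/

namespace Vale.Agent.Lib.Helper9.P243

open MeasureTheory Set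

/-- A nonnegative concave function on `[t₀, t₁]`, at a point `τ` in the left half:
the integral of f times 2 (τ - t₀) is at most (t₁ - t₀)^2 f τ. -/
theorem concave_tent_left {f : ℝ → ℝ} {t₀ t₁ τ : ℝ} (hf : ConcaveOn ℝ (Icc t₀ t₁) f)
    (hf0 : ∀ t ∈ Icc t₀ t₁, 0 ≤ f t) (hint : IntervalIntegrable f volume t₀ t₁)
    (hτ0 : t₀ ≤ τ) (hτ : τ - t₀ ≤ t₁ - τ) :
    (∫ t in t₀..t₁, f t) * (2 * (τ - t₀)) ≤ (t₁ - t₀) ^ 2 * f τ := by
  have hτ1 : τ ≤ t₁ := by linarith
  have hτmem : τ ∈ Icc t₀ t₁ := ⟨hτ0, hτ1⟩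
  rcases eq_or_lt_of_le hτ0 with h | h
  · subst h
    simp only [sub_self, mul_zero]
    exact mul_nonneg (sq_nonneg _) (hf0 _ hτmem)
  · have hx : 0 < τ - t₀ := by linarith
    set x := τ - t₀ with hxdef
    set m := 2 * τ - t₀ with hmdef
    have hm1 : m ≤ t₁ := by simp only [hmdef, hxdef] at *; linarith
    have hτm : τ ≤ m := by simp only [hmdef, hxdef] at *; linarith
    -- the comparison function
    let g : ℝ → ℝ := fun t => f τ * (t - t₀) / x
    have hgc : Continuous g := by
      simp only [g]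
      fun_prop
    have hgint : ∀ a b : ℝ, IntervalIntegrable g volume a b := fun a b => hgc.intervalIntegrable a b
    let h : ℝ → ℝ := fun t => g t - f t
    have hsub : ∀ a b : ℝ, a ∈ Icc t₀ t₁ → b ∈ Icc t₀ t₁ → IntervalIntegrable f volume a b := by
      intro a b ha hb
      apply hint.mono_set
      rw [uIcc_of_le (le_trans ha.1 ha.2)]
      intro y hy
      rcases le_total a b with hab | hab
      · rw [uIcc_of_le hab] at hy
        exact ⟨le_trans ha.1 hy.1, le_trans hy.2 hb.2⟩
      · rw [uIcc_of_ge hab] at hy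
        exact ⟨le_trans hb.1 hy.1, le_trans hy.2 ha.2⟩
    have hhint : ∀ a b : ℝ, a ∈ Icc t₀ t₁ → b ∈ Icc t₀ t₁ → IntervalIntegrable h volume a b :=
      fun a b ha hb => (hgint a b).sub (hsub a b ha hb)
    have ht0mem : t₀ ∈ Icc t₀ t₁ := ⟨le_rfl, by linarith⟩
    have ht1mem : t₁ ∈ Icc t₀ t₁ := ⟨by linarith, le_rfl⟩
    have hmmem : m ∈ Icc t₀ t₁ := ⟨by linarith, hm1⟩
    -- pointwise facts
    have hP1 : ∀ u ∈ Icc τ m, 0 ≤ h (2 * τ - u) + h u := by
      intro u hu
      have hu1 : 2 * τ - u ∈ Icc t₀ t₁ := by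
        constructor
        · simp only [hmdef] at hu; linarith [hu.2]
        · linarith [hu.1]
      have hu2 : u ∈ Icc t₀ t₁ := ⟨by linarith [hu.1], by linarith [hu.2]⟩
      have hc := hf.2 hu1 hu2 (by norm_num : (0 : ℝ) ≤ 1 / 2) (by norm_num : (0 : ℝ) ≤ 1 / 2)
        (by norm_num)
      simp only [smul_eq_mul] at hc
      have hmid : (1 / 2 : ℝ) * (2 * τ - u) + 1 / 2 * u = τ := by ring
      rw [hmid] at hc
      have hgsum : g (2 * τ - u) + g u = 2 * f τ := by
        simp only [g, hxdef]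
        field_simp
        ring
      simp only [h]
      linarith
    have hP2 : ∀ u ∈ Icc m t₁, 0 ≤ h u := by
      intro u hu
      have hu2 : u ∈ Icc t₀ t₁ := ⟨by linarith [hu.1], hu.2⟩
      have hut : 0 < u - t₀ := by linarith [hu.1]
      have hca : 0 ≤ (u - τ) / (u - t₀) := div_nonneg (by linarith [hu.1]) hut.le
      have hcb : 0 ≤ x / (u - t₀) := div_nonneg hx.le hut.le
      have hcab : (u - τ) / (u - t₀) + x / (u - t₀) = 1 := by
        rw [← add_div, hxdef]; field_simp; ring
      have hc := hf.2 ht0mem hu2 hca hcb hcab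
      simp only [smul_eq_mul] at hc
      have hmid : (u - τ) / (u - t₀) * t₀ + x / (u - t₀) * u = τ := by
        rw [hxdef]; field_simp; ring
      rw [hmid] at hc
      have h0 : 0 ≤ (u - τ) / (u - t₀) * f t₀ :=
        mul_nonneg (div_nonneg (by linarith [hu.1]) hut.le) (hf0 _ ht0mem)
      have h1 : x / (u - t₀) * f u ≤ f τ := by linarith
      have h2 : f u ≤ f τ * (u - t₀) / x := by
        rw [le_div_iff₀ hx]
        have h3 : x / (u - t₀) * f u * (u - t₀) ≤ f τ * (u - t₀) :=
          mul_le_mul_of_nonneg_right h1 hut.le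
        have h4 : x / (u - t₀) * f u * (u - t₀) = f u * x := by field_simp
        linarith
      simp only [h, g]
      linarith
    -- reflection
    have e1 : ∫ u in τ..m, h (2 * τ - u) = ∫ t in t₀..τ, h t := by
      rw [intervalIntegral.integral_comp_sub_left]
      have e : (2 * τ - m = t₀) ∧ (2 * τ - τ = τ) := ⟨by rw [hmdef]; ring, by ring⟩
      rw [e.1, e.2]
    have hrefl : IntervalIntegrable (fun u => h (2 * τ - u)) volume τ m := by
      have := (hhint t₀ τ ht0mem hτmem).comp_sub_left (2 * τ)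
      have e : (2 * τ - t₀ = m) ∧ (2 * τ - τ = τ) := ⟨by simp only [hmdef], by ring⟩
      rw [e.1, e.2] at this
      exact this.symm
    have hsplit : ∫ t in t₀..t₁, h t
        = (∫ u in τ..m, (h (2 * τ - u) + h u)) + ∫ t in m..t₁, h t := by
      rw [intervalIntegral.integral_add hrefl (hhint τ m hτmem hmmem), e1,
        intervalIntegral.integral_add_adjacent_intervals (hhint t₀ τ ht0mem hτmem)
          (hhint τ m hτmem hmmem),
        intervalIntegral.integral_add_adjacent_intervals (hhint t₀ m ht0mem hmmem)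
          (hhint m t₁ hmmem ht1mem)]
    have hnonneg : 0 ≤ ∫ t in t₀..t₁, h t := by
      rw [hsplit]
      exact add_nonneg (intervalIntegral.integral_nonneg hτm hP1)
        (intervalIntegral.integral_nonneg hm1 hP2)
    have hhsub : ∫ t in t₀..t₁, h t = (∫ t in t₀..t₁, g t) - ∫ t in t₀..t₁, f t :=
      intervalIntegral.integral_sub (hgint _ _) hint
    have hg : ∫ t in t₀..t₁, g t = f τ * (t₁ - t₀) ^ 2 / (2 * x) := by
      simp only [g]
      have : ∀ t : ℝ, f τ * (t - t₀) / x = f τ / x * t - f τ / x * t₀ := by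
        intro t; field_simp
      simp_rw [this]
      rw [intervalIntegral.integral_sub, intervalIntegral.integral_const_mul, integral_id,
        intervalIntegral.integral_const, smul_eq_mul]
      · field_simp
        ring
      · exact (continuous_const.mul continuous_id).intervalIntegrable _ _
      · exact continuous_const.intervalIntegrable _ _
    have hfin : ∫ t in t₀..t₁, f t ≤ f τ * (t₁ - t₀) ^ 2 / (2 * x) := by linarith
    calc (∫ t in t₀..t₁, f t) * (2 * x) ≤ f τ * (t₁ - t₀) ^ 2 / (2 * x) * (2 * x) :=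
          mul_le_mul_of_nonneg_right hfin (by linarith)
      _ = (t₁ - t₀) ^ 2 * f τ := by field_simp

/-- A nonnegative concave function on `[t₀, t₁]` dominates the tent with the same integral. -/
theorem concave_tent {f : ℝ → ℝ} {t₀ t₁ τ : ℝ} (hf : ConcaveOn ℝ (Icc t₀ t₁) f)
    (hf0 : ∀ t ∈ Icc t₀ t₁, 0 ≤ f t) (hint : IntervalIntegrable f volume t₀ t₁)
    (hτ : τ ∈ Icc t₀ t₁) :
    (∫ t in t₀..t₁, f t) * (2 * min (τ - t₀) (t₁ - τ)) ≤ (t₁ - t₀) ^ 2 * f τ := by
  rcases le_total (τ - t₀) (t₁ - τ) with hle | hle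
  · rw [min_eq_left hle]
    exact concave_tent_left hf hf0 hint hτ.1 hle
  · rw [min_eq_right hle]
    -- reflect
    let f' : ℝ → ℝ := fun t => f (t₀ + t₁ - t)
    have hmem : ∀ t, t ∈ Icc t₀ t₁ → t₀ + t₁ - t ∈ Icc t₀ t₁ := by
      intro t ht
      exact ⟨by linarith [ht.2], by linarith [ht.1]⟩
    have hf' : ConcaveOn ℝ (Icc t₀ t₁) f' := by
      refine ⟨convex_Icc _ _, ?_⟩
      intro y hy z hz a b ha hb hab
      have hc := hf.2 (hmem y hy) (hmem z hz) ha hb hab
      simp only [smul_eq_mul] at hc ⊢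
      simp only [f']
      have e : a * (t₀ + t₁ - y) + b * (t₀ + t₁ - z) = t₀ + t₁ - (a * y + b * z) := by
        have hb' : b = 1 - a := by linarith
        subst hb'
        ring
      rw [e] at hc
      exact hc
    have hf0' : ∀ t ∈ Icc t₀ t₁, 0 ≤ f' t := fun t ht => hf0 _ (hmem t ht)
    have hint' : IntervalIntegrable f' volume t₀ t₁ := by
      have := hint.comp_sub_left (t₀ + t₁)
      have e : (t₀ + t₁ - t₀ = t₁) ∧ (t₀ + t₁ - t₁ = t₀) := ⟨by ring, by ring⟩
      rw [e.1, e.2] at this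
      exact this.symm
    have hres := concave_tent_left (τ := t₀ + t₁ - τ) hf' hf0' hint'
      (by linarith [hτ.2]) (by linarith)
    have hI : ∫ t in t₀..t₁, f' t = ∫ t in t₀..t₁, f t := by
      simp only [f']
      rw [intervalIntegral.integral_comp_sub_left]
      congr 1 <;> ring
    have hfτ : f' (t₀ + t₁ - τ) = f τ := by
      simp only [f']
      congr 1
      ring
    rw [hI, hfτ] at hres
    have e : 2 * (t₀ + t₁ - τ - t₀) = 2 * (t₁ - τ) := by ring
    rw [e] at hres
    exact hres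

/-- **Tent bound** for the sections of a planar compact convex set. -/
theorem tent_bound {D : Set (ℝ × ℝ)} (hD : Convex ℝ D) (hDc : IsCompact D)
    {t₀ t₁ : ℝ} (h0 : ∃ p, (t₀, p) ∈ D) (h1 : ∃ p, (t₁, p) ∈ D)
    (hsub : ∀ z ∈ D, t₀ ≤ z.1 ∧ z.1 ≤ t₁) {τ : ℝ} (hτ : τ ∈ Set.Icc t₀ t₁) :
    volume D * ENNReal.ofReal (2 * min (τ - t₀) (t₁ - τ))
      ≤ ENNReal.ofReal ((t₁ - t₀) ^ 2) * volume {p : ℝ | (τ, p) ∈ D} := by
  classical
  have ht01 : t₀ ≤ t₁ := le_trans hτ.1 hτ.2
  let sec : ℝ → Set ℝ := fun t => Prod.mk t ⁻¹' D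
  have hDm : MeasurableSet D := hDc.isClosed.measurableSet
  let f : ℝ → ℝ := fun t => (volume (sec t)).toReal
  have hsec_sub : ∀ t, sec t ⊆ Prod.snd '' D := fun t p hp => ⟨(t, p), hp, rfl⟩
  have hsnd : IsCompact (Prod.snd '' D) := hDc.image continuous_snd
  have hfin : ∀ t, volume (sec t) < ⊤ :=
    fun t => lt_of_le_of_lt (measure_mono (hsec_sub t)) hsnd.measure_lt_top
  have hvol : ∀ t, volume (sec t) = ENNReal.ofReal (f t) :=
    fun t => (ENNReal.ofReal_toReal (hfin t).ne).symm
  have hempty : ∀ t, t ∉ Icc t₀ t₁ → sec t = ∅ := by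
    intro t ht
    ext p
    simp only [sec, mem_preimage, mem_empty_iff_false, iff_false]
    intro hp
    exact ht (hsub (t, p) hp)
  have hzero : ∀ t, t ∉ Icc t₀ t₁ → f t = 0 := by
    intro t ht
    simp only [f, hempty t ht, measure_empty, ENNReal.toReal_zero]
  have hmeas : Measurable f := (measurable_measure_prodMk_left hDm).ennreal_toReal
  have hf0 : ∀ t, 0 ≤ f t := fun t => ENNReal.toReal_nonneg
  have hbdd : ∀ t, f t ≤ (volume (Prod.snd '' D)).toReal :=
    fun t => ENNReal.toReal_mono hsnd.measure_lt_top.ne (measure_mono (hsec_sub t))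
  have hintOn : IntegrableOn f (Icc t₀ t₁) volume := by
    apply Measure.integrableOn_of_bounded (M := (volume (Prod.snd '' D)).toReal)
      (by simp) hmeas.aestronglyMeasurable
    filter_upwards with t
    rw [Real.norm_eq_abs, abs_of_nonneg (hf0 t)]
    exact hbdd t
  have hint : IntervalIntegrable f volume t₀ t₁ :=
    (intervalIntegrable_iff_integrableOn_Icc_of_le ht01).mpr hintOn
  have hintg : Integrable f volume := hintOn.integrable_of_forall_notMem_eq_zero hzero
  -- sections over [t₀, t₁]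
  obtain ⟨p0, hp0⟩ := h0
  obtain ⟨p1, hp1⟩ := h1
  have hsec_ne : ∀ t ∈ Icc t₀ t₁, (sec t).Nonempty := by
    intro t ht
    rcases eq_or_lt_of_le ht01 with h | h
    · have : t = t₀ := le_antisymm (h ▸ ht.2) ht.1
      exact ⟨p0, by simpa [sec, this] using hp0⟩
    · have hpos : 0 < t₁ - t₀ := by linarith
      have ha : 0 ≤ (t₁ - t) / (t₁ - t₀) := div_nonneg (by linarith [ht.2]) hpos.le
      have hb : 0 ≤ (t - t₀) / (t₁ - t₀) := div_nonneg (by linarith [ht.1]) hpos.le
      have hab : (t₁ - t) / (t₁ - t₀) + (t - t₀) / (t₁ - t₀) = 1 := by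
        rw [← add_div]; field_simp; ring
      have hmem := hD hp0 hp1 ha hb hab
      refine ⟨(t₁ - t) / (t₁ - t₀) * p0 + (t - t₀) / (t₁ - t₀) * p1, ?_⟩
      have e : ((t₁ - t) / (t₁ - t₀)) • ((t₀, p0) : ℝ × ℝ) + ((t - t₀) / (t₁ - t₀)) • ((t₁, p1) : ℝ × ℝ)
          = (t, (t₁ - t) / (t₁ - t₀) * p0 + (t - t₀) / (t₁ - t₀) * p1) := by
        ext
        · simp only [Prod.fst_add, Prod.smul_fst, smul_eq_mul]
          field_simp
          ring
        · simp only [Prod.snd_add, Prod.smul_snd, smul_eq_mul]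
      rw [e] at hmem
      exact hmem
  have hsec_conv : ∀ t, Convex ℝ (sec t) := by
    intro t p hp q hq a b ha hb hab
    have hmem := hD hp hq ha hb hab
    have e : a • ((t, p) : ℝ × ℝ) + b • ((t, q) : ℝ × ℝ) = (t, a • p + b • q) := by
      ext
      · simp only [Prod.fst_add, Prod.smul_fst, smul_eq_mul]
        rw [← add_mul, hab, one_mul]
      · simp only [Prod.snd_add, Prod.smul_snd]
    rw [e] at hmem
    exact hmem
  have hsec_closed : ∀ t, IsClosed (sec t) :=
    fun t => hDc.isClosed.preimage (Continuous.prodMk_right t)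
  have hsec_cpt : ∀ t, IsCompact (sec t) :=
    fun t => hsnd.of_isClosed_subset (hsec_closed t) (hsec_sub t)
  have hsec_Icc : ∀ t ∈ Icc t₀ t₁, ∃ α β : ℝ, α ≤ β ∧ sec t = Icc α β := by
    intro t ht
    have hne := hsec_ne t ht
    have heq := eq_Icc_of_connected_compact ((hsec_conv t).isConnected hne) (hsec_cpt t)
    refine ⟨sInf (sec t), sSup (sec t), ?_, heq⟩
    obtain ⟨p, hp⟩ := hne
    rw [heq] at hp
    exact le_trans hp.1 hp.2
  -- concavity of the section length
  have hconc : ConcaveOn ℝ (Icc t₀ t₁) f := by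
    refine ⟨convex_Icc _ _, ?_⟩
    intro y hy z hz a b ha hb hab
    obtain ⟨α1, α2, hα, hyeq⟩ := hsec_Icc y hy
    obtain ⟨β1, β2, hβ, hzeq⟩ := hsec_Icc z hz
    have hfy : f y = α2 - α1 := by
      simp only [f]
      rw [hyeq, Real.volume_Icc, ENNReal.toReal_ofReal (by linarith)]
    have hfz : f z = β2 - β1 := by
      simp only [f]
      rw [hzeq, Real.volume_Icc, ENNReal.toReal_ofReal (by linarith)]
    have hmem : ∀ α β : ℝ, α ∈ sec y → β ∈ sec z → a * α + b * β ∈ sec (a * y + b * z) := by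
      intro α β hα' hβ'
      have hm := hD hα' hβ' ha hb hab
      have e : a • ((y, α) : ℝ × ℝ) + b • ((z, β) : ℝ × ℝ) = (a * y + b * z, a * α + b * β) := by
        ext <;> simp
      rw [e] at hm
      exact hm
    have hα1 : α1 ∈ sec y := by rw [hyeq]; exact ⟨le_rfl, hα⟩
    have hα2 : α2 ∈ sec y := by rw [hyeq]; exact ⟨hα, le_rfl⟩
    have hβ1 : β1 ∈ sec z := by rw [hzeq]; exact ⟨le_rfl, hβ⟩
    have hβ2 : β2 ∈ sec z := by rw [hzeq]; exact ⟨hβ, le_rfl⟩
    have hγ1 := hmem α1 β1 hα1 hβ1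
    have hγ2 := hmem α2 β2 hα2 hβ2
    have hIcc : Icc (a * α1 + b * β1) (a * α2 + b * β2) ⊆ sec (a * y + b * z) :=
      (hsec_conv _).ordConnected.out hγ1 hγ2
    have hle : ENNReal.ofReal ((a * α2 + b * β2) - (a * α1 + b * β1))
        ≤ volume (sec (a * y + b * z)) := by
      rw [← Real.volume_Icc]
      exact measure_mono hIcc
    have hle' : (a * α2 + b * β2) - (a * α1 + b * β1) ≤ f (a * y + b * z) :=
      (ENNReal.ofReal_le_iff_le_toReal (hfin _).ne).mp hle
    simp only [smul_eq_mul]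
    rw [hfy, hfz]
    linarith
  -- the area as an integral of section lengths
  have hvolD : volume D = ENNReal.ofReal (∫ t in t₀..t₁, f t) := by
    rw [intervalIntegral.integral_of_le ht01, ← integral_Icc_eq_integral_Ioc,
      setIntegral_eq_integral_of_forall_compl_eq_zero hzero,
      ofReal_integral_eq_lintegral_ofReal hintg (Filter.Eventually.of_forall hf0),
      Measure.volume_eq_prod, Measure.prod_apply hDm]
    apply lintegral_congr
    intro t
    exact hvol t
  have key := concave_tent hconc (fun t _ => hf0 t) hint hτ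
  have hInonneg : 0 ≤ ∫ t in t₀..t₁, f t :=
    intervalIntegral.integral_nonneg ht01 (fun t _ => hf0 t)
  have hgoal : volume D * ENNReal.ofReal (2 * min (τ - t₀) (t₁ - τ))
      ≤ ENNReal.ofReal ((t₁ - t₀) ^ 2) * volume (sec τ) := by
    rw [hvolD, hvol τ, ← ENNReal.ofReal_mul hInonneg, ← ENNReal.ofReal_mul (sq_nonneg _)]
    exact ENNReal.ofReal_le_ofReal key
  exact hgoal

theorem integral_two_mul_sub (a b c : ℝ) :
    ∫ t in a..b, (2 * t - c) = (b ^ 2 - a ^ 2) - c * (b - a) := by
  have h1 : IntervalIntegrable (fun t : ℝ => 2 * t) volume a b :=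
    (by fun_prop : Continuous (fun t : ℝ => 2 * t)).intervalIntegrable _ _
  have h2 : IntervalIntegrable (fun _ : ℝ => c) volume a b :=
    continuous_const.intervalIntegrable _ _
  rw [intervalIntegral.integral_sub h1 h2, intervalIntegral.integral_const_mul, integral_id,
    intervalIntegral.integral_const, smul_eq_mul]
  ring

theorem integral_sub_two_mul (a b c : ℝ) :
    ∫ t in a..b, (c - 2 * t) = c * (b - a) - (b ^ 2 - a ^ 2) := by
  have h1 : IntervalIntegrable (fun t : ℝ => 2 * t) volume a b :=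
    (by fun_prop : Continuous (fun t : ℝ => 2 * t)).intervalIntegrable _ _
  have h2 : IntervalIntegrable (fun _ : ℝ => c) volume a b :=
    continuous_const.intervalIntegrable _ _
  rw [intervalIntegral.integral_sub h2 h1, intervalIntegral.integral_const_mul, integral_id,
    intervalIntegral.integral_const, smul_eq_mul]
  ring

/-- The integral of the tent function. -/
theorem tent_integral (t₀ t₁ : ℝ) (h : t₀ ≤ t₁) :
    ∫⁻ t in Set.Icc t₀ t₁, ENNReal.ofReal (2 * min (t - t₀) (t₁ - t))
      = ENNReal.ofReal ((t₁ - t₀) ^ 2 / 2) := by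
  have hcont : Continuous (fun t : ℝ => 2 * min (t - t₀) (t₁ - t)) := by fun_prop
  have hnn : ∀ t ∈ Icc t₀ t₁, 0 ≤ 2 * min (t - t₀) (t₁ - t) := by
    intro t ht
    have := le_min (sub_nonneg.mpr ht.1) (sub_nonneg.mpr ht.2)
    linarith
  rw [← ofReal_integral_eq_lintegral_ofReal (hcont.integrableOn_Icc)
    ((ae_restrict_iff' measurableSet_Icc).mpr (Filter.Eventually.of_forall hnn))]
  congr 1
  rw [integral_Icc_eq_integral_Ioc, ← intervalIntegral.integral_of_le h]
  set m := (t₀ + t₁) / 2 with hm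
  have hm0 : t₀ ≤ m := by rw [hm]; linarith
  have hm1 : m ≤ t₁ := by rw [hm]; linarith
  rw [← intervalIntegral.integral_add_adjacent_intervals (b := m)
    (hcont.intervalIntegrable _ _) (hcont.intervalIntegrable _ _)]
  have e1 : ∫ t in t₀..m, 2 * min (t - t₀) (t₁ - t) = ∫ t in t₀..m, (2 * t - 2 * t₀) := by
    apply intervalIntegral.integral_congr
    intro t ht
    rw [uIcc_of_le hm0] at ht
    have : t - t₀ ≤ t₁ - t := by have := ht.2; rw [hm] at this; linarith
    simp only [min_eq_left this]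
    ring
  have e2 : ∫ t in m..t₁, 2 * min (t - t₀) (t₁ - t) = ∫ t in m..t₁, (2 * t₁ - 2 * t) := by
    apply intervalIntegral.integral_congr
    intro t ht
    rw [uIcc_of_le hm1] at ht
    have : t₁ - t ≤ t - t₀ := by have := ht.1; rw [hm] at this; linarith
    simp only [min_eq_right this]
    ring
  rw [e1, e2, integral_two_mul_sub, integral_sub_two_mul, hm]
  ring

end Vale.Agent.Lib.Helper9.P243
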