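import Mathlib
import Vale.Agent.Lib.Helper9.P243.Bang3
import Vale.Agent.Lib.Helper9.P243.Tent

set_option autoImplicit false

open MeasureTheory Set

namespace Vale.Agent.Lib.Helper9.P243

section Coplanar

variable {H : Type*} [NormedAddCommGroup H] [InnerProductSpace ℝ H]

theorem slice_convex {K : Set (ℝ × H)} (hK : Convex ℝ K) (t : ℝ) :
    Convex ℝ (Prod.mk t ⁻¹' K) := by
  intro z hz w hw a b ha hb hab
  have := hK hz hw ha hb hab
  have e : a • ((t, z) : ℝ × H) + b • ((t, w) : ℝ × H) = (t, a • z + b • w) := by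
    ext
    · simp only [Prod.fst_add, Prod.smul_fst, smul_eq_mul]
      rw [← add_mul, hab, one_mul]
    · simp
  rw [e] at this
  exact this

theorem slice_compact {K : Set (ℝ × H)} (hKc : IsCompact K) (t : ℝ) :
    IsCompact (Prod.mk t ⁻¹' K) := by
  have e : Prod.mk t ⁻¹' K = Prod.snd '' (K ∩ {x : ℝ × H | x.1 = t}) := by
    ext z
    constructor
    · intro hz
      exact ⟨(t, z), ⟨hz, rfl⟩, rfl⟩
    · rintro ⟨x, ⟨hx, hxt⟩, rfl⟩
      have : (t, x.2) = x := by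
        rw [← (show x.1 = t from hxt)]
      show (t, x.2) ∈ K
      rw [this]; exact hx
  rw [e]
  exact (hKc.inter_right (isClosed_eq continuous_fst continuous_const)).image continuous_snd

theorem slice_nonempty {K : Set (ℝ × H)} (hK : Convex ℝ K) {t0 t1 : ℝ}
    (h0 : ∃ y, (t0, y) ∈ K) (h1 : ∃ y, (t1, y) ∈ K) (ht01 : t0 < t1) {t : ℝ}
    (ht : t ∈ Icc t0 t1) : (Prod.mk t ⁻¹' K).Nonempty := by
  obtain ⟨y0, hy0⟩ := h0
  obtain ⟨y1, hy1⟩ := h1
  have hL : 0 < t1 - t0 := sub_pos.mpr ht01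
  obtain ⟨a, ha'⟩ : ∃ a : ℝ, a = (t1 - t) / (t1 - t0) := ⟨_, rfl⟩
  obtain ⟨b, hb'⟩ : ∃ b : ℝ, b = (t - t0) / (t1 - t0) := ⟨_, rfl⟩
  have ha : 0 ≤ a := by rw [ha']; exact div_nonneg (sub_nonneg.mpr ht.2) hL.le
  have hb : 0 ≤ b := by rw [hb']; exact div_nonneg (sub_nonneg.mpr ht.1) hL.le
  have hab : a + b = 1 := by
    rw [ha', hb', ← add_div, div_eq_one_iff_eq hL.ne']
    ring
  have hcomb : a * t0 + b * t1 = t := by
    rw [ha', hb']
    field_simp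
    ring
  have := hK hy0 hy1 ha hb hab
  refine ⟨a • y0 + b • y1, ?_⟩
  have e : a • ((t0, y0) : ℝ × H) + b • ((t1, y1) : ℝ × H) = (t, a • y0 + b • y1) := by
    ext
    · simp only [Prod.fst_add, Prod.smul_fst, smul_eq_mul]
      exact hcomb
    · simp
  rw [e] at this
  exact this

theorem shadow_convex {K : Set (ℝ × H)} (hK : Convex ℝ K) (μ : H) :
    Convex ℝ ((fun x : ℝ × H => (x.1, (inner ℝ x.2 μ : ℝ))) '' K) := by
  rintro _ ⟨x, hx, rfl⟩ _ ⟨y, hy, rfl⟩ a b ha hb hab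
  refine ⟨a • x + b • y, hK hx hy ha hb hab, ?_⟩
  ext
  · simp
  · simp [inner_add_left, inner_smul_left]

theorem shadow_compact {K : Set (ℝ × H)} (hKc : IsCompact K) (μ : H) :
    IsCompact ((fun x : ℝ × H => (x.1, (inner ℝ x.2 μ : ℝ))) '' K) :=
  hKc.image (by fun_prop)

/-- the widths of the slice at height `t` are bounded below by the tent function -/
theorem slice_width {K : Set (ℝ × H)} (hK : Convex ℝ K) (hKc : IsCompact K)
    {t0 t1 : ℝ} (h0 : ∃ y, (t0, y) ∈ K) (h1 : ∃ y, (t1, y) ∈ K)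
    (hrange : ∀ x ∈ K, t0 ≤ x.1 ∧ x.1 ≤ t1) (ht01 : t0 < t1)
    {F : ℝ} (hF : ∀ μ : H, ‖μ‖ = 1 →
      ENNReal.ofReal F ≤ volume ((fun x : ℝ × H => (x.1, (inner ℝ x.2 μ : ℝ))) '' K))
    {t : ℝ} (ht : t ∈ Icc t0 t1) :
    WidthGE (Prod.mk t ⁻¹' K) (F * (2 * min (t - t0) (t1 - t)) / (t1 - t0) ^ 2) := by
  intro μ hμ
  have hCne : (Prod.mk t ⁻¹' K).Nonempty := slice_nonempty hK h0 h1 ht01 ht
  have hCc : IsCompact (Prod.mk t ⁻¹' K) := slice_compact hKc t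
  have hcont : Continuous (fun y : H => (inner ℝ y μ : ℝ)) := by fun_prop
  obtain ⟨x, hxC, hxmax⟩ := hCc.exists_isMaxOn hCne hcont.continuousOn
  obtain ⟨y, hyC, hymin⟩ := hCc.exists_isMinOn hCne hcont.continuousOn
  refine ⟨x, hxC, y, hyC, ?_⟩
  obtain ⟨y0, hy0⟩ := h0
  obtain ⟨y1, hy1⟩ := h1
  have hte := tent_bound (shadow_convex hK μ) (shadow_compact hKc μ) (t₀ := t0) (t₁ := t1)
    ⟨_, ⟨(t0, y0), hy0, rfl⟩⟩ ⟨_, ⟨(t1, y1), hy1, rfl⟩⟩
    (by rintro _ ⟨z, hz, rfl⟩; exact hrange z hz) ht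
  have hsec : {p : ℝ | (t, p) ∈ (fun x : ℝ × H => (x.1, (inner ℝ x.2 μ : ℝ))) '' K}
      ⊆ Icc (inner ℝ y μ) (inner ℝ x μ) := by
    rintro p ⟨z, hz, hze⟩
    have e1 : z.1 = t := congrArg Prod.fst hze
    have e2 : (inner ℝ z.2 μ : ℝ) = p := congrArg Prod.snd hze
    have hzC : z.2 ∈ Prod.mk t ⁻¹' K := by
      show (t, z.2) ∈ K
      rw [← e1]; exact hz
    rw [← e2]
    exact ⟨hymin hzC, hxmax hzC⟩
  have hvol : volume {p : ℝ | (t, p) ∈ (fun x : ℝ × H => (x.1, (inner ℝ x.2 μ : ℝ))) '' K}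
      ≤ ENNReal.ofReal (inner ℝ (x - y) μ) := by
    calc volume {p : ℝ | (t, p) ∈ (fun x : ℝ × H => (x.1, (inner ℝ x.2 μ : ℝ))) '' K}
        ≤ volume (Icc (inner ℝ y μ : ℝ) (inner ℝ x μ)) := measure_mono hsec
      _ = ENNReal.ofReal (inner ℝ x μ - inner ℝ y μ) := Real.volume_Icc
      _ = ENNReal.ofReal (inner ℝ (x - y) μ) := by rw [inner_sub_left]
  have hmin0 : 0 ≤ 2 * min (t - t0) (t1 - t) := by
    have := le_min (sub_nonneg.mpr ht.1) (sub_nonneg.mpr ht.2)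
    linarith
  have hLpos : 0 < (t1 - t0) ^ 2 := by
    have : 0 < t1 - t0 := sub_pos.mpr ht01
    positivity
  have h2 : ENNReal.ofReal F * ENNReal.ofReal (2 * min (t - t0) (t1 - t))
      ≤ ENNReal.ofReal ((t1 - t0) ^ 2) * ENNReal.ofReal (inner ℝ (x - y) μ) :=
    calc ENNReal.ofReal F * ENNReal.ofReal (2 * min (t - t0) (t1 - t))
        ≤ volume ((fun x : ℝ × H => (x.1, (inner ℝ x.2 μ : ℝ))) '' K)
            * ENNReal.ofReal (2 * min (t - t0) (t1 - t)) := by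
          gcongr
          exact hF μ hμ
      _ ≤ ENNReal.ofReal ((t1 - t0) ^ 2)
            * volume {p : ℝ | (t, p) ∈ (fun x : ℝ × H => (x.1, (inner ℝ x.2 μ : ℝ))) '' K} := hte
      _ ≤ ENNReal.ofReal ((t1 - t0) ^ 2) * ENNReal.ofReal (inner ℝ (x - y) μ) := by
          gcongr
  have hw0 : 0 ≤ (inner ℝ (x - y) μ : ℝ) := by
    rw [inner_sub_left]
    have := hxmax hyC
    simp only [Set.mem_ofPred_eq] at this
    linarith
  rw [← ENNReal.ofReal_mul' hmin0, ← ENNReal.ofReal_mul hLpos.le] at h2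
  have h3 := (ENNReal.ofReal_le_ofReal_iff (by positivity)).mp h2
  rw [div_le_iff₀ hLpos]
  linarith

/-- the coordinate core for measurable bases: cylinders over `S i` with generalised plank normals
`ν i` in the horizontal space `H` -/
theorem coplanar_meas [CompleteSpace H] {K : Set (ℝ × H)} (hK : Convex ℝ K) (hKc : IsCompact K)
    (hH : ∃ μ : H, ‖μ‖ = 1) {m : ℕ} (ν : Fin m → H) (hν : ∀ i, ‖ν i‖ = 1)
    (S : Fin m → Set (ℝ × ℝ)) (hS : ∀ i, MeasurableSet (S i))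
    (hcov : ∀ x ∈ K, ∃ i, (x.1, (inner ℝ x.2 (ν i) : ℝ)) ∈ S i) :
    (1 / 2 : ENNReal) * (⨅ μ ∈ {μ : H | ‖μ‖ = 1},
        volume ((fun x : ℝ × H => (x.1, (inner ℝ x.2 μ : ℝ))) '' K)) ≤ ∑ i, volume (S i) := by
  obtain ⟨μ0, hμ0⟩ := hH
  obtain ⟨Fe, hFe⟩ : ∃ Fe : ENNReal, Fe = ⨅ μ ∈ {μ : H | ‖μ‖ = 1},
      volume ((fun x : ℝ × H => (x.1, (inner ℝ x.2 μ : ℝ))) '' K) := ⟨_, rfl⟩
  rw [← hFe]
  have hFle : ∀ μ : H, ‖μ‖ = 1 →
      Fe ≤ volume ((fun x : ℝ × H => (x.1, (inner ℝ x.2 μ : ℝ))) '' K) := by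
    intro μ hμ
    rw [hFe]
    exact iInf₂_le μ hμ
  have hFt : Fe ≠ ⊤ :=
    ne_top_of_le_ne_top (shadow_compact hKc μ0).measure_lt_top.ne (hFle μ0 hμ0)
  rcases eq_or_ne Fe 0 with hF0 | hF0
  · rw [hF0, mul_zero]
    exact zero_le
  have hKne : K.Nonempty := by
    by_contra h
    rw [not_nonempty_iff_eq_empty] at h
    apply hF0
    have := hFle μ0 hμ0
    rw [h, image_empty, measure_empty] at this
    exact le_antisymm this zero_le
  obtain ⟨xmin, hxminK, hxmin⟩ := hKc.exists_isMinOn hKne (continuous_fst.continuousOn)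
  obtain ⟨xmax, hxmaxK, hxmax⟩ := hKc.exists_isMaxOn hKne (continuous_fst.continuousOn)
  obtain ⟨t0, ht0⟩ : ∃ t0 : ℝ, t0 = xmin.1 := ⟨_, rfl⟩
  obtain ⟨t1, ht1⟩ : ∃ t1 : ℝ, t1 = xmax.1 := ⟨_, rfl⟩
  have hrange : ∀ x ∈ K, t0 ≤ x.1 ∧ x.1 ≤ t1 := fun x hx => by
    rw [ht0, ht1]
    exact ⟨hxmin hx, hxmax hx⟩
  have h0 : ∃ y, (t0, y) ∈ K := ⟨xmin.2, by rw [ht0]; exact hxminK⟩
  have h1 : ∃ y, (t1, y) ∈ K := ⟨xmax.2, by rw [ht1]; exact hxmaxK⟩
  have ht01 : t0 < t1 := by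
    by_contra h
    have hle : t1 ≤ t0 := not_lt.mp h
    apply hF0
    have hsub : (fun x : ℝ × H => (x.1, (inner ℝ x.2 μ0 : ℝ))) '' K
        ⊆ ({t0} : Set ℝ) ×ˢ (univ : Set ℝ) := by
      rintro _ ⟨x, hx, rfl⟩
      have := hrange x hx
      refine ⟨?_, mem_univ _⟩
      simp only [mem_singleton_iff]
      linarith [this.1, this.2]
    have hnull : volume ((fun x : ℝ × H => (x.1, (inner ℝ x.2 μ0 : ℝ))) '' K) = 0 := by
      apply measure_mono_null hsub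
      rw [Measure.volume_eq_prod, Measure.prod_prod]
      simp
    have := hFle μ0 hμ0
    rw [hnull] at this
    exact le_antisymm this zero_le
  have hLpos : 0 < (t1 - t0) ^ 2 := by
    have : 0 < t1 - t0 := sub_pos.mpr ht01
    positivity
  have hL0 : ENNReal.ofReal ((t1 - t0) ^ 2) ≠ 0 := by
    simp only [ne_eq, ENNReal.ofReal_eq_zero, not_le]
    exact hLpos
  have hFofReal : ENNReal.ofReal Fe.toReal = Fe := ENNReal.ofReal_toReal hFt
  -- pointwise inequality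
  have hpt : ∀ t ∈ Icc t0 t1,
      Fe * ENNReal.ofReal (2 * min (t - t0) (t1 - t)) / ENNReal.ofReal ((t1 - t0) ^ 2)
        ≤ ∑ i, volume (Prod.mk t ⁻¹' S i) := by
    intro t ht
    have hW := slice_width hK hKc h0 h1 hrange ht01 (F := Fe.toReal)
      (by rw [hFofReal]; exact hFle) ht
    have hb := bang_sets ν hν (fun i => Prod.mk t ⁻¹' S i) (slice_convex hK t)
      (slice_compact hKc t) (slice_nonempty hK h0 h1 ht01 ht) hW (fun y hy => hcov (t, y) hy)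
    rw [ENNReal.ofReal_div_of_pos hLpos, ENNReal.ofReal_mul ENNReal.toReal_nonneg, hFofReal] at hb
    exact hb
  -- integration
  have hvol : (volume : Measure (ℝ × ℝ)) = (volume : Measure ℝ).prod volume :=
    Measure.volume_eq_prod ℝ ℝ
  have hSi : ∀ i, volume (S i) = ∫⁻ t, volume (Prod.mk t ⁻¹' S i) := fun i => by
    rw [hvol, Measure.prod_apply (hS i)]
  have hhalf : (1 / 2 : ENNReal)
      = (∫⁻ t in Icc t0 t1, ENNReal.ofReal (2 * min (t - t0) (t1 - t)))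
        / ENNReal.ofReal ((t1 - t0) ^ 2) := by
    rw [tent_integral t0 t1 ht01.le, ← ENNReal.ofReal_div_of_pos hLpos]
    have : (t1 - t0) ^ 2 / 2 / (t1 - t0) ^ 2 = 1 / 2 := by
      rw [div_right_comm, div_self hLpos.ne']
    rw [this, ENNReal.ofReal_div_of_pos two_pos]
    simp
  calc (1 / 2 : ENNReal) * Fe
      = Fe * ((∫⁻ t in Icc t0 t1, ENNReal.ofReal (2 * min (t - t0) (t1 - t)))
        / ENNReal.ofReal ((t1 - t0) ^ 2)) := by rw [mul_comm, hhalf]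
    _ = ∫⁻ t in Icc t0 t1, Fe * ENNReal.ofReal (2 * min (t - t0) (t1 - t))
        / ENNReal.ofReal ((t1 - t0) ^ 2) := by
        simp only [div_eq_mul_inv]
        rw [lintegral_mul_const' _ _ (ENNReal.inv_ne_top.mpr hL0), lintegral_const_mul' _ _ hFt,
          mul_assoc]
    _ ≤ ∫⁻ t in Icc t0 t1, ∑ i, volume (Prod.mk t ⁻¹' S i) :=
        setLIntegral_mono' measurableSet_Icc hpt
    _ ≤ ∫⁻ t, ∑ i, volume (Prod.mk t ⁻¹' S i) := setLIntegral_le_lintegral _ _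
    _ = ∑ i, ∫⁻ t, volume (Prod.mk t ⁻¹' S i) :=
        lintegral_finsetSum _ (fun i _ => measurable_measure_prodMk_left (hS i))
    _ = ∑ i, volume (S i) := by
        apply Finset.sum_congr rfl
        intro i _
        rw [hSi i]

/-- the coordinate core for arbitrary bases (outer measure) -/
theorem coplanar_core [CompleteSpace H] {K : Set (ℝ × H)} (hK : Convex ℝ K) (hKc : IsCompact K)
    (hH : ∃ μ : H, ‖μ‖ = 1) {m : ℕ} (ν : Fin m → H) (hν : ∀ i, ‖ν i‖ = 1)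
    (S : Fin m → Set (ℝ × ℝ))
    (hcov : ∀ x ∈ K, ∃ i, (x.1, (inner ℝ x.2 (ν i) : ℝ)) ∈ S i) :
    (1 / 2 : ENNReal) * (⨅ μ ∈ {μ : H | ‖μ‖ = 1},
        volume ((fun x : ℝ × H => (x.1, (inner ℝ x.2 μ : ℝ))) '' K)) ≤ ∑ i, volume (S i) := by
  have hcov' : ∀ x ∈ K, ∃ i, (x.1, (inner ℝ x.2 (ν i) : ℝ)) ∈ toMeasurable volume (S i) :=
    fun x hx => by
      obtain ⟨i, hi⟩ := hcov x hx
      exact ⟨i, subset_toMeasurable _ _ hi⟩
  have h := coplanar_meas hK hKc hH ν hν (fun i => toMeasurable volume (S i))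
    (fun i => measurableSet_toMeasurable _ _) hcov'
  simp only [measure_toMeasurable] at h
  exact h

end Coplanar

end Vale.Agent.Lib.Helper9.P243
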