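import Mathlib

-- P243 part D, written by helper4 (copied from their library folder so that the P243 hand-in
-- depends on a single folder).

namespace Vale.Agent.Lib.Helper9.P243

open MeasureTheory

theorem expand_orthonormal {w e d : EuclideanSpace ℝ (Fin 3)}
    (hw : ‖w‖ = 1) (he : ‖e‖ = 1) (hd : ‖d‖ = 1)
    (hwe : inner ℝ w e = 0) (hwd : inner ℝ w d = 0) (hed : inner ℝ e d = 0)
    (x : EuclideanSpace ℝ (Fin 3)) :
    x = (inner ℝ w x : ℝ) • w + (inner ℝ e x : ℝ) • e + (inner ℝ d x : ℝ) • d := by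
  set v : Fin 3 → EuclideanSpace ℝ (Fin 3) := ![w, e, d] with hv
  have hon : Orthonormal ℝ v := by
    rw [orthonormal_iff_ite]
    intro i j
    fin_cases i <;> fin_cases j <;>
      simp [hv, hw, he, hd, hwe, hwd, hed, real_inner_comm]
  have hli := hon.linearIndependent
  have hspan : ⊤ ≤ Submodule.span ℝ (Set.range v) := by
    rw [hli.span_eq_top_of_card_eq_finrank' (by simp)]
  set b := OrthonormalBasis.mk hon hspan with hb
  have hsum := b.sum_repr' x
  rw [Fin.sum_univ_three] at hsum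
  simp only [hb, OrthonormalBasis.coe_mk, hv] at hsum
  simpa using hsum.symm

/-- the linear map sending `y` to `y 0 • w + y 1 • e` -/
noncomputable def planeMap (w e : EuclideanSpace ℝ (Fin 3)) :
    EuclideanSpace ℝ (Fin 2) →ₗ[ℝ] EuclideanSpace ℝ (Fin 3) where
  toFun y := y 0 • w + y 1 • e
  map_add' y z := by
    simp only [PiLp.add_apply, add_smul]
    abel
  map_smul' c y := by
    simp only [PiLp.smul_apply, smul_eq_mul, mul_smul, RingHom.id_apply, smul_add]

theorem planeMap_apply (w e : EuclideanSpace ℝ (Fin 3)) (y : EuclideanSpace ℝ (Fin 2)) :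
    planeMap w e y = y 0 • w + y 1 • e := rfl

theorem planeMap_norm {w e : EuclideanSpace ℝ (Fin 3)} (hw : ‖w‖ = 1) (he : ‖e‖ = 1)
    (hwe : inner ℝ w e = 0) (y : EuclideanSpace ℝ (Fin 2)) : ‖planeMap w e y‖ = ‖y‖ := by
  have h1 : ‖planeMap w e y‖ ^ 2 = ‖y‖ ^ 2 := by
    rw [← real_inner_self_eq_norm_sq, EuclideanSpace.norm_sq_eq, Fin.sum_univ_two, planeMap_apply]
    have hew : inner ℝ e w = 0 := by rw [real_inner_comm]; exact hwe
    simp only [inner_add_left, inner_add_right, inner_smul_left, inner_smul_right,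
      real_inner_self_eq_norm_sq, hw, he, hwe, hew, Real.norm_eq_abs, sq_abs]
    simp
    ring
  exact (sq_eq_sq₀ (norm_nonneg _) (norm_nonneg _)).mp h1

theorem plane_area_eq {w e d : EuclideanSpace ℝ (Fin 3)}
    (hw : ‖w‖ = 1) (he : ‖e‖ = 1) (hd : ‖d‖ = 1)
    (hwe : inner ℝ w e = 0) (hwd : inner ℝ w d = 0) (hed : inner ℝ e d = 0)
    (S : Set (EuclideanSpace ℝ (Fin 3))) (hS : ∀ x ∈ S, inner ℝ x d = 0) :
    μHE[2] S = volume ((fun x : EuclideanSpace ℝ (Fin 3) =>
      ((inner ℝ w x : ℝ), (inner ℝ e x : ℝ))) '' S) := by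
  have hiso : Isometry (planeMap w e) :=
    AddMonoidHomClass.isometry_of_norm (planeMap w e) (planeMap_norm hw he hwe)
  have hew : inner ℝ e w = 0 := by rw [real_inner_comm]; exact hwe
  have hinner0 : ∀ y : EuclideanSpace ℝ (Fin 2), inner ℝ w (planeMap w e y) = y 0 := by
    intro y
    rw [planeMap_apply, inner_add_right, inner_smul_right, inner_smul_right,
      real_inner_self_eq_norm_sq, hw, hwe]
    simp
  have hinner1 : ∀ y : EuclideanSpace ℝ (Fin 2), inner ℝ e (planeMap w e y) = y 1 := by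
    intro y
    rw [planeMap_apply, inner_add_right, inner_smul_right, inner_smul_right,
      real_inner_self_eq_norm_sq, he, hew]
    simp
  have hrep : ∀ x ∈ S, planeMap w e (!₂[(inner ℝ w x : ℝ), (inner ℝ e x : ℝ)]) = x := by
    intro x hx
    have h1 := expand_orthonormal hw he hd hwe hwd hed x
    have h2 : inner ℝ d x = 0 := by rw [real_inner_comm]; exact hS x hx
    rw [h2, zero_smul, add_zero] at h1
    rw [planeMap_apply]
    simpa using h1.symm
  have hsub : S ⊆ Set.range (planeMap w e) := fun x hx => ⟨_, hrep x hx⟩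
  have h1 : μHE[2] S = μHE[2] (planeMap w e ⁻¹' S) := by
    rw [← hiso.euclideanHausdorffMeasure_image (planeMap w e ⁻¹' S),
      Set.image_preimage_eq_of_subset hsub]
  rw [h1, EuclideanSpace.euclideanHausdorffMeasure_eq_volume 2]
  set Θ : EuclideanSpace ℝ (Fin 2) ≃ᵐ ℝ × ℝ :=
    (MeasurableEquiv.toLp 2 (Fin 2 → ℝ)).symm.trans MeasurableEquiv.finTwoArrow with hΘ
  have hΘmp : MeasurePreserving Θ volume volume :=
    (volume_preserving_finTwoArrow ℝ).comp
      (EuclideanSpace.volume_preserving_symm_measurableEquiv_toLp (Fin 2))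
  have hΘapply : ∀ y : EuclideanSpace ℝ (Fin 2), Θ y = (y 0, y 1) := fun y => rfl
  have himg : (fun x : EuclideanSpace ℝ (Fin 3) => ((inner ℝ w x : ℝ), (inner ℝ e x : ℝ))) '' S
      = Θ.symm ⁻¹' (planeMap w e ⁻¹' S) := by
    ext z
    constructor
    · rintro ⟨x, hx, rfl⟩
      have : Θ.symm ((inner ℝ w x : ℝ), (inner ℝ e x : ℝ))
          = !₂[(inner ℝ w x : ℝ), (inner ℝ e x : ℝ)] := by
        rw [MeasurableEquiv.symm_apply_eq, hΘapply]
        simp
      show planeMap w e (Θ.symm ((inner ℝ w x : ℝ), (inner ℝ e x : ℝ))) ∈ S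
      rw [this, hrep x hx]
      exact hx
    · intro hz
      refine ⟨planeMap w e (Θ.symm z), hz, ?_⟩
      show ((inner ℝ w (planeMap w e (Θ.symm z)) : ℝ), (inner ℝ e (planeMap w e (Θ.symm z)) : ℝ)) = z
      rw [hinner0, hinner1, ← hΘapply, MeasurableEquiv.apply_symm_apply]
  rw [himg]
  exact ((hΘmp.symm Θ).measure_preimage_equiv _).symm

theorem exists_unit_orthogonal (a b : EuclideanSpace ℝ (Fin 3)) :
    ∃ w : EuclideanSpace ℝ (Fin 3), ‖w‖ = 1 ∧ inner ℝ w a = 0 ∧ inner ℝ w b = 0 := by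
  set K : Submodule ℝ (EuclideanSpace ℝ (Fin 3)) := Submodule.span ℝ {a, b} with hK
  have h1 : Module.finrank ℝ K ≤ 2 := by
    have := finrank_span_le_card (R := ℝ) ({a, b} : Set (EuclideanSpace ℝ (Fin 3)))
    have hc : (Set.toFinset ({a, b} : Set (EuclideanSpace ℝ (Fin 3)))).card ≤ 2 := by
      classical
      simp only [Set.toFinset_insert, Set.toFinset_singleton]
      exact Finset.card_le_two
    exact this.trans hc
  have h2 : Module.finrank ℝ K + Module.finrank ℝ Kᗮ = 3 := by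
    have := Submodule.finrank_add_finrank_orthogonal K
    simpa using this
  have h3 : 0 < Module.finrank ℝ Kᗮ := by omega
  obtain ⟨z, hz⟩ := Module.finrank_pos_iff_exists_ne_zero.mp h3
  have hz0 : (z : EuclideanSpace ℝ (Fin 3)) ≠ 0 := fun h => hz (Subtype.ext h)
  have hza : inner ℝ (z : EuclideanSpace ℝ (Fin 3)) a = 0 := by
    have := z.2
    rw [Submodule.mem_orthogonal'] at this
    exact this a (Submodule.subset_span (by simp))
  have hzb : inner ℝ (z : EuclideanSpace ℝ (Fin 3)) b = 0 := by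
    have := z.2
    rw [Submodule.mem_orthogonal'] at this
    exact this b (Submodule.subset_span (by simp))
  have hnorm : 0 < ‖(z : EuclideanSpace ℝ (Fin 3))‖ := norm_pos_iff.mpr hz0
  refine ⟨(‖(z : EuclideanSpace ℝ (Fin 3))‖)⁻¹ • (z : EuclideanSpace ℝ (Fin 3)), ?_, ?_, ?_⟩
  · rw [norm_smul, norm_inv, norm_norm, inv_mul_cancel₀ hnorm.ne']
  · rw [inner_smul_left, hza, mul_zero]
  · rw [inner_smul_left, hzb, mul_zero]

/-- the pair of coordinates along `w` and `e`, as a continuous linear map -/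
noncomputable def coordMap (w e : EuclideanSpace ℝ (Fin 3)) :
    EuclideanSpace ℝ (Fin 3) →L[ℝ] ℝ × ℝ :=
  (innerSL ℝ w).prod (innerSL ℝ e)

theorem coordMap_apply (w e x : EuclideanSpace ℝ (Fin 3)) :
    coordMap w e x = ((inner ℝ w x : ℝ), (inner ℝ e x : ℝ)) := rfl

theorem coordMap_coe (w e : EuclideanSpace ℝ (Fin 3)) :
    (coordMap w e : EuclideanSpace ℝ (Fin 3) → ℝ × ℝ)
      = fun x => ((inner ℝ w x : ℝ), (inner ℝ e x : ℝ)) := rfl

theorem coordMap_surjective {w e : EuclideanSpace ℝ (Fin 3)} (hw : ‖w‖ = 1) (he : ‖e‖ = 1)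
    (hwe : inner ℝ w e = 0) : Function.Surjective (coordMap w e) := by
  rintro ⟨s, t⟩
  refine ⟨s • w + t • e, ?_⟩
  have hew : inner ℝ e w = 0 := by rw [real_inner_comm]; exact hwe
  rw [coordMap_apply]
  simp [inner_add_right, inner_smul_right, hw, he, hwe, hew]

theorem volume_coordMap_image_pos {w e : EuclideanSpace ℝ (Fin 3)} (hw : ‖w‖ = 1) (he : ‖e‖ = 1)
    (hwe : inner ℝ w e = 0) (K : Set (EuclideanSpace ℝ (Fin 3))) (hKint : (interior K).Nonempty) :
    volume ((fun x : EuclideanSpace ℝ (Fin 3) => ((inner ℝ w x : ℝ), (inner ℝ e x : ℝ))) '' K) ≠ 0 := by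
  rw [← coordMap_coe]
  have hopen : IsOpen (coordMap w e '' interior K) :=
    (coordMap w e).isOpenMap (coordMap_surjective hw he hwe) _ isOpen_interior
  have hne : (coordMap w e '' interior K).Nonempty := hKint.image _
  have hpos : 0 < volume (coordMap w e '' interior K) := hopen.measure_pos volume hne
  have hle : volume (coordMap w e '' interior K) ≤ volume (coordMap w e '' K) :=
    measure_mono (Set.image_mono interior_subset)
  exact (lt_of_lt_of_le hpos hle).ne'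

theorem volume_coordMap_image_lt_top (w e : EuclideanSpace ℝ (Fin 3))
    (K : Set (EuclideanSpace ℝ (Fin 3))) (hKcomp : IsCompact K) :
    volume ((fun x : EuclideanSpace ℝ (Fin 3) => ((inner ℝ w x : ℝ), (inner ℝ e x : ℝ))) '' K) ≠ ⊤ := by
  rw [← coordMap_coe]
  exact (hKcomp.image (coordMap w e).continuous).measure_lt_top.ne

/-- area of the orthogonal projection along `u` in coordinates -/
theorem proj_area_eq {w e u : EuclideanSpace ℝ (Fin 3)}
    (hw : ‖w‖ = 1) (he : ‖e‖ = 1) (hu : ‖u‖ = 1)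
    (hwe : inner ℝ w e = 0) (hwu : inner ℝ w u = 0) (heu : inner ℝ e u = 0)
    (K : Set (EuclideanSpace ℝ (Fin 3))) :
    μHE[2] ((fun x : EuclideanSpace ℝ (Fin 3) => x - (inner ℝ u x : ℝ) • u) '' K)
      = volume ((fun x : EuclideanSpace ℝ (Fin 3) => ((inner ℝ w x : ℝ), (inner ℝ e x : ℝ))) '' K) := by
  rw [plane_area_eq hw he hu hwe hwu heu]
  · rw [Set.image_image]
    congr 1
    apply Set.image_congr
    intro x _
    simp [inner_sub_right, inner_smul_right, hwu, heu]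
  · rintro y ⟨x, _, rfl⟩
    simp only []
    rw [inner_sub_left, inner_smul_left, real_inner_self_eq_norm_sq, hu, real_inner_comm u x]
    simp

theorem final_of
    (core : ∀ (K : Set (ℝ × ℝ × ℝ)), Convex ℝ K → IsCompact K → ∀ (S T : Set (ℝ × ℝ)),
        (∀ x ∈ K, (x.1, x.2.1) ∈ S ∨ (x.1, x.2.2) ∈ T) →
        volume ((fun x : ℝ × ℝ × ℝ => (x.1, x.2.1)) '' K) ≠ 0 →
        volume ((fun x : ℝ × ℝ × ℝ => (x.1, x.2.2)) '' K) ≠ 0 →
        (1 / 2 : ENNReal) ≤ volume S / volume ((fun x : ℝ × ℝ × ℝ => (x.1, x.2.1)) '' K)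
          + volume T / volume ((fun x : ℝ × ℝ × ℝ => (x.1, x.2.2)) '' K))
    (K : Set (EuclideanSpace ℝ (Fin 3))) (hKconv : Convex ℝ K) (hKcomp : IsCompact K)
    (hKint : (interior K).Nonempty)
    (u v : EuclideanSpace ℝ (Fin 3)) (hu : ‖u‖ = 1) (hv : ‖v‖ = 1)
    (m : ℕ) (d : Fin m → EuclideanSpace ℝ (Fin 3)) (B : Fin m → Set (EuclideanSpace ℝ (Fin 3)))
    (hd : ∀ i, d i = u ∨ d i = v)
    (hB : ∀ i, ∀ b ∈ B i, inner ℝ b (d i) = 0)
    (hcov : ∀ x ∈ K, ∃ i, ∃ b ∈ B i, ∃ t : ℝ, x = b + t • d i) :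
    (1 / 2 : ENNReal) ≤ ∑ i, μHE[2] (B i) /
        μHE[2] ((fun x : EuclideanSpace ℝ (Fin 3) => x - (inner ℝ (d i) x : ℝ) • d i) '' K)
    ∧ (1 / 2 : ENNReal) * (⨅ w ∈ {w : EuclideanSpace ℝ (Fin 3) | ‖w‖ = 1},
          μHE[2] ((fun x : EuclideanSpace ℝ (Fin 3) => x - (inner ℝ w x : ℝ) • w) '' K))
        ≤ ∑ i, μHE[2] (B i) := by
  classical
  obtain ⟨w, hw, hwu, hwv⟩ := exists_unit_orthogonal u v
  obtain ⟨eu, heu, heuu, heuw⟩ := exists_unit_orthogonal u w
  obtain ⟨ev, hev, hevv, hevw⟩ := exists_unit_orthogonal v w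
  have hweu : inner ℝ w eu = 0 := by rw [real_inner_comm]; exact heuw
  have hwev : inner ℝ w ev = 0 := by rw [real_inner_comm]; exact hevw
  set φu : EuclideanSpace ℝ (Fin 3) → ℝ × ℝ :=
    fun x => ((inner ℝ w x : ℝ), (inner ℝ eu x : ℝ)) with hφu
  set φv : EuclideanSpace ℝ (Fin 3) → ℝ × ℝ :=
    fun x => ((inner ℝ w x : ℝ), (inner ℝ ev x : ℝ)) with hφv
  set Ψ : EuclideanSpace ℝ (Fin 3) →L[ℝ] ℝ × ℝ × ℝ :=
    (innerSL ℝ w).prod ((innerSL ℝ eu).prod (innerSL ℝ ev)) with hΨ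
  have hΨapply : ∀ x, Ψ x = ((inner ℝ w x : ℝ), (inner ℝ eu x : ℝ), (inner ℝ ev x : ℝ)) :=
    fun x => rfl
  set K' : Set (ℝ × ℝ × ℝ) := Ψ '' K with hK'
  have hK'conv : Convex ℝ K' := hKconv.is_linear_image Ψ.isLinear
  have hK'comp : IsCompact K' := hKcomp.image Ψ.continuous
  have hP1 : (fun x : ℝ × ℝ × ℝ => (x.1, x.2.1)) '' K' = φu '' K := by
    rw [hK', Set.image_image]
    rfl
  have hP2 : (fun x : ℝ × ℝ × ℝ => (x.1, x.2.2)) '' K' = φv '' K := by
    rw [hK', Set.image_image]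
    rfl
  have hAu : μHE[2] ((fun x : EuclideanSpace ℝ (Fin 3) => x - (inner ℝ u x : ℝ) • u) '' K)
      = volume (φu '' K) := proj_area_eq hw heu hu hweu hwu heuu K
  have hAv : μHE[2] ((fun x : EuclideanSpace ℝ (Fin 3) => x - (inner ℝ v x : ℝ) • v) '' K)
      = volume (φv '' K) := proj_area_eq hw hev hv hwev hwv hevv K
  have hu0 : volume (φu '' K) ≠ 0 := volume_coordMap_image_pos hw heu hweu K hKint
  have hv0 : volume (φv '' K) ≠ 0 := volume_coordMap_image_pos hw hev hwev K hKint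
  have hutop : volume (φu '' K) ≠ ⊤ := volume_coordMap_image_lt_top w eu K hKcomp
  have hvtop : volume (φv '' K) ≠ ⊤ := volume_coordMap_image_lt_top w ev K hKcomp
  set Iu : Finset (Fin m) := Finset.univ.filter (fun i => d i = u) with hIu
  set Iv : Finset (Fin m) := Finset.univ.filter (fun i => ¬ d i = u) with hIv
  have hIv_v : ∀ i ∈ Iv, d i = v := fun i hi =>
    (hd i).resolve_left (Finset.mem_filter.mp hi).2
  have hIu_u : ∀ i ∈ Iu, d i = u := fun i hi => (Finset.mem_filter.mp hi).2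
  set S : Set (ℝ × ℝ) := ⋃ i ∈ Iu, φu '' B i with hS
  set T : Set (ℝ × ℝ) := ⋃ i ∈ Iv, φv '' B i with hT
  have hcov' : ∀ x ∈ K', (x.1, x.2.1) ∈ S ∨ (x.1, x.2.2) ∈ T := by
    rintro _ ⟨x, hx, rfl⟩
    obtain ⟨i, b, hb, t, rfl⟩ := hcov x hx
    by_cases hi : d i = u
    · left
      have hmem : i ∈ Iu := Finset.mem_filter.mpr ⟨Finset.mem_univ _, hi⟩
      refine Set.mem_biUnion hmem ⟨b, hb, ?_⟩
      rw [hΨapply, hi]
      simp [hφu, inner_add_right, inner_smul_right, hwu, heuu]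
    · right
      have hmem : i ∈ Iv := Finset.mem_filter.mpr ⟨Finset.mem_univ _, hi⟩
      have hiv : d i = v := hIv_v i hmem
      refine Set.mem_biUnion hmem ⟨b, hb, ?_⟩
      rw [hΨapply, hiv]
      simp [hφv, inner_add_right, inner_smul_right, hwv, hevv]
  have hcore := core K' hK'conv hK'comp S T hcov' (by rw [hP1]; exact hu0) (by rw [hP2]; exact hv0)
  rw [hP1, hP2] at hcore
  have hSle : volume S ≤ ∑ i ∈ Iu, μHE[2] (B i) := by
    calc volume S ≤ ∑ i ∈ Iu, volume (φu '' B i) := measure_biUnion_finset_le Iu _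
      _ = ∑ i ∈ Iu, μHE[2] (B i) := by
        apply Finset.sum_congr rfl
        intro i hi
        have hi' : d i = u := hIu_u i hi
        exact (plane_area_eq hw heu hu hweu hwu heuu (B i)
          (fun b hb => by rw [← hi']; exact hB i b hb)).symm
  have hTle : volume T ≤ ∑ i ∈ Iv, μHE[2] (B i) := by
    calc volume T ≤ ∑ i ∈ Iv, volume (φv '' B i) := measure_biUnion_finset_le Iv _
      _ = ∑ i ∈ Iv, μHE[2] (B i) := by
        apply Finset.sum_congr rfl
        intro i hi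
        have hi' : d i = v := hIv_v i hi
        exact (plane_area_eq hw hev hv hwev hwv hevv (B i)
          (fun b hb => by rw [← hi']; exact hB i b hb)).symm
  have hden : ∀ i, μHE[2] ((fun x : EuclideanSpace ℝ (Fin 3) =>
      x - (inner ℝ (d i) x : ℝ) • d i) '' K) ≠ 0 ∧
      μHE[2] ((fun x : EuclideanSpace ℝ (Fin 3) => x - (inner ℝ (d i) x : ℝ) • d i) '' K) ≠ ⊤ := by
    intro i
    rcases hd i with h | h
    · rw [h, hAu]; exact ⟨hu0, hutop⟩
    · rw [h, hAv]; exact ⟨hv0, hvtop⟩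
  have hfirst : (1 / 2 : ENNReal) ≤ ∑ i, μHE[2] (B i) /
      μHE[2] ((fun x : EuclideanSpace ℝ (Fin 3) => x - (inner ℝ (d i) x : ℝ) • d i) '' K) := by
    rw [← Finset.sum_filter_add_sum_filter_not Finset.univ (fun i => d i = u)]
    have h1 : ∑ i ∈ Iu, μHE[2] (B i) /
        μHE[2] ((fun x : EuclideanSpace ℝ (Fin 3) => x - (inner ℝ (d i) x : ℝ) • d i) '' K)
        = (∑ i ∈ Iu, μHE[2] (B i)) / volume (φu '' K) := by
      rw [ENNReal.div_eq_inv_mul, Finset.mul_sum]
      apply Finset.sum_congr rfl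
      intro i hi
      rw [hIu_u i hi, hAu, ENNReal.div_eq_inv_mul]
    have h2 : ∑ i ∈ Iv, μHE[2] (B i) /
        μHE[2] ((fun x : EuclideanSpace ℝ (Fin 3) => x - (inner ℝ (d i) x : ℝ) • d i) '' K)
        = (∑ i ∈ Iv, μHE[2] (B i)) / volume (φv '' K) := by
      rw [ENNReal.div_eq_inv_mul, Finset.mul_sum]
      apply Finset.sum_congr rfl
      intro i hi
      rw [hIv_v i hi, hAv, ENNReal.div_eq_inv_mul]
    rw [h1, h2]
    calc (1 / 2 : ENNReal) ≤ volume S / volume (φu '' K) + volume T / volume (φv '' K) := hcore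
      _ ≤ (∑ i ∈ Iu, μHE[2] (B i)) / volume (φu '' K)
          + (∑ i ∈ Iv, μHE[2] (B i)) / volume (φv '' K) :=
        add_le_add (ENNReal.div_le_div_right hSle _) (ENNReal.div_le_div_right hTle _)
  refine ⟨hfirst, ?_⟩
  have hAle : ∀ i, (⨅ w ∈ {w : EuclideanSpace ℝ (Fin 3) | ‖w‖ = 1},
        μHE[2] ((fun x : EuclideanSpace ℝ (Fin 3) => x - (inner ℝ w x : ℝ) • w) '' K))
      ≤ μHE[2] ((fun x : EuclideanSpace ℝ (Fin 3) => x - (inner ℝ (d i) x : ℝ) • d i) '' K) := by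
    intro i
    have hdi : d i ∈ {w : EuclideanSpace ℝ (Fin 3) | ‖w‖ = 1} := by
      rcases hd i with h | h
      · rw [h]; exact hu
      · rw [h]; exact hv
    exact iInf₂_le (d i) hdi
  calc (1 / 2 : ENNReal) * (⨅ w ∈ {w : EuclideanSpace ℝ (Fin 3) | ‖w‖ = 1},
          μHE[2] ((fun x : EuclideanSpace ℝ (Fin 3) => x - (inner ℝ w x : ℝ) • w) '' K))
      ≤ (∑ i, μHE[2] (B i) /
          μHE[2] ((fun x : EuclideanSpace ℝ (Fin 3) => x - (inner ℝ (d i) x : ℝ) • d i) '' K))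
        * (⨅ w ∈ {w : EuclideanSpace ℝ (Fin 3) | ‖w‖ = 1},
          μHE[2] ((fun x : EuclideanSpace ℝ (Fin 3) => x - (inner ℝ w x : ℝ) • w) '' K)) :=
        mul_le_mul_left hfirst _
    _ = ∑ i, μHE[2] (B i) /
          μHE[2] ((fun x : EuclideanSpace ℝ (Fin 3) => x - (inner ℝ (d i) x : ℝ) • d i) '' K)
        * (⨅ w ∈ {w : EuclideanSpace ℝ (Fin 3) | ‖w‖ = 1},
          μHE[2] ((fun x : EuclideanSpace ℝ (Fin 3) => x - (inner ℝ w x : ℝ) • w) '' K)) :=
        Finset.sum_mul _ _ _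
    _ ≤ ∑ i, μHE[2] (B i) := by
        apply Finset.sum_le_sum
        intro i _
        calc μHE[2] (B i) /
              μHE[2] ((fun x : EuclideanSpace ℝ (Fin 3) => x - (inner ℝ (d i) x : ℝ) • d i) '' K)
            * (⨅ w ∈ {w : EuclideanSpace ℝ (Fin 3) | ‖w‖ = 1},
              μHE[2] ((fun x : EuclideanSpace ℝ (Fin 3) => x - (inner ℝ w x : ℝ) • w) '' K))
            ≤ μHE[2] (B i) /
              μHE[2] ((fun x : EuclideanSpace ℝ (Fin 3) => x - (inner ℝ (d i) x : ℝ) • d i) '' K)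
            * μHE[2] ((fun x : EuclideanSpace ℝ (Fin 3) => x - (inner ℝ (d i) x : ℝ) • d i) '' K) :=
              mul_le_mul_right (hAle i) _
          _ = μHE[2] (B i) := ENNReal.div_mul_cancel (hden i).1 (hden i).2

end Vale.Agent.Lib.Helper9.P243
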