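import Mathlib
import Vale.Agent.Lib.Helper9.P243.Coplanar
import Vale.Agent.Lib.Helper9.P243.Final

set_option autoImplicit false

open MeasureTheory Set

namespace Vale.Agent.Lib.Helper9.P243

/-- the plane through the origin orthogonal to `n` -/
noncomputable abbrev horiz (n : EuclideanSpace ℝ (Fin 3)) : Submodule ℝ (EuclideanSpace ℝ (Fin 3)) :=
  (Submodule.span ℝ {n})ᗮ

theorem mem_horiz {n x : EuclideanSpace ℝ (Fin 3)} (hx : inner ℝ n x = 0) : x ∈ horiz n :=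
  Submodule.mem_orthogonal_singleton_iff_inner_right.mpr hx

theorem inner_of_mem_horiz {n : EuclideanSpace ℝ (Fin 3)} (x : horiz n) :
    inner ℝ n (x : EuclideanSpace ℝ (Fin 3)) = 0 :=
  Submodule.mem_orthogonal_singleton_iff_inner_right.mp x.2

/-- height and horizontal part -/
noncomputable def splitMap (n : EuclideanSpace ℝ (Fin 3)) :
    EuclideanSpace ℝ (Fin 3) →L[ℝ] ℝ × horiz n :=
  (innerSL ℝ n).prod (horiz n).orthogonalProjectionOnto

theorem splitMap_fst (n x : EuclideanSpace ℝ (Fin 3)) : (splitMap n x).1 = inner ℝ n x := rfl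

theorem splitMap_inner (n x : EuclideanSpace ℝ (Fin 3)) (μ : horiz n) :
    (inner ℝ (splitMap n x).2 μ : ℝ) = inner ℝ x (μ : EuclideanSpace ℝ (Fin 3)) :=
  Submodule.inner_orthogonalProjectionOnto_eq_of_mem_right μ x

/-- Bang's half-area inequality for cylinder coverings with coplanar axes -/
theorem coplanar_final
    (K : Set (EuclideanSpace ℝ (Fin 3))) (hKconv : Convex ℝ K) (hKcomp : IsCompact K)
    (n : EuclideanSpace ℝ (Fin 3)) (hn : ‖n‖ = 1)
    (m : ℕ) (d : Fin m → EuclideanSpace ℝ (Fin 3)) (B : Fin m → Set (EuclideanSpace ℝ (Fin 3)))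
    (hd : ∀ i, ‖d i‖ = 1) (hdn : ∀ i, inner ℝ (d i) n = 0)
    (hB : ∀ i, ∀ b ∈ B i, inner ℝ b (d i) = 0)
    (hcov : ∀ x ∈ K, ∃ i, ∃ b ∈ B i, ∃ t : ℝ, x = b + t • d i) :
    (1 / 2 : ENNReal) * (⨅ w ∈ {w : EuclideanSpace ℝ (Fin 3) | ‖w‖ = 1 ∧ inner ℝ w n = 0},
          μHE[2] ((fun x : EuclideanSpace ℝ (Fin 3) => x - (inner ℝ w x : ℝ) • w) '' K))
        ≤ ∑ i, μHE[2] (B i) := by
  classical
  -- plank normals
  have hνex : ∀ i, ∃ ν : EuclideanSpace ℝ (Fin 3), ‖ν‖ = 1 ∧ inner ℝ ν n = 0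
      ∧ inner ℝ ν (d i) = 0 := fun i => exists_unit_orthogonal n (d i)
  choose ν hν1 hνn hνd using hνex
  have hnν : ∀ i, inner ℝ n (ν i) = 0 := fun i => by rw [real_inner_comm]; exact hνn i
  have hnd : ∀ i, inner ℝ n (d i) = 0 := fun i => by rw [real_inner_comm]; exact hdn i
  have hdν : ∀ i, inner ℝ (d i) (ν i) = 0 := fun i => by rw [real_inner_comm]; exact hνd i
  obtain ⟨ν', hν'⟩ : ∃ ν' : Fin m → horiz n, ∀ i, (ν' i : EuclideanSpace ℝ (Fin 3)) = ν i :=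
    ⟨fun i => ⟨ν i, mem_horiz (hnν i)⟩, fun i => rfl⟩
  have hν'1 : ∀ i, ‖ν' i‖ = 1 := fun i => by
    rw [Submodule.coe_norm, hν' i]
    exact hν1 i
  have hK'conv : Convex ℝ (splitMap n '' K) := hKconv.is_linear_image (splitMap n).isLinear
  have hK'comp : IsCompact (splitMap n '' K) := hKcomp.image (splitMap n).continuous
  have hSarea : ∀ i, μHE[2] (B i) = volume ((fun x : EuclideanSpace ℝ (Fin 3) =>
      ((inner ℝ n x : ℝ), (inner ℝ (ν i) x : ℝ))) '' B i) := fun i =>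
    plane_area_eq hn (hν1 i) (hd i) (hnν i) (hnd i) (hνd i) (B i) (hB i)
  have hcov' : ∀ x ∈ splitMap n '' K, ∃ i, (x.1, (inner ℝ x.2 (ν' i) : ℝ))
      ∈ (fun x : EuclideanSpace ℝ (Fin 3) => ((inner ℝ n x : ℝ), (inner ℝ (ν i) x : ℝ))) '' B i := by
    rintro _ ⟨x, hx, rfl⟩
    obtain ⟨i, b, hb, t, rfl⟩ := hcov x hx
    refine ⟨i, b, hb, ?_⟩
    rw [splitMap_fst, splitMap_inner, hν' i, inner_add_right, inner_add_left, inner_smul_right,
      inner_smul_left, hnd i, hdν i, mul_zero, mul_zero, add_zero, add_zero,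
      real_inner_comm (ν i) b]
  have hH : ∃ μ : horiz n, ‖μ‖ = 1 := by
    obtain ⟨a, ha1, han, _⟩ := exists_unit_orthogonal n n
    refine ⟨⟨a, mem_horiz (by rw [real_inner_comm]; exact han)⟩, ?_⟩
    rw [Submodule.coe_norm]
    exact ha1
  have hcore := coplanar_core hK'conv hK'comp hH ν' hν'1
    (fun i => (fun x : EuclideanSpace ℝ (Fin 3) =>
      ((inner ℝ n x : ℝ), (inner ℝ (ν i) x : ℝ))) '' B i) hcov'
  have hinf : (⨅ w ∈ {w : EuclideanSpace ℝ (Fin 3) | ‖w‖ = 1 ∧ inner ℝ w n = 0},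
        μHE[2] ((fun x : EuclideanSpace ℝ (Fin 3) => x - (inner ℝ w x : ℝ) • w) '' K))
      ≤ ⨅ μ ∈ {μ : horiz n | ‖μ‖ = 1},
        volume ((fun x : ℝ × horiz n => (x.1, (inner ℝ x.2 μ : ℝ))) '' (splitMap n '' K)) := by
    apply le_iInf₂
    intro μ hμ
    obtain ⟨w, hw1, hwn, hwμ⟩ := exists_unit_orthogonal n (μ : EuclideanSpace ℝ (Fin 3))
    have hμ1 : ‖(μ : EuclideanSpace ℝ (Fin 3))‖ = 1 := by
      rw [← Submodule.coe_norm]
      exact hμ
    have harea := proj_area_eq (w := n) (e := (μ : EuclideanSpace ℝ (Fin 3))) (u := w) hn hμ1 hw1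
      (inner_of_mem_horiz μ) (by rw [real_inner_comm]; exact hwn)
      (by rw [real_inner_comm]; exact hwμ) K
    have himg : (fun x : ℝ × horiz n => (x.1, (inner ℝ x.2 μ : ℝ))) '' (splitMap n '' K)
        = (fun x : EuclideanSpace ℝ (Fin 3) =>
          ((inner ℝ n x : ℝ), (inner ℝ (μ : EuclideanSpace ℝ (Fin 3)) x : ℝ))) '' K := by
      rw [Set.image_image]
      apply Set.image_congr
      intro x _
      rw [splitMap_fst, splitMap_inner, real_inner_comm x (μ : EuclideanSpace ℝ (Fin 3))]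
    rw [himg, ← harea]
    exact iInf₂_le w ⟨hw1, hwn⟩
  calc (1 / 2 : ENNReal) * (⨅ w ∈ {w : EuclideanSpace ℝ (Fin 3) | ‖w‖ = 1 ∧ inner ℝ w n = 0},
          μHE[2] ((fun x : EuclideanSpace ℝ (Fin 3) => x - (inner ℝ w x : ℝ) • w) '' K))
      ≤ (1 / 2 : ENNReal) * (⨅ μ ∈ {μ : horiz n | ‖μ‖ = 1},
        volume ((fun x : ℝ × horiz n => (x.1, (inner ℝ x.2 μ : ℝ))) '' (splitMap n '' K))) := by
        gcongr
    _ ≤ ∑ i, volume ((fun x : EuclideanSpace ℝ (Fin 3) =>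
          ((inner ℝ n x : ℝ), (inner ℝ (ν i) x : ℝ))) '' B i) := hcore
    _ = ∑ i, μHE[2] (B i) := by
        apply Finset.sum_congr rfl
        intro i _
        rw [hSarea i]

end Vale.Agent.Lib.Helper9.P243
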