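import Mathlib
import Vale.Agent.Lib.Helper9.P243.Cert

set_option autoImplicit false

open MeasureTheory Set

namespace Vale.Agent.Lib.Helper9.P243

/-- The box inequality for the box `[x,x'] × [y,y']`, in terms of distribution functions. -/
def Box (F G : ℝ → ℝ) (x x' y y' : ℝ) : Prop :=
  (y' - y) * (F x' - F x) + (x' - x) * (G y' - G y) ≤ (x' - x) * (y' - y)

theorem box_certN1 {F G : ℝ → ℝ} {x0 x1 x2 x3 y0 y1 y2 y3 : ℝ}
    (BL : Box F G x0 x1 y0 y2) (BR : Box F G x1 x3 y0 y1) (TR : Box F G x2 x3 y1 y3)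
    (TL : Box F G x0 x2 y2 y3) (Ce : Box F G x1 x2 y1 y2) : Box F G x0 x3 y0 y3 := by
  unfold Box at *
  linarith

theorem box_certN2 {F G : ℝ → ℝ} {x0 x1 x2 x3 y0 y1 y2 y3 : ℝ}
    (BL : Box F G x0 x2 y0 y1) (BR : Box F G x2 x3 y0 y2) (TR : Box F G x1 x3 y2 y3)
    (TL : Box F G x0 x1 y1 y3) (Ce : Box F G x1 x2 y1 y2) : Box F G x0 x3 y0 y3 := by
  unfold Box at *
  linarith

/-- `F` is nondecreasing and `1`-Lipschitz. -/
def Lip1 (F : ℝ → ℝ) : Prop :=
  ∀ x x' : ℝ, x ≤ x' → 0 ≤ F x' - F x ∧ F x' - F x ≤ x' - x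

theorem box_certP {F G : ℝ → ℝ} (hF : Lip1 F) (hG : Lip1 G) {x0 x1 x2 x3 y0 y1 y2 y3 : ℝ}
    (hx01 : x0 ≤ x1) (hx12 : x1 ≤ x2) (hx23 : x2 ≤ x3)
    (hy01 : y0 ≤ y1) (hy12 : y1 ≤ y2) (hy23 : y2 ≤ y3)
    (e1 : Box F G x0 x1 y0 y1) (e3 : Box F G x2 x3 y2 y3) (m : Box F G x1 x2 y1 y2)
    (e2 : Box F G x1 x3 y0 y2) (e4 : Box F G x0 x2 y1 y3) (d1 : Box F G x0 x3 y1 y2)
    (d2 : Box F G x1 x2 y0 y3) : Box F G x0 x3 y0 y3 := by
  unfold Box at *
  have hF1 := hF x0 x1 hx01
  have hF2 := hF x1 x2 hx12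
  have hF3 := hF x2 x3 hx23
  have hG1 := hG y0 y1 hy01
  have hG2 := hG y1 y2 hy12
  have hG3 := hG y2 y3 hy23
  have := certP_core (x1 - x0) (x2 - x1) (x3 - x2) (y1 - y0) (y2 - y1) (y3 - y2)
    (F x1 - F x0) (F x2 - F x1) (F x3 - F x2) (G y1 - G y0) (G y2 - G y1) (G y3 - G y2)
    (by linarith) (by linarith) (by linarith) (by linarith) (by linarith) (by linarith)
    hF1.1 hF2.1 hF3.1 hG1.1 hG2.1 hG3.1 hF1.2 hF2.2 hF3.2 hG1.2 hG2.2 hG3.2
    (by linarith) (by linarith) (by linarith) (by linarith) (by linarith) (by linarith)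
    (by linarith)
  linarith

theorem box_certP' {F G : ℝ → ℝ} (hF : Lip1 F) (hG : Lip1 G) {x0 x1 x2 x3 y0 y1 y2 y3 : ℝ}
    (hx01 : x0 ≤ x1) (hx12 : x1 ≤ x2) (hx23 : x2 ≤ x3)
    (hy01 : y0 ≤ y1) (hy12 : y1 ≤ y2) (hy23 : y2 ≤ y3)
    (e1 : Box F G x0 x1 y2 y3) (e3 : Box F G x2 x3 y0 y1) (m : Box F G x1 x2 y1 y2)
    (e2 : Box F G x1 x3 y1 y3) (e4 : Box F G x0 x2 y0 y2) (d1 : Box F G x0 x3 y1 y2)
    (d2 : Box F G x1 x2 y0 y3) : Box F G x0 x3 y0 y3 := by
  unfold Box at *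
  have hF1 := hF x0 x1 hx01
  have hF2 := hF x1 x2 hx12
  have hF3 := hF x2 x3 hx23
  have hG1 := hG y0 y1 hy01
  have hG2 := hG y1 y2 hy12
  have hG3 := hG y2 y3 hy23
  have := certP_core (x1 - x0) (x2 - x1) (x3 - x2) (y3 - y2) (y2 - y1) (y1 - y0)
    (F x1 - F x0) (F x2 - F x1) (F x3 - F x2) (G y3 - G y2) (G y2 - G y1) (G y1 - G y0)
    (by linarith) (by linarith) (by linarith) (by linarith) (by linarith) (by linarith)
    hF1.1 hF2.1 hF3.1 hG3.1 hG2.1 hG1.1 hF1.2 hF2.2 hF3.2 hG3.2 hG2.2 hG1.2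
    (by linarith) (by linarith) (by linarith) (by linarith) (by linarith) (by linarith)
    (by linarith)
  linarith

/-- points of the segment between two points of a convex planar set. -/
theorem mem_lerp {C : Set (ℝ × ℝ)} (hC : Convex ℝ C) {p q : ℝ × ℝ} (hp : p ∈ C) (hq : q ∈ C)
    {t : ℝ} (h0 : 0 ≤ t) (h1 : t ≤ 1) :
    (p.1 + t * (q.1 - p.1), p.2 + t * (q.2 - p.2)) ∈ C := by
  have h := hC hp hq (sub_nonneg.2 h1) h0 (by ring : (1 - t) + t = 1)
  have e : (1 - t) • p + t • q = (p.1 + t * (q.1 - p.1), p.2 + t * (q.2 - p.2)) := by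
    ext <;> simp <;> ring
  rwa [e] at h

theorem mem_vert {C : Set (ℝ × ℝ)} (hC : Convex ℝ C) {x y1 y2 y : ℝ} (h1 : (x, y1) ∈ C)
    (h2 : (x, y2) ∈ C) (hy1 : y1 ≤ y) (hy2 : y ≤ y2) : (x, y) ∈ C := by
  rcases eq_or_lt_of_le (hy1.trans hy2) with h | h
  · have : y = y1 := le_antisymm (h ▸ hy2) hy1
    rw [this]; exact h1
  · have hd : 0 < y2 - y1 := by linarith
    have hm := mem_lerp hC h1 h2 (t := (y - y1) / (y2 - y1)) (div_nonneg (by linarith) hd.le)
      ((div_le_one hd).2 (by linarith))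
    have e : ((x, y1) : ℝ × ℝ).1 + (y - y1) / (y2 - y1) * (((x, y2) : ℝ × ℝ).1 - ((x, y1) : ℝ × ℝ).1) = x := by
      simp
    have e2 : ((x, y1) : ℝ × ℝ).2 + (y - y1) / (y2 - y1) * (((x, y2) : ℝ × ℝ).2 - ((x, y1) : ℝ × ℝ).2) = y := by
      simp only
      field_simp
      ring
    rwa [e, e2] at hm

theorem exists_on_seg {C : Set (ℝ × ℝ)} (hC : Convex ℝ C) {p q : ℝ × ℝ} (hp : p ∈ C) (hq : q ∈ C)
    {x : ℝ} (h1 : p.1 ≤ x) (h2 : x ≤ q.1) :
    ∃ y, (x, y) ∈ C ∧ min p.2 q.2 ≤ y ∧ y ≤ max p.2 q.2 := by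
  rcases eq_or_lt_of_le (h1.trans h2) with h | h
  · refine ⟨p.2, ?_, min_le_left _ _, le_max_left _ _⟩
    have : x = p.1 := le_antisymm (h ▸ h2) h1
    rw [this]; exact hp
  · have hd : 0 < q.1 - p.1 := by linarith
    have ht0 : 0 ≤ (x - p.1) / (q.1 - p.1) := div_nonneg (by linarith) hd.le
    have ht1 : (x - p.1) / (q.1 - p.1) ≤ 1 := (div_le_one hd).2 (by linarith)
    have hm := mem_lerp hC hp hq ht0 ht1
    have e : p.1 + (x - p.1) / (q.1 - p.1) * (q.1 - p.1) = x := by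
      field_simp
      ring
    rw [e] at hm
    refine ⟨_, hm, ?_, ?_⟩
    · rcases le_total p.2 q.2 with hpq | hpq
      · rw [min_eq_left hpq]
        have : 0 ≤ (x - p.1) / (q.1 - p.1) * (q.2 - p.2) := mul_nonneg ht0 (by linarith)
        linarith
      · rw [min_eq_right hpq]
        have : (x - p.1) / (q.1 - p.1) * (q.2 - p.2) ≥ 1 * (q.2 - p.2) :=
          mul_le_mul_of_nonpos_right ht1 (by linarith)
        linarith
    · rcases le_total p.2 q.2 with hpq | hpq
      · rw [max_eq_right hpq]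
        have : (x - p.1) / (q.1 - p.1) * (q.2 - p.2) ≤ 1 * (q.2 - p.2) :=
          mul_le_mul_of_nonneg_right ht1 (by linarith)
        linarith
      · rw [max_eq_left hpq]
        have : (x - p.1) / (q.1 - p.1) * (q.2 - p.2) ≤ 0 :=
          mul_nonpos_of_nonneg_of_nonpos ht0 (by linarith)
        linarith

/-- distribution function of a set of reals. -/
noncomputable def cdf (A : Set ℝ) (x : ℝ) : ℝ := (volume (A ∩ Iic x)).toReal

theorem cdf_sub {A : Set ℝ} (hA : MeasurableSet A) (hfin : volume A ≠ ⊤) {x x' : ℝ} (h : x ≤ x') :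
    cdf A x' - cdf A x = (volume (A ∩ Ioc x x')).toReal := by
  have hu : A ∩ Iic x' = (A ∩ Iic x) ∪ (A ∩ Ioc x x') := by
    rw [← inter_union_distrib_left, Iic_union_Ioc_eq_Iic h]
  have hd : Disjoint (A ∩ Iic x) (A ∩ Ioc x x') := by
    apply Disjoint.mono inter_subset_right inter_subset_right
    rw [Set.disjoint_left]
    intro z hz hz'
    exact absurd hz.out (not_le.2 hz'.1)
  have hm : MeasurableSet (A ∩ Ioc x x') := hA.inter measurableSet_Ioc
  unfold cdf
  rw [hu, measure_union hd hm, ENNReal.toReal_add]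
  · ring
  · exact ne_top_of_le_ne_top hfin (measure_mono inter_subset_left)
  · exact ne_top_of_le_ne_top hfin (measure_mono inter_subset_left)

theorem cdf_lip {A : Set ℝ} (hA : MeasurableSet A) (hfin : volume A ≠ ⊤) : Lip1 (cdf A) := by
  intro x x' h
  rw [cdf_sub hA hfin h]
  refine ⟨ENNReal.toReal_nonneg, ?_⟩
  have h1 : volume (A ∩ Ioc x x') ≤ volume (Ioc x x') := measure_mono inter_subset_right
  rw [Real.volume_Ioc] at h1
  calc (volume (A ∩ Ioc x x')).toReal ≤ (ENNReal.ofReal (x' - x)).toReal :=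
        ENNReal.toReal_mono ENNReal.ofReal_ne_top h1
    _ = x' - x := ENNReal.toReal_ofReal (by linarith)

/-- The box inequality for a box having an increasing diagonal inside `C`. -/
theorem seg_inc {C : Set (ℝ × ℝ)} (hC : Convex ℝ C) {A B : Set ℝ} (hA : MeasurableSet A)
    (hB : MeasurableSet B) (hAB : ∀ a ∈ A, ∀ b ∈ B, (a, b) ∉ C) {x x' y y' : ℝ}
    (hx : x ≤ x') (hy : y ≤ y') (h1 : (x, y) ∈ C) (h2 : (x', y') ∈ C) :
    (y' - y) * (volume (A ∩ Icc x x')).toReal + (x' - x) * (volume (B ∩ Icc y y')).toReal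
      ≤ (x' - x) * (y' - y) := by
  rcases hx.eq_or_lt with hxe | hx'
  · subst hxe
    have h0 : volume (A ∩ Icc x x) = 0 := measure_mono_null inter_subset_right (by simp)
    rw [h0]
    simp
  rcases hy.eq_or_lt with hye | hy'
  · subst hye
    have h0 : volume (B ∩ Icc y y) = 0 := measure_mono_null inter_subset_right (by simp)
    rw [h0]
    simp
  have hdx : 0 < x' - x := by linarith
  have hdy : 0 < y' - y := by linarith
  set c : ℝ := (y' - y) / (x' - x) with hc_def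
  have hc : 0 < c := div_pos hdy hdx
  have hcx : c * (x' - x) = y' - y := by
    rw [hc_def]; field_simp
  set E : Set ℝ := B ∩ Icc y y' with hE
  set S2 : Set ℝ := (fun a : ℝ => c * a) ⁻¹' ((fun z : ℝ => z + (y - c * x)) ⁻¹' E) with hS2
  have hS2mem : ∀ a, a ∈ S2 ↔ (c * a + (y - c * x) ∈ B ∧ y ≤ c * a + (y - c * x)
      ∧ c * a + (y - c * x) ≤ y') := by
    intro a
    exact Iff.rfl
  have hS2sub : S2 ⊆ Icc x x' := by
    intro a ha
    obtain ⟨-, ha1, ha2⟩ := (hS2mem a).1 ha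
    constructor
    · have : 0 ≤ c * (a - x) := by linarith
      have := nonneg_of_mul_nonneg_right this hc
      linarith
    · have : c * (a - x') ≤ 0 := by
        have : c * (a - x') = c * a + (y - c * x) - y' + (y' - y - c * (x' - x)) := by ring
        rw [this, hcx]; linarith
      have := nonpos_of_mul_nonpos_right this hc
      linarith
  have hdisj : Disjoint (A ∩ Icc x x') S2 := by
    rw [Set.disjoint_left]
    rintro a ⟨haA, hax⟩ ha2
    obtain ⟨haB, -, -⟩ := (hS2mem a).1 ha2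
    have ht0 : 0 ≤ (a - x) / (x' - x) := div_nonneg (by linarith [hax.1]) hdx.le
    have ht1 : (a - x) / (x' - x) ≤ 1 := (div_le_one hdx).2 (by linarith [hax.2])
    have hm := mem_lerp hC h1 h2 ht0 ht1
    have e1 : ((x, y) : ℝ × ℝ).1 + (a - x) / (x' - x) * (((x', y') : ℝ × ℝ).1 - ((x, y) : ℝ × ℝ).1) = a := by
      simp only
      field_simp
      ring
    have e2 : ((x, y) : ℝ × ℝ).2 + (a - x) / (x' - x) * (((x', y') : ℝ × ℝ).2 - ((x, y) : ℝ × ℝ).2)
        = c * a + (y - c * x) := by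
      simp only
      rw [hc_def]
      field_simp
      ring
    rw [e1, e2] at hm
    exact hAB a haA _ haB hm
  have hEm : MeasurableSet E := hB.inter measurableSet_Icc
  have hS2m : MeasurableSet S2 := by
    have hm1 : Measurable (fun a : ℝ => c * a) := measurable_const_mul c
    have hm2 : Measurable (fun z : ℝ => z + (y - c * x)) := measurable_add_const _
    exact hm1 (hm2 hEm)
  have hS2v : volume S2 = ENNReal.ofReal |c⁻¹| * volume E := by
    rw [hS2, Real.volume_preimage_mul_left hc.ne', measure_preimage_add_right]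
  have hle : volume (A ∩ Icc x x') + ENNReal.ofReal |c⁻¹| * volume E ≤ ENNReal.ofReal (x' - x) := by
    rw [← hS2v, ← measure_union hdisj hS2m, ← Real.volume_Icc]
    exact measure_mono (union_subset inter_subset_right hS2sub)
  have hfinI : ∀ u v : ℝ, volume (Icc u v) ≠ ⊤ := by
    intro u v; rw [Real.volume_Icc]; exact ENNReal.ofReal_ne_top
  have hfin1 : volume (A ∩ Icc x x') ≠ ⊤ :=
    ne_top_of_le_ne_top (hfinI x x') (measure_mono inter_subset_right)
  have hfin2 : volume E ≠ ⊤ :=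
    ne_top_of_le_ne_top (hfinI y y') (measure_mono inter_subset_right)
  have key : (volume (A ∩ Icc x x')).toReal + |c⁻¹| * (volume E).toReal ≤ x' - x := by
    have h := ENNReal.toReal_mono ENNReal.ofReal_ne_top hle
    rw [ENNReal.toReal_add hfin1 (ENNReal.mul_ne_top ENNReal.ofReal_ne_top hfin2),
      ENNReal.toReal_mul, ENNReal.toReal_ofReal (abs_nonneg _),
      ENNReal.toReal_ofReal hdx.le] at h
    exact h
  have habs : |c⁻¹| = c⁻¹ := abs_of_pos (inv_pos.2 hc)
  have hcinv : (y' - y) * c⁻¹ = x' - x := by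
    rw [hc_def]; field_simp
  rw [habs] at key
  have := mul_le_mul_of_nonneg_left key hdy.le
  calc (y' - y) * (volume (A ∩ Icc x x')).toReal + (x' - x) * (volume E).toReal
      = (y' - y) * ((volume (A ∩ Icc x x')).toReal + c⁻¹ * (volume E).toReal) := by
        rw [← hcinv]; ring
    _ ≤ (y' - y) * (x' - x) := this
    _ = (x' - x) * (y' - y) := by ring

/-- The box inequality for a box having a decreasing diagonal inside `C`. -/
theorem seg_dec {C : Set (ℝ × ℝ)} (hC : Convex ℝ C) {A B : Set ℝ} (hA : MeasurableSet A)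
    (hB : MeasurableSet B) (hAB : ∀ a ∈ A, ∀ b ∈ B, (a, b) ∉ C) {x x' y y' : ℝ}
    (hx : x ≤ x') (hy : y ≤ y') (h1 : (x, y') ∈ C) (h2 : (x', y) ∈ C) :
    (y' - y) * (volume (A ∩ Icc x x')).toReal + (x' - x) * (volume (B ∩ Icc y y')).toReal
      ≤ (x' - x) * (y' - y) := by
  have hC' : Convex ℝ ((fun p : ℝ × ℝ => (p.1, -p.2)) ⁻¹' C) := by
    intro p hp q hq a b ha hb hab
    have h := hC hp hq ha hb hab
    have e : a • ((p.1, -p.2) : ℝ × ℝ) + b • ((q.1, -q.2) : ℝ × ℝ)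
        = ((a • p + b • q).1, -(a • p + b • q).2) := by
      ext <;> simp <;> ring
    rw [e] at h
    exact h
  have hB' : MeasurableSet (Neg.neg ⁻¹' B) := measurable_neg hB
  have hAB' : ∀ a ∈ A, ∀ b ∈ (Neg.neg ⁻¹' B), (a, b) ∉ (fun p : ℝ × ℝ => (p.1, -p.2)) ⁻¹' C := by
    intro a ha b hb hmem
    exact hAB a ha (-b) hb hmem
  have h := seg_inc hC' hA hB' hAB' hx (neg_le_neg hy) (y := -y') (y' := -y)
    (by simpa using h1) (by simpa using h2)
  have hset : Neg.neg ⁻¹' B ∩ Icc (-y') (-y) = Neg.neg ⁻¹' (B ∩ Icc y y') := by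
    ext z
    simp only [mem_inter_iff, mem_preimage, mem_Icc]
    constructor
    · rintro ⟨hz, hz1, hz2⟩
      exact ⟨hz, by linarith, by linarith⟩
    · rintro ⟨hz, hz1, hz2⟩
      exact ⟨hz, by linarith, by linarith⟩
  rw [hset, Measure.measure_preimage_neg] at h
  linarith

theorem box_of_inc {C : Set (ℝ × ℝ)} (hC : Convex ℝ C) {A B : Set ℝ} (hA : MeasurableSet A)
    (hB : MeasurableSet B) (hAf : volume A ≠ ⊤) (hBf : volume B ≠ ⊤)
    (hAB : ∀ a ∈ A, ∀ b ∈ B, (a, b) ∉ C) {x x' y y' : ℝ}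
    (hx : x ≤ x') (hy : y ≤ y') (h1 : (x, y) ∈ C) (h2 : (x', y') ∈ C) :
    Box (cdf A) (cdf B) x x' y y' := by
  have h := seg_inc hC hA hB hAB hx hy h1 h2
  unfold Box
  rw [cdf_sub hA hAf hx, cdf_sub hB hBf hy]
  have ha : (volume (A ∩ Ioc x x')).toReal ≤ (volume (A ∩ Icc x x')).toReal :=
    ENNReal.toReal_mono (ne_top_of_le_ne_top hAf (measure_mono inter_subset_left))
      (measure_mono (inter_subset_inter_right _ Ioc_subset_Icc_self))
  have hb : (volume (B ∩ Ioc y y')).toReal ≤ (volume (B ∩ Icc y y')).toReal :=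
    ENNReal.toReal_mono (ne_top_of_le_ne_top hBf (measure_mono inter_subset_left))
      (measure_mono (inter_subset_inter_right _ Ioc_subset_Icc_self))
  have := mul_le_mul_of_nonneg_left ha (sub_nonneg.2 hy)
  have := mul_le_mul_of_nonneg_left hb (sub_nonneg.2 hx)
  linarith

theorem box_of_dec {C : Set (ℝ × ℝ)} (hC : Convex ℝ C) {A B : Set ℝ} (hA : MeasurableSet A)
    (hB : MeasurableSet B) (hAf : volume A ≠ ⊤) (hBf : volume B ≠ ⊤)
    (hAB : ∀ a ∈ A, ∀ b ∈ B, (a, b) ∉ C) {x x' y y' : ℝ}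
    (hx : x ≤ x') (hy : y ≤ y') (h1 : (x, y') ∈ C) (h2 : (x', y) ∈ C) :
    Box (cdf A) (cdf B) x x' y y' := by
  have h := seg_dec hC hA hB hAB hx hy h1 h2
  unfold Box
  rw [cdf_sub hA hAf hx, cdf_sub hB hBf hy]
  have ha : (volume (A ∩ Ioc x x')).toReal ≤ (volume (A ∩ Icc x x')).toReal :=
    ENNReal.toReal_mono (ne_top_of_le_ne_top hAf (measure_mono inter_subset_left))
      (measure_mono (inter_subset_inter_right _ Ioc_subset_Icc_self))
  have hb : (volume (B ∩ Ioc y y')).toReal ≤ (volume (B ∩ Icc y y')).toReal :=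
    ENNReal.toReal_mono (ne_top_of_le_ne_top hBf (measure_mono inter_subset_left))
      (measure_mono (inter_subset_inter_right _ Ioc_subset_Icc_self))
  have := mul_le_mul_of_nonneg_left ha (sub_nonneg.2 hy)
  have := mul_le_mul_of_nonneg_left hb (sub_nonneg.2 hx)
  linarith

/-- The real-number form of the planar two-plank lemma, from four extreme points. -/
theorem plank_real {C : Set (ℝ × ℝ)} (hC : Convex ℝ C) {A B : Set ℝ} (hA : MeasurableSet A)
    (hB : MeasurableSet B) (hAf : volume A ≠ ⊤) (hBf : volume B ≠ ⊤)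
    (hAB : ∀ a ∈ A, ∀ b ∈ B, (a, b) ∉ C)
    {xL xR yB yT xB xT yL yR : ℝ}
    (hL : (xL, yL) ∈ C) (hR : (xR, yR) ∈ C) (hBo : (xB, yB) ∈ C) (hT : (xT, yT) ∈ C)
    (h1 : xL ≤ xB) (h2 : xB ≤ xR) (h3 : xL ≤ xT) (h4 : xT ≤ xR)
    (h5 : yB ≤ yL) (h6 : yL ≤ yT) (h7 : yB ≤ yR) (h8 : yR ≤ yT) :
    Box (cdf A) (cdf B) xL xR yB yT := by
  have hF := cdf_lip hA hAf
  have hG := cdf_lip hB hBf
  have inc : ∀ {x x' y y' : ℝ}, x ≤ x' → y ≤ y' → (x, y) ∈ C → (x', y') ∈ C →
      Box (cdf A) (cdf B) x x' y y' :=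
    fun hx hy p1 p2 => box_of_inc hC hA hB hAf hBf hAB hx hy p1 p2
  have dec : ∀ {x x' y y' : ℝ}, x ≤ x' → y ≤ y' → (x, y') ∈ C → (x', y) ∈ C →
      Box (cdf A) (cdf B) x x' y y' :=
    fun hx hy p1 p2 => box_of_dec hC hA hB hAf hBf hAB hx hy p1 p2
  rcases le_total xB xT with hBT | hTB
  · have hM1 : (xB, yL) ∈ C := by
      obtain ⟨y, hy, hy1, -⟩ := exists_on_seg hC hL hT (x := xB) h1 hBT
      have hy1' : yL ≤ y := by
        have : min yL yT = yL := min_eq_left h6
        simpa [this] using hy1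
      exact mem_vert hC hBo hy h5 hy1'
    have hM2 : (xT, yR) ∈ C := by
      obtain ⟨y, hy, -, hy2⟩ := exists_on_seg hC hBo hR (x := xT) hBT h4
      have hy2' : y ≤ yR := by
        have : max yB yR = yR := max_eq_right h7
        simpa [this] using hy2
      exact mem_vert hC hy hT hy2' h8
    rcases le_total yL yR with hLR | hRL
    · exact box_certP hF hG h1 hBT h4 h5 hLR h8
        (dec h1 h5 hL hBo) (dec h4 h8 hT hR) (inc hBT hLR hM1 hM2)
        (inc h2 h7 hBo hR) (inc h3 h6 hL hT) (inc (h1.trans h2) hLR hL hR)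
        (inc hBT (h5.trans h6) hBo hT)
    · exact box_certN1 (dec h1 h5 hL hBo) (inc h2 h7 hBo hR) (dec h4 h8 hT hR)
        (inc h3 h6 hL hT) (dec hBT hRL hM1 hM2)
  · rcases le_total yL yR with hLR | hRL
    · have hM1 : (xB, yL) ∈ C := by
        obtain ⟨y, hy, hy1, -⟩ := exists_on_seg hC hT hR (x := xB) hTB h2
        have hy1' : yR ≤ y := by
          have : min yT yR = yR := min_eq_right h8
          simpa [this] using hy1
        exact mem_vert hC hBo hy h5 (hLR.trans hy1')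
      have hM2 : (xT, yR) ∈ C := by
        obtain ⟨y, hy, -, hy2⟩ := exists_on_seg hC hL hBo (x := xT) h3 hTB
        have hy2' : y ≤ yL := by
          have : max yL yB = yL := max_eq_left h5
          simpa [this] using hy2
        exact mem_vert hC hy hT (hy2'.trans hLR) h8
      exact box_certN2 (dec h1 h5 hL hBo) (inc h2 h7 hBo hR) (dec h4 h8 hT hR)
        (inc h3 h6 hL hT) (dec hTB hLR hM2 hM1)
    · have hP1 : (xT, yL) ∈ C := by
        obtain ⟨y, hy, -, hy2⟩ := exists_on_seg hC hL hBo (x := xT) h3 hTB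
        have hy2' : y ≤ yL := by
          have : max yL yB = yL := max_eq_left h5
          simpa [this] using hy2
        exact mem_vert hC hy hT hy2' h6
      have hP2 : (xB, yR) ∈ C := by
        obtain ⟨y, hy, hy1, -⟩ := exists_on_seg hC hT hR (x := xB) hTB h2
        have hy1' : yR ≤ y := by
          have : min yT yR = yR := min_eq_right h8
          simpa [this] using hy1
        exact mem_vert hC hBo hy h7 hy1'
      exact box_certP' hF hG h3 hTB h2 h7 hRL h6
        (inc h3 h6 hL hT) (inc h2 h7 hBo hR) (dec hTB hRL hP1 hP2)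
        (dec h4 h8 hT hR) (dec h1 h5 hL hBo) (dec (h1.trans h2) hRL hL hR)
        (dec hTB (h5.trans h6) hT hBo)

/-- **Planar measurable two-plank lemma.** If a compact convex planar set `C` is covered by
`S × ℝ` and `ℝ × T`, then the relative measures of `S` and `T` in the two coordinate
projections of `C` add up to at least one (stated in product form). -/
theorem planar_two_plank {C : Set (ℝ × ℝ)} (hC : Convex ℝ C) (hCc : IsCompact C)
    {S T : Set ℝ} (hS : MeasurableSet S) (hT : MeasurableSet T)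
    (hcov : ∀ z ∈ C, z.1 ∈ S ∨ z.2 ∈ T) :
    volume (Prod.fst '' C) * volume (Prod.snd '' C)
      ≤ volume (S ∩ Prod.fst '' C) * volume (Prod.snd '' C)
        + volume (T ∩ Prod.snd '' C) * volume (Prod.fst '' C) := by
  rcases C.eq_empty_or_nonempty with rfl | hne
  · simp
  obtain ⟨pL, hpL, hpLmin⟩ := hCc.exists_isMinOn hne continuous_fst.continuousOn
  obtain ⟨pR, hpR, hpRmax⟩ := hCc.exists_isMaxOn hne continuous_fst.continuousOn
  obtain ⟨pB, hpB, hpBmin⟩ := hCc.exists_isMinOn hne continuous_snd.continuousOn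
  obtain ⟨pT, hpT, hpTmax⟩ := hCc.exists_isMaxOn hne continuous_snd.continuousOn
  have hLmin : ∀ z ∈ C, pL.1 ≤ z.1 := fun z hz => hpLmin hz
  have hRmax : ∀ z ∈ C, z.1 ≤ pR.1 := fun z hz => hpRmax hz
  have hBmin : ∀ z ∈ C, pB.2 ≤ z.2 := fun z hz => hpBmin hz
  have hTmax : ∀ z ∈ C, z.2 ≤ pT.2 := fun z hz => hpTmax hz
  have hI1 : Prod.fst '' C = Icc pL.1 pR.1 := by
    apply Subset.antisymm
    · rintro _ ⟨z, hz, rfl⟩
      exact ⟨hLmin z hz, hRmax z hz⟩
    · have hconv : Convex ℝ (Prod.fst '' C) := by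
        have := hC.linear_image (LinearMap.fst ℝ ℝ ℝ)
        simpa using this
      exact hconv.ordConnected.out ⟨pL, hpL, rfl⟩ ⟨pR, hpR, rfl⟩
  have hI2 : Prod.snd '' C = Icc pB.2 pT.2 := by
    apply Subset.antisymm
    · rintro _ ⟨z, hz, rfl⟩
      exact ⟨hBmin z hz, hTmax z hz⟩
    · have hconv : Convex ℝ (Prod.snd '' C) := by
        have := hC.linear_image (LinearMap.snd ℝ ℝ ℝ)
        simpa using this
      exact hconv.ordConnected.out ⟨pB, hpB, rfl⟩ ⟨pT, hpT, rfl⟩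
  rw [hI1, hI2]
  set A : Set ℝ := Icc pL.1 pR.1 \ S with hAdef
  set B : Set ℝ := Icc pB.2 pT.2 \ T with hBdef
  have hAm : MeasurableSet A := measurableSet_Icc.diff hS
  have hBm : MeasurableSet B := measurableSet_Icc.diff hT
  have hfinI : ∀ u v : ℝ, volume (Icc u v) ≠ ⊤ := by
    intro u v; rw [Real.volume_Icc]; exact ENNReal.ofReal_ne_top
  have hAf : volume A ≠ ⊤ := ne_top_of_le_ne_top (hfinI _ _) (measure_mono sdiff_subset)
  have hBf : volume B ≠ ⊤ := ne_top_of_le_ne_top (hfinI _ _) (measure_mono sdiff_subset)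
  have hAB : ∀ a ∈ A, ∀ b ∈ B, (a, b) ∉ C := by
    intro a ha b hb hmem
    rcases hcov _ hmem with h | h
    · exact ha.2 h
    · exact hb.2 h
  have hbox := plank_real hC hAm hBm hAf hBf hAB (xL := pL.1) (yL := pL.2) (xR := pR.1)
    (yR := pR.2) (xB := pB.1) (yB := pB.2) (xT := pT.1) (yT := pT.2) hpL hpR hpB hpT
    (hLmin pB hpB) (hRmax pB hpB) (hLmin pT hpT) (hRmax pT hpT)
    (hBmin pL hpL) (hTmax pL hpL) (hBmin pR hpR) (hTmax pR hpR)
  unfold Box at hbox
  have hl1 : pL.1 ≤ pR.1 := hLmin pR hpR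
  have hl2 : pB.2 ≤ pT.2 := hBmin pT hpT
  have hA_R : cdf A pR.1 = (volume A).toReal := by
    unfold cdf
    have : A ∩ Iic pR.1 = A := inter_eq_left.2 (fun a ha => ha.1.2)
    rw [this]
  have hA_L : cdf A pL.1 = 0 := by
    unfold cdf
    have : volume (A ∩ Iic pL.1) = 0 := by
      apply measure_mono_null (t := {pL.1})
      · intro a ha
        exact le_antisymm ha.2 ha.1.1.1
      · simp
    rw [this]; simp
  have hB_T : cdf B pT.2 = (volume B).toReal := by
    unfold cdf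
    have : B ∩ Iic pT.2 = B := inter_eq_left.2 (fun a ha => ha.1.2)
    rw [this]
  have hB_B : cdf B pB.2 = 0 := by
    unfold cdf
    have : volume (B ∩ Iic pB.2) = 0 := by
      apply measure_mono_null (t := {pB.2})
      · intro a ha
        exact le_antisymm ha.2 ha.1.1.1
      · simp
    rw [this]; simp
  rw [hA_R, hA_L, hB_T, hB_B] at hbox
  have e1 : volume (Icc pL.1 pR.1 ∩ S) + volume A = volume (Icc pL.1 pR.1) :=
    measure_inter_add_sdiff _ hS
  have e2 : volume (Icc pB.2 pT.2 ∩ T) + volume B = volume (Icc pB.2 pT.2) :=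
    measure_inter_add_sdiff _ hT
  have hSf : volume (S ∩ Icc pL.1 pR.1) ≠ ⊤ :=
    ne_top_of_le_ne_top (hfinI _ _) (measure_mono inter_subset_right)
  have hTf : volume (T ∩ Icc pB.2 pT.2) ≠ ⊤ :=
    ne_top_of_le_ne_top (hfinI _ _) (measure_mono inter_subset_right)
  have r1 : (volume (S ∩ Icc pL.1 pR.1)).toReal + (volume A).toReal = pR.1 - pL.1 := by
    have := congrArg ENNReal.toReal e1
    rw [inter_comm, ENNReal.toReal_add hSf hAf, Real.volume_Icc,
      ENNReal.toReal_ofReal (by linarith)] at this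
    exact this
  have r2 : (volume (T ∩ Icc pB.2 pT.2)).toReal + (volume B).toReal = pT.2 - pB.2 := by
    have := congrArg ENNReal.toReal e2
    rw [inter_comm, ENNReal.toReal_add hTf hBf, Real.volume_Icc,
      ENNReal.toReal_ofReal (by linarith)] at this
    exact this
  rw [← ENNReal.ofReal_toReal hSf, ← ENNReal.ofReal_toReal hTf, Real.volume_Icc, Real.volume_Icc,
    ← ENNReal.ofReal_mul (by linarith), ← ENNReal.ofReal_mul ENNReal.toReal_nonneg,
    ← ENNReal.ofReal_mul ENNReal.toReal_nonneg,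
    ← ENNReal.ofReal_add (mul_nonneg ENNReal.toReal_nonneg (by linarith))
      (mul_nonneg ENNReal.toReal_nonneg (by linarith))]
  apply ENNReal.ofReal_le_ofReal
  nlinarith [hbox, r1, r2]

end Vale.Agent.Lib.Helper9.P243
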