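import Mathlib
import Vale.Agent.Lib.Helper9.P243.Plank

set_option autoImplicit false

open MeasureTheory Set

namespace Vale.Agent.Lib.Helper9.P243

/-- Real-number core inequality: plank inequality plus two tent inequalities. -/
theorem core_real {m L v1 v2 l1 l2 s r : ℝ} (hm : 0 ≤ m) (hL : 0 < L) (hv1 : 0 < v1) (hv2 : 0 < v2)
    (hl1 : 0 ≤ l1) (hl2 : 0 ≤ l2) (hs : 0 ≤ s) (hr : 0 ≤ r)
    (hplank : l1 * l2 ≤ s * l2 + r * l1) (ht1 : v1 * m ≤ L * l1) (ht2 : v2 * m ≤ L * l2) :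
    m / L ≤ s / v1 + r / v2 := by
  rcases hm.eq_or_lt with h0 | hmpos
  · subst h0
    have h1 : 0 ≤ s / v1 := div_nonneg hs hv1.le
    have h2 : 0 ≤ r / v2 := div_nonneg hr hv2.le
    simp only [zero_div]
    linarith
  have hl1p : 0 < l1 := by
    by_contra h
    have h0 : l1 = 0 := le_antisymm (not_lt.mp h) hl1
    subst h0
    have : 0 < v1 * m := mul_pos hv1 hmpos
    linarith
  have hl2p : 0 < l2 := by
    by_contra h
    have h0 : l2 = 0 := le_antisymm (not_lt.mp h) hl2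
    subst h0
    have : 0 < v2 * m := mul_pos hv2 hmpos
    linarith
  rw [div_add_div _ _ hv1.ne' hv2.ne', div_le_div_iff₀ hL (mul_pos hv1 hv2)]
  have key : m * (v1 * v2) * (l1 * l2) ≤ (s * v2 + v1 * r) * L * (l1 * l2) := by
    have e1 := mul_le_mul_of_nonneg_left hplank (by positivity : 0 ≤ m * v1 * v2)
    have e2 := mul_le_mul_of_nonneg_left ht1 (by positivity : 0 ≤ s * v2 * l2)
    have e3 := mul_le_mul_of_nonneg_left ht2 (by positivity : 0 ≤ r * v1 * l1)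
    nlinarith [e1, e2, e3]
  exact le_of_mul_le_mul_right key (mul_pos hl1p hl2p)

/-- The same inequality for extended nonnegative reals. -/
theorem core_pointwise {μ L2 V1 V2 l1 l2 σ ρ : ENNReal}
    (hL0 : L2 ≠ 0) (hLt : L2 ≠ ⊤) (hV10 : V1 ≠ 0) (hV1t : V1 ≠ ⊤) (hV20 : V2 ≠ 0) (hV2t : V2 ≠ ⊤)
    (hμt : μ ≠ ⊤) (hl1t : l1 ≠ ⊤) (hl2t : l2 ≠ ⊤) (hσt : σ ≠ ⊤) (hρt : ρ ≠ ⊤)
    (hplank : l1 * l2 ≤ σ * l2 + ρ * l1) (ht1 : V1 * μ ≤ L2 * l1) (ht2 : V2 * μ ≤ L2 * l2) :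
    μ / L2 ≤ σ / V1 + ρ / V2 := by
  have hpl : l1.toReal * l2.toReal ≤ σ.toReal * l2.toReal + ρ.toReal * l1.toReal := by
    have h := ENNReal.toReal_mono
      (ENNReal.add_ne_top.mpr ⟨ENNReal.mul_ne_top hσt hl2t, ENNReal.mul_ne_top hρt hl1t⟩) hplank
    rwa [ENNReal.toReal_add (ENNReal.mul_ne_top hσt hl2t) (ENNReal.mul_ne_top hρt hl1t),
      ENNReal.toReal_mul, ENNReal.toReal_mul, ENNReal.toReal_mul] at h
  have h1 : V1.toReal * μ.toReal ≤ L2.toReal * l1.toReal := by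
    have h := ENNReal.toReal_mono (ENNReal.mul_ne_top hLt hl1t) ht1
    rwa [ENNReal.toReal_mul, ENNReal.toReal_mul] at h
  have h2 : V2.toReal * μ.toReal ≤ L2.toReal * l2.toReal := by
    have h := ENNReal.toReal_mono (ENNReal.mul_ne_top hLt hl2t) ht2
    rwa [ENNReal.toReal_mul, ENNReal.toReal_mul] at h
  have hreal := core_real (m := μ.toReal) (L := L2.toReal) (v1 := V1.toReal) (v2 := V2.toReal)
    (l1 := l1.toReal) (l2 := l2.toReal) (s := σ.toReal) (r := ρ.toReal)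
    ENNReal.toReal_nonneg (ENNReal.toReal_pos hL0 hLt) (ENNReal.toReal_pos hV10 hV1t)
    (ENNReal.toReal_pos hV20 hV2t) ENNReal.toReal_nonneg ENNReal.toReal_nonneg
    ENNReal.toReal_nonneg ENNReal.toReal_nonneg hpl h1 h2
  have hlt : μ / L2 ≠ ⊤ := ENNReal.div_ne_top hμt hL0
  have hrt : σ / V1 + ρ / V2 ≠ ⊤ :=
    ENNReal.add_ne_top.mpr ⟨ENNReal.div_ne_top hσt hV10, ENNReal.div_ne_top hρt hV20⟩
  rw [← ENNReal.toReal_le_toReal hlt hrt,
    ENNReal.toReal_add (ENNReal.div_ne_top hσt hV10) (ENNReal.div_ne_top hρt hV20),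
    ENNReal.toReal_div, ENNReal.toReal_div, ENNReal.toReal_div]
  exact hreal

/-- The coordinate core for measurable bases. -/
theorem core_meas
    (tent : ∀ (D : Set (ℝ × ℝ)), Convex ℝ D → IsCompact D → ∀ (t₀ t₁ : ℝ), (∃ p, (t₀, p) ∈ D) →
        (∃ p, (t₁, p) ∈ D) → (∀ z ∈ D, t₀ ≤ z.1 ∧ z.1 ≤ t₁) → ∀ τ ∈ Set.Icc t₀ t₁,
        volume D * ENNReal.ofReal (2 * min (τ - t₀) (t₁ - τ))
          ≤ ENNReal.ofReal ((t₁ - t₀) ^ 2) * volume {p : ℝ | (τ, p) ∈ D})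
    (tentInt : ∀ (t₀ t₁ : ℝ), t₀ ≤ t₁ →
        ∫⁻ t in Set.Icc t₀ t₁, ENNReal.ofReal (2 * min (t - t₀) (t₁ - t))
          = ENNReal.ofReal ((t₁ - t₀) ^ 2 / 2))
    {K : Set (ℝ × ℝ × ℝ)} (hK : Convex ℝ K) (hKc : IsCompact K)
    {S T : Set (ℝ × ℝ)} (hS : MeasurableSet S) (hT : MeasurableSet T)
    (hcov : ∀ x ∈ K, (x.1, x.2.1) ∈ S ∨ (x.1, x.2.2) ∈ T)
    (h1 : volume ((fun x : ℝ × ℝ × ℝ => (x.1, x.2.1)) '' K) ≠ 0)
    (h2 : volume ((fun x : ℝ × ℝ × ℝ => (x.1, x.2.2)) '' K) ≠ 0) :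
    (1 / 2 : ENNReal) ≤ volume S / volume ((fun x : ℝ × ℝ × ℝ => (x.1, x.2.1)) '' K)
      + volume T / volume ((fun x : ℝ × ℝ × ℝ => (x.1, x.2.2)) '' K) := by
  set D1 : Set (ℝ × ℝ) := (fun x : ℝ × ℝ × ℝ => (x.1, x.2.1)) '' K with hD1
  set D2 : Set (ℝ × ℝ) := (fun x : ℝ × ℝ × ℝ => (x.1, x.2.2)) '' K with hD2
  have hc1 : Continuous (fun x : ℝ × ℝ × ℝ => (x.1, x.2.1)) := by fun_prop
  have hc2 : Continuous (fun x : ℝ × ℝ × ℝ => (x.1, x.2.2)) := by fun_prop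
  have hD1c : IsCompact D1 := hKc.image hc1
  have hD2c : IsCompact D2 := hKc.image hc2
  have hD1conv : Convex ℝ D1 := by
    rintro _ ⟨x, hx, rfl⟩ _ ⟨y, hy, rfl⟩ a b ha hb hab
    exact ⟨a • x + b • y, hK hx hy ha hb hab, rfl⟩
  have hD2conv : Convex ℝ D2 := by
    rintro _ ⟨x, hx, rfl⟩ _ ⟨y, hy, rfl⟩ a b ha hb hab
    exact ⟨a • x + b • y, hK hx hy ha hb hab, rfl⟩
  have hD1t : volume D1 ≠ ⊤ := hD1c.measure_lt_top.ne
  have hD2t : volume D2 ≠ ⊤ := hD2c.measure_lt_top.ne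
  have hKne : K.Nonempty := by
    by_contra h
    rw [not_nonempty_iff_eq_empty] at h
    apply h1
    simp [hD1, h]
  obtain ⟨xmin, hxminK, hxmin⟩ := hKc.exists_isMinOn hKne (continuous_fst.continuousOn)
  obtain ⟨xmax, hxmaxK, hxmax⟩ := hKc.exists_isMaxOn hKne (continuous_fst.continuousOn)
  set t0 : ℝ := xmin.1 with ht0
  set t1 : ℝ := xmax.1 with ht1
  have hrange : ∀ x ∈ K, t0 ≤ x.1 ∧ x.1 ≤ t1 := fun x hx => ⟨hxmin hx, hxmax hx⟩
  have ht01 : t0 < t1 := by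
    by_contra h
    have hle : t1 ≤ t0 := not_lt.mp h
    apply h1
    have hsub : D1 ⊆ ({t0} : Set ℝ) ×ˢ (univ : Set ℝ) := by
      rintro _ ⟨x, hx, rfl⟩
      have := hrange x hx
      refine ⟨?_, mem_univ _⟩
      simp only [mem_singleton_iff]
      linarith [this.1, this.2]
    apply measure_mono_null hsub
    rw [Measure.volume_eq_prod, Measure.prod_prod]
    simp
  have hLpos : 0 < (t1 - t0) ^ 2 := by
    have : 0 < t1 - t0 := sub_pos.mpr ht01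
    positivity
  have hL0 : ENNReal.ofReal ((t1 - t0) ^ 2) ≠ 0 := by
    simp only [ne_eq, ENNReal.ofReal_eq_zero, not_le]
    exact hLpos
  have hLt : ENNReal.ofReal ((t1 - t0) ^ 2) ≠ ⊤ := ENNReal.ofReal_ne_top
  -- pointwise inequality
  have hpt : ∀ t ∈ Icc t0 t1,
      ENNReal.ofReal (2 * min (t - t0) (t1 - t)) / ENNReal.ofReal ((t1 - t0) ^ 2)
        ≤ volume (Prod.mk t ⁻¹' (S ∩ D1)) / volume D1
          + volume (Prod.mk t ⁻¹' (T ∩ D2)) / volume D2 := by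
    intro t ht
    set C : Set (ℝ × ℝ) := Prod.mk t ⁻¹' K with hC
    have hCconv : Convex ℝ C := by
      intro z hz w hw a b ha hb hab
      have := hK hz hw ha hb hab
      have e : a • ((t, z) : ℝ × ℝ × ℝ) + b • ((t, w) : ℝ × ℝ × ℝ) = (t, a • z + b • w) := by
        ext
        · simp only [Prod.fst_add, Prod.smul_fst, smul_eq_mul]
          rw [← add_mul, hab, one_mul]
        · simp
        · simp
      rw [e] at this
      exact this
    have hCc : IsCompact C := by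
      have e : C = Prod.snd '' (K ∩ {x : ℝ × ℝ × ℝ | x.1 = t}) := by
        ext z
        constructor
        · intro hz
          exact ⟨(t, z), ⟨hz, rfl⟩, rfl⟩
        · rintro ⟨x, ⟨hx, hxt⟩, rfl⟩
          have : (t, x.2) = x := by
            ext <;> simp [← (show x.1 = t from hxt)]
          show (t, x.2) ∈ K
          rw [this]; exact hx
      rw [e]
      exact (hKc.inter_right (isClosed_eq continuous_fst continuous_const)).image continuous_snd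
    have hsec1 : {p : ℝ | (t, p) ∈ D1} = Prod.fst '' C := by
      ext p
      constructor
      · rintro ⟨x, hx, hxe⟩
        have e1 : x.1 = t := congrArg Prod.fst hxe
        have e2 : x.2.1 = p := congrArg Prod.snd hxe
        refine ⟨x.2, ?_, e2⟩
        show (t, x.2) ∈ K
        rw [← e1]; exact hx
      · rintro ⟨z, hz, rfl⟩
        exact ⟨(t, z), hz, rfl⟩
    have hsec2 : {q : ℝ | (t, q) ∈ D2} = Prod.snd '' C := by
      ext q
      constructor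
      · rintro ⟨x, hx, hxe⟩
        have e1 : x.1 = t := congrArg Prod.fst hxe
        have e2 : x.2.2 = q := congrArg Prod.snd hxe
        refine ⟨x.2, ?_, e2⟩
        show (t, x.2) ∈ K
        rw [← e1]; exact hx
      · rintro ⟨z, hz, rfl⟩
        exact ⟨(t, z), hz, rfl⟩
    have hpl := planar_two_plank hCconv hCc (S := Prod.mk t ⁻¹' S) (T := Prod.mk t ⁻¹' T)
      (measurable_prodMk_left hS) (measurable_prodMk_left hT)
      (fun z hz => hcov (t, z) hz)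
    have hte1 := tent D1 hD1conv hD1c t0 t1 ⟨xmin.2.1, ⟨xmin, hxminK, rfl⟩⟩
      ⟨xmax.2.1, ⟨xmax, hxmaxK, rfl⟩⟩
      (by rintro _ ⟨x, hx, rfl⟩; exact hrange x hx) t ht
    have hte2 := tent D2 hD2conv hD2c t0 t1 ⟨xmin.2.2, ⟨xmin, hxminK, rfl⟩⟩
      ⟨xmax.2.2, ⟨xmax, hxmaxK, rfl⟩⟩
      (by rintro _ ⟨x, hx, rfl⟩; exact hrange x hx) t ht
    rw [hsec1] at hte1
    rw [hsec2] at hte2
    have e1 : Prod.mk t ⁻¹' (S ∩ D1) = (Prod.mk t ⁻¹' S) ∩ Prod.fst '' C := by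
      rw [← hsec1]; rfl
    have e2 : Prod.mk t ⁻¹' (T ∩ D2) = (Prod.mk t ⁻¹' T) ∩ Prod.snd '' C := by
      rw [← hsec2]; rfl
    rw [e1, e2]
    have hf1 : volume (Prod.fst '' C) ≠ ⊤ := (hCc.image continuous_fst).measure_lt_top.ne
    have hf2 : volume (Prod.snd '' C) ≠ ⊤ := (hCc.image continuous_snd).measure_lt_top.ne
    exact core_pointwise hL0 hLt h1 hD1t h2 hD2t ENNReal.ofReal_ne_top hf1 hf2
      (ne_top_of_le_ne_top hf1 (measure_mono inter_subset_right))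
      (ne_top_of_le_ne_top hf2 (measure_mono inter_subset_right)) hpl hte1 hte2
  -- integration
  have hvol : (volume : Measure (ℝ × ℝ)) = (volume : Measure ℝ).prod volume :=
    Measure.volume_eq_prod ℝ ℝ
  have hS1 : volume (S ∩ D1) = ∫⁻ t, volume (Prod.mk t ⁻¹' (S ∩ D1)) := by
    rw [hvol, Measure.prod_apply (hS.inter hD1c.measurableSet)]
  have hT1 : volume (T ∩ D2) = ∫⁻ t, volume (Prod.mk t ⁻¹' (T ∩ D2)) := by
    rw [hvol, Measure.prod_apply (hT.inter hD2c.measurableSet)]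
  have hmeas1 : Measurable fun t : ℝ => volume (Prod.mk t ⁻¹' (S ∩ D1)) / volume D1 :=
    (measurable_measure_prodMk_left (hS.inter hD1c.measurableSet)).div_const _
  have hhalf : (1 / 2 : ENNReal)
      = (∫⁻ t in Icc t0 t1, ENNReal.ofReal (2 * min (t - t0) (t1 - t)))
        / ENNReal.ofReal ((t1 - t0) ^ 2) := by
    rw [tentInt t0 t1 ht01.le, ← ENNReal.ofReal_div_of_pos hLpos]
    have : (t1 - t0) ^ 2 / 2 / (t1 - t0) ^ 2 = 1 / 2 := by
      rw [div_right_comm, div_self hLpos.ne']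
    rw [this, ENNReal.ofReal_div_of_pos two_pos]
    simp
  calc (1 / 2 : ENNReal)
      = (∫⁻ t in Icc t0 t1, ENNReal.ofReal (2 * min (t - t0) (t1 - t)))
        / ENNReal.ofReal ((t1 - t0) ^ 2) := hhalf
    _ = ∫⁻ t in Icc t0 t1, ENNReal.ofReal (2 * min (t - t0) (t1 - t))
        / ENNReal.ofReal ((t1 - t0) ^ 2) := by
        simp only [div_eq_mul_inv]
        rw [lintegral_mul_const' _ _ (ENNReal.inv_ne_top.mpr hL0)]
    _ ≤ ∫⁻ t in Icc t0 t1, (volume (Prod.mk t ⁻¹' (S ∩ D1)) / volume D1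
          + volume (Prod.mk t ⁻¹' (T ∩ D2)) / volume D2) :=
        setLIntegral_mono' measurableSet_Icc hpt
    _ ≤ ∫⁻ t, (volume (Prod.mk t ⁻¹' (S ∩ D1)) / volume D1
          + volume (Prod.mk t ⁻¹' (T ∩ D2)) / volume D2) :=
        setLIntegral_le_lintegral _ _
    _ = (∫⁻ t, volume (Prod.mk t ⁻¹' (S ∩ D1)) / volume D1)
          + ∫⁻ t, volume (Prod.mk t ⁻¹' (T ∩ D2)) / volume D2 :=
        lintegral_add_left hmeas1 _
    _ = volume (S ∩ D1) / volume D1 + volume (T ∩ D2) / volume D2 := by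
        simp only [div_eq_mul_inv]
        rw [lintegral_mul_const' _ _ (ENNReal.inv_ne_top.mpr h1),
          lintegral_mul_const' _ _ (ENNReal.inv_ne_top.mpr h2), ← hS1, ← hT1]
    _ ≤ volume S / volume D1 + volume T / volume D2 := by
        gcongr <;> exact inter_subset_left

/-- The coordinate core for arbitrary bases (outer measure). -/
theorem core_of_tent
    (tent : ∀ (D : Set (ℝ × ℝ)), Convex ℝ D → IsCompact D → ∀ (t₀ t₁ : ℝ), (∃ p, (t₀, p) ∈ D) →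
        (∃ p, (t₁, p) ∈ D) → (∀ z ∈ D, t₀ ≤ z.1 ∧ z.1 ≤ t₁) → ∀ τ ∈ Set.Icc t₀ t₁,
        volume D * ENNReal.ofReal (2 * min (τ - t₀) (t₁ - τ))
          ≤ ENNReal.ofReal ((t₁ - t₀) ^ 2) * volume {p : ℝ | (τ, p) ∈ D})
    (tentInt : ∀ (t₀ t₁ : ℝ), t₀ ≤ t₁ →
        ∫⁻ t in Set.Icc t₀ t₁, ENNReal.ofReal (2 * min (t - t₀) (t₁ - t))
          = ENNReal.ofReal ((t₁ - t₀) ^ 2 / 2))
    {K : Set (ℝ × ℝ × ℝ)} (hK : Convex ℝ K) (hKc : IsCompact K)
    {S T : Set (ℝ × ℝ)}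
    (hcov : ∀ x ∈ K, (x.1, x.2.1) ∈ S ∨ (x.1, x.2.2) ∈ T)
    (h1 : volume ((fun x : ℝ × ℝ × ℝ => (x.1, x.2.1)) '' K) ≠ 0)
    (h2 : volume ((fun x : ℝ × ℝ × ℝ => (x.1, x.2.2)) '' K) ≠ 0) :
    (1 / 2 : ENNReal) ≤ volume S / volume ((fun x : ℝ × ℝ × ℝ => (x.1, x.2.1)) '' K)
      + volume T / volume ((fun x : ℝ × ℝ × ℝ => (x.1, x.2.2)) '' K) := by
  have hcov' : ∀ x ∈ K, (x.1, x.2.1) ∈ toMeasurable volume S
      ∨ (x.1, x.2.2) ∈ toMeasurable volume T := fun x hx =>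
    (hcov x hx).imp (fun h => subset_toMeasurable _ _ h) (fun h => subset_toMeasurable _ _ h)
  have h := core_meas tent tentInt hK hKc (measurableSet_toMeasurable _ _)
    (measurableSet_toMeasurable _ _) hcov' h1 h2
  rwa [measure_toMeasurable, measure_toMeasurable] at h

end Vale.Agent.Lib.Helper9.P243
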