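import Mathlib

set_option autoImplicit false

open MeasureTheory Set

namespace Vale.Agent.Lib.Helper9.P243

/-- Weighted layer cake for the square of a nonnegative function. -/
theorem lintegral_sq_layer {α : Type*} [MeasurableSpace α] (μ : Measure α) {f : α → ℝ}
    (hf : Measurable f) (hf0 : ∀ x, 0 ≤ f x) :
    ∫⁻ x, ENNReal.ofReal ((f x) ^ 2) ∂μ
      = ∫⁻ t in Ioi (0 : ℝ), μ {a : α | t < f a} * ENNReal.ofReal (2 * t) := by
  have h := lintegral_comp_eq_lintegral_meas_lt_mul μ (f := f) (g := fun t : ℝ => 2 * t)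
    (Filter.Eventually.of_forall hf0) hf.aemeasurable
    (fun t _ => (continuous_const.mul continuous_id).intervalIntegrable 0 t)
    (by
      filter_upwards [ae_restrict_mem measurableSet_Ioi] with t ht
      have : (0 : ℝ) < t := ht
      positivity)
  rw [← h]
  congr 1
  funext x
  congr 1
  rw [intervalIntegral.integral_const_mul, integral_id]
  ring

/-- Integral of `(1 - t) * (2 * t)` over an interval. -/
theorem integral_one_sub_mul (a b : ℝ) :
    ∫ t in a..b, (1 - t) * (2 * t) = (b ^ 2 - 2 / 3 * b ^ 3) - (a ^ 2 - 2 / 3 * a ^ 3) := by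
  have hderiv : ∀ x ∈ uIcc a b,
      HasDerivAt (fun t : ℝ => t ^ 2 - 2 / 3 * t ^ 3) ((1 - x) * (2 * x)) x := by
    intro x _
    have h1 := hasDerivAt_pow 2 x
    have h2 := (hasDerivAt_pow 3 x).const_mul (2 / 3 : ℝ)
    have h3 : HasDerivAt (fun t : ℝ => t ^ 2 - 2 / 3 * t ^ 3)
        (((2 : ℕ) : ℝ) * x ^ (2 - 1) - 2 / 3 * (((3 : ℕ) : ℝ) * x ^ (3 - 1))) x := h1.sub h2
    exact h3.congr_deriv (by push_cast; ring)
  have hint : IntervalIntegrable (fun x : ℝ => (1 - x) * (2 * x)) volume a b :=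
    (Continuous.intervalIntegrable (by fun_prop) a b)
  rw [intervalIntegral.integral_eq_sub_of_hasDerivAt hderiv hint]

/-- The same as a lower Lebesgue integral over `Ioo a b` inside `[0,1]`. -/
theorem lintegral_one_sub_mul {a b : ℝ} (ha : 0 ≤ a) (hab : a ≤ b) (hb : b ≤ 1) :
    ∫⁻ t in Ioo a b, ENNReal.ofReal ((1 - t) * (2 * t))
      = ENNReal.ofReal ((b ^ 2 - 2 / 3 * b ^ 3) - (a ^ 2 - 2 / 3 * a ^ 3)) := by
  rw [← integral_one_sub_mul a b, intervalIntegral.integral_of_le hab,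
    integral_Ioc_eq_integral_Ioo]
  rw [ofReal_integral_eq_lintegral_ofReal]
  · exact (Continuous.integrableOn_Icc (by fun_prop)).mono_set Ioo_subset_Icc_self
  · filter_upwards [ae_restrict_mem measurableSet_Ioo] with t ht
    have h1 : 0 ≤ t := le_trans ha ht.1.le
    have h2 : t ≤ 1 := le_trans ht.2.le hb
    have : 0 ≤ 1 - t := by linarith
    positivity

/-- Weighted layer-cake bound: if the tail function of `ψ` (values in `[0,1]`) satisfies the
star-shapedness condition `hstar`, then the truncation `min s ψ` carries at most the fraction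
`3 s^2 - 2 s^3` of the integral of `ψ^2`. -/
theorem weighted_layer_bound {ψ : ℝ → ℝ} (hψm : Measurable ψ) (hψ0 : ∀ x, 0 ≤ ψ x)
    (hψ1 : ∀ x, ψ x ≤ 1)
    (hstar : ∀ t t' : ℝ, 0 ≤ t → t ≤ t' → t' < 1 →
      ENNReal.ofReal (1 - t') * volume {x : ℝ | 0 < x ∧ t < ψ x}
        ≤ ENNReal.ofReal (1 - t) * volume {x : ℝ | 0 < x ∧ t' < ψ x})
    {s : ℝ} (hs0 : 0 ≤ s) (hs1 : s ≤ 1) :
    ∫⁻ x in Set.Ioi 0, ENNReal.ofReal ((min s (ψ x)) ^ 2)
      ≤ ENNReal.ofReal (3 * s ^ 2 - 2 * s ^ 3)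
        * ∫⁻ x in Set.Ioi 0, ENNReal.ofReal ((ψ x) ^ 2) := by
  rcases hs1.eq_or_lt with rfl | hs1'
  · have h1 : ∀ x, min 1 (ψ x) = ψ x := fun x => min_eq_right (hψ1 x)
    simp only [h1]
    norm_num
  rcases hs0.eq_or_lt with rfl | hs0'
  · have h0 : ∀ x, min 0 (ψ x) = 0 := fun x => min_eq_left (hψ0 x)
    simp [h0]
  set μ : Measure ℝ := volume.restrict (Ioi (0 : ℝ)) with hμ
  set Λ : ℝ → ENNReal := fun t => μ {x | t < ψ x} with hΛ
  have hΛeq : ∀ t, Λ t = volume {x : ℝ | 0 < x ∧ t < ψ x} := by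
    intro t
    simp only [hΛ, hμ]
    rw [Measure.restrict_apply (measurableSet_lt measurable_const hψm)]
    congr 1
    ext x
    simp [and_comm]
  have hstar' : ∀ t t' : ℝ, 0 ≤ t → t ≤ t' → t' < 1 →
      ENNReal.ofReal (1 - t') * Λ t ≤ ENNReal.ofReal (1 - t) * Λ t' := by
    intro t t' h0 h1 h2
    rw [hΛeq, hΛeq]
    exact hstar t t' h0 h1 h2
  have hL1 := lintegral_sq_layer μ hψm hψ0
  have hL2 := lintegral_sq_layer μ (f := fun x => min s (ψ x)) (measurable_const.min hψm)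
    (fun x => le_min hs0 (hψ0 x))
  set T : ℝ → ENNReal := fun t => Λ t * ENNReal.ofReal (2 * t) with hT
  set X : ENNReal := ∫⁻ t in Ioo 0 s, T t with hX
  set Y : ENNReal := ∫⁻ t in Ico s 1, T t with hY
  -- the left side is at most X
  have hleft : ∫⁻ x, ENNReal.ofReal ((min s (ψ x)) ^ 2) ∂μ ≤ X := by
    rw [hL2]
    have hpt : ∀ t ∈ Ioi (0 : ℝ), μ {a | t < min s (ψ a)} * ENNReal.ofReal (2 * t)
        = (Ioo 0 s).indicator T t := by
      intro t ht
      by_cases hts : t < s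
      · rw [indicator_of_mem (show t ∈ Ioo 0 s from ⟨ht, hts⟩)]
        have : {a | t < min s (ψ a)} = {x | t < ψ x} := by
          ext a
          simp [hts]
        rw [this]
      · rw [indicator_of_notMem (fun h : t ∈ Ioo 0 s => hts h.2)]
        have : {a | t < min s (ψ a)} = ∅ := by
          ext a
          simp only [mem_ofPred_eq, mem_empty_iff_false, iff_false, not_lt]
          exact le_trans (min_le_left _ _) (not_lt.mp hts)
        rw [this]
        simp
    rw [setLIntegral_congr_fun measurableSet_Ioi hpt]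
    calc ∫⁻ t in Ioi 0, (Ioo 0 s).indicator T t
        ≤ ∫⁻ t, (Ioo 0 s).indicator T t := setLIntegral_le_lintegral _ _
      _ = X := lintegral_indicator measurableSet_Ioo T
  -- the total is at least X + Y
  have htotal : X + Y ≤ ∫⁻ x, ENNReal.ofReal ((ψ x) ^ 2) ∂μ := by
    rw [hL1, hX, hY, ← lintegral_union measurableSet_Ico]
    · apply lintegral_mono_set
      intro t ht
      rcases ht with ht | ht
      · exact ht.1
      · exact lt_of_lt_of_le hs0' ht.1
    · rw [Set.disjoint_left]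
      intro t ht1 ht2
      exact absurd ht1.2 (not_lt.mpr ht2.1)
  -- the two comparison bounds
  set κ : ENNReal := Λ s with hκ
  have hc0 : ENNReal.ofReal (1 - s) ≠ 0 := by
    simp only [ne_eq, ENNReal.ofReal_eq_zero, not_le]
    linarith
  have hct : ENNReal.ofReal (1 - s) ≠ ⊤ := ENNReal.ofReal_ne_top
  have hXb : ENNReal.ofReal (1 - s) * X ≤ κ * ENNReal.ofReal (s ^ 2 - 2 / 3 * s ^ 3) := by
    have e := lintegral_one_sub_mul (a := 0) (b := s) le_rfl hs0 hs1
    have e' : ENNReal.ofReal (s ^ 2 - 2 / 3 * s ^ 3)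
        = ∫⁻ t in Ioo 0 s, ENNReal.ofReal ((1 - t) * (2 * t)) := by
      rw [e]; congr 1; ring
    rw [e', hX, ← lintegral_const_mul' _ _ hct, ← lintegral_const_mul'' _ (by fun_prop)]
    apply setLIntegral_mono' measurableSet_Ioo
    intro t ht
    have h1 := hstar' t s ht.1.le ht.2.le hs1'
    have h2t : 0 ≤ 2 * t := by linarith [ht.1]
    have h1t : 0 ≤ 1 - t := by linarith [ht.2]
    calc ENNReal.ofReal (1 - s) * T t
        = (ENNReal.ofReal (1 - s) * Λ t) * ENNReal.ofReal (2 * t) := by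
          simp only [hT]; ring
      _ ≤ (ENNReal.ofReal (1 - t) * Λ s) * ENNReal.ofReal (2 * t) := by gcongr
      _ = κ * ENNReal.ofReal ((1 - t) * (2 * t)) := by
          rw [ENNReal.ofReal_mul h1t]; ring
  have hYb : κ * ENNReal.ofReal (1 / 3 - s ^ 2 + 2 / 3 * s ^ 3) ≤ ENNReal.ofReal (1 - s) * Y := by
    have e := lintegral_one_sub_mul (a := s) (b := 1) hs0 hs1 le_rfl
    have e' : ENNReal.ofReal (1 / 3 - s ^ 2 + 2 / 3 * s ^ 3)
        = ∫⁻ t in Ioo s 1, ENNReal.ofReal ((1 - t) * (2 * t)) := by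
      rw [e]; congr 1; ring
    have hYge : ∫⁻ t in Ioo s 1, T t ≤ Y := lintegral_mono_set Ioo_subset_Ico_self
    refine le_trans ?_ (mul_le_mul_right hYge _)
    rw [e', ← lintegral_const_mul' _ _ hct, ← lintegral_const_mul'' _ (by fun_prop)]
    apply setLIntegral_mono' measurableSet_Ioo
    intro t ht
    have h1 := hstar' s t hs0 ht.1.le ht.2
    have h2t : 0 ≤ 2 * t := by linarith [ht.1]
    have h1t : 0 ≤ 1 - t := by linarith [ht.2]
    calc κ * ENNReal.ofReal ((1 - t) * (2 * t))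
        = (ENNReal.ofReal (1 - t) * Λ s) * ENNReal.ofReal (2 * t) := by
          rw [ENNReal.ofReal_mul h1t]; ring
      _ ≤ (ENNReal.ofReal (1 - s) * Λ t) * ENNReal.ofReal (2 * t) := by gcongr
      _ = ENNReal.ofReal (1 - s) * T t := by simp only [hT]; ring
  -- combine
  set h : ℝ := 3 * s ^ 2 - 2 * s ^ 3 with hh
  have hh0 : 0 ≤ h := by
    have : h = s ^ 2 * (3 - 2 * s) := by rw [hh]; ring
    rw [this]
    have : 0 ≤ 3 - 2 * s := by linarith
    positivity
  have hh1 : h ≤ 1 := by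
    have : 1 - h = (1 - s) ^ 2 * (1 + 2 * s) := by rw [hh]; ring
    have h2 : 0 ≤ (1 - s) ^ 2 * (1 + 2 * s) := by positivity
    linarith
  have hsum : ENNReal.ofReal h + ENNReal.ofReal (1 - h) = 1 := by
    rw [← ENNReal.ofReal_add hh0 (by linarith)]
    simp
  have key : ENNReal.ofReal (1 - h) * X ≤ ENNReal.ofReal h * Y := by
    have e1 : ENNReal.ofReal (1 - h) * (ENNReal.ofReal (1 - s) * X)
        ≤ ENNReal.ofReal h * (ENNReal.ofReal (1 - s) * Y) := by
      calc ENNReal.ofReal (1 - h) * (ENNReal.ofReal (1 - s) * X)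
          ≤ ENNReal.ofReal (1 - h) * (κ * ENNReal.ofReal (s ^ 2 - 2 / 3 * s ^ 3)) := by gcongr
        _ = ENNReal.ofReal h * (κ * ENNReal.ofReal (1 / 3 - s ^ 2 + 2 / 3 * s ^ 3)) := by
          have ea : s ^ 2 - 2 / 3 * s ^ 3 = h / 3 := by rw [hh]; ring
          have eb : 1 / 3 - s ^ 2 + 2 / 3 * s ^ 3 = (1 - h) / 3 := by rw [hh]; ring
          rw [ea, eb]
          have e3 : ENNReal.ofReal (1 - h) * ENNReal.ofReal (h / 3)
              = ENNReal.ofReal h * ENNReal.ofReal ((1 - h) / 3) := by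
            rw [← ENNReal.ofReal_mul (by linarith), ← ENNReal.ofReal_mul hh0]
            congr 1; ring
          calc ENNReal.ofReal (1 - h) * (κ * ENNReal.ofReal (h / 3))
              = κ * (ENNReal.ofReal (1 - h) * ENNReal.ofReal (h / 3)) := by ring
            _ = κ * (ENNReal.ofReal h * ENNReal.ofReal ((1 - h) / 3)) := by rw [e3]
            _ = ENNReal.ofReal h * (κ * ENNReal.ofReal ((1 - h) / 3)) := by ring
        _ ≤ ENNReal.ofReal h * (ENNReal.ofReal (1 - s) * Y) := by gcongr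
    have e2 : ENNReal.ofReal (1 - s) * (ENNReal.ofReal (1 - h) * X)
        ≤ ENNReal.ofReal (1 - s) * (ENNReal.ofReal h * Y) := by
      calc ENNReal.ofReal (1 - s) * (ENNReal.ofReal (1 - h) * X)
          = ENNReal.ofReal (1 - h) * (ENNReal.ofReal (1 - s) * X) := by ring
        _ ≤ ENNReal.ofReal h * (ENNReal.ofReal (1 - s) * Y) := e1
        _ = ENNReal.ofReal (1 - s) * (ENNReal.ofReal h * Y) := by ring
    exact (ENNReal.mul_le_mul_iff_right hc0 hct).mp e2
  calc ∫⁻ x in Set.Ioi 0, ENNReal.ofReal ((min s (ψ x)) ^ 2)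
      ≤ X := hleft
    _ = (ENNReal.ofReal h + ENNReal.ofReal (1 - h)) * X := by rw [hsum, one_mul]
    _ = ENNReal.ofReal h * X + ENNReal.ofReal (1 - h) * X := by ring
    _ ≤ ENNReal.ofReal h * X + ENNReal.ofReal h * Y := by gcongr
    _ = ENNReal.ofReal h * (X + Y) := by ring
    _ ≤ ENNReal.ofReal h * ∫⁻ x in Set.Ioi 0, ENNReal.ofReal ((ψ x) ^ 2) := by gcongr

end Vale.Agent.Lib.Helper9.P243
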