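import Mathlib
import Vale.Agent.Lib.Helper9.P243.Final

-- P243 part E4, written by helper4 (copied from their library folder so that the P243 hand-in
-- depends on a single folder).

namespace Vale.Agent.Lib.Helper9.P243

open MeasureTheory

theorem real_bound (m : ℕ) (β : Fin m → ℝ) (h0 : ∀ i, 0 ≤ β i)
    (h : 1 ≤ ∑ i, β i * (3 - 2 * Real.sqrt (β i))) :
    1 / 3 + 2 / (9 * Real.sqrt (3 * m)) ≤ ∑ i, β i := by
  have hs0 : ∀ i, 0 ≤ Real.sqrt (β i) := fun i => Real.sqrt_nonneg _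
  have hsq : ∀ i, Real.sqrt (β i) ^ 2 = β i := fun i => Real.sq_sqrt (h0 i)
  set R : ℝ := ∑ i, β i with hR
  set P : ℝ := ∑ i, Real.sqrt (β i) with hP
  set Q : ℝ := ∑ i, β i * Real.sqrt (β i) with hQ
  have hexp : ∑ i, β i * (3 - 2 * Real.sqrt (β i)) = 3 * R - 2 * Q := by
    rw [hR, hQ, Finset.mul_sum, Finset.mul_sum, ← Finset.sum_sub_distrib]
    apply Finset.sum_congr rfl
    intro i _
    ring
  rw [hexp] at h
  have hQ0 : 0 ≤ Q := Finset.sum_nonneg (fun i _ => mul_nonneg (h0 i) (hs0 i))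
  have hP0 : 0 ≤ P := Finset.sum_nonneg (fun i _ => hs0 i)
  have hR3 : 1 / 3 ≤ R := by linarith
  have hm : 1 ≤ m := by
    rcases Nat.eq_zero_or_pos m with h' | h'
    · subst h'
      simp at hR
      linarith
    · exact h'
  have CS1 : R ^ 2 ≤ P * Q := by
    have := Finset.sum_mul_sq_le_sq_mul_sq (Finset.univ : Finset (Fin m))
      (fun i => Real.sqrt (Real.sqrt (β i))) (fun i => Real.sqrt (β i) * Real.sqrt (Real.sqrt (β i)))
    have e1 : ∑ i, Real.sqrt (Real.sqrt (β i)) * (Real.sqrt (β i) * Real.sqrt (Real.sqrt (β i))) = R := by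
      apply Finset.sum_congr rfl
      intro i _
      have := Real.sq_sqrt (hs0 i)
      have h2 := hsq i
      nlinarith
    have e2 : ∑ i, Real.sqrt (Real.sqrt (β i)) ^ 2 = P := by
      apply Finset.sum_congr rfl
      intro i _
      exact Real.sq_sqrt (hs0 i)
    have e3 : ∑ i, (Real.sqrt (β i) * Real.sqrt (Real.sqrt (β i))) ^ 2 = Q := by
      apply Finset.sum_congr rfl
      intro i _
      have := Real.sq_sqrt (hs0 i)
      have h2 := hsq i
      rw [mul_pow, this, h2]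
    rw [e1, e2, e3] at this
    exact this
  have CS2 : P ^ 2 ≤ m * R := by
    have := sq_sum_le_card_mul_sum_sq (s := (Finset.univ : Finset (Fin m)))
      (f := fun i => Real.sqrt (β i))
    simp only [Finset.card_univ, Fintype.card_fin] at this
    have e : ∑ i, Real.sqrt (β i) ^ 2 = R := by
      apply Finset.sum_congr rfl
      intro i _
      exact hsq i
    rw [e] at this
    exact this
  have hmpos : (0 : ℝ) < m := by exact_mod_cast hm
  set M : ℝ := Real.sqrt m with hM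
  have hMpos : 0 < M := Real.sqrt_pos.mpr hmpos
  have hMsq : M ^ 2 = m := Real.sq_sqrt hmpos.le
  have hRpos : 0 < R := by linarith
  set r : ℝ := Real.sqrt R with hr
  have hrpos : 0 < r := Real.sqrt_pos.mpr hRpos
  have hrsq : r ^ 2 = R := Real.sq_sqrt hRpos.le
  set t : ℝ := Real.sqrt 3 with ht
  have htpos : 0 < t := Real.sqrt_pos.mpr (by norm_num)
  have htsq : t ^ 2 = 3 := Real.sq_sqrt (by norm_num)
  have hPle : P ≤ M * r := by
    have h1 : P ^ 2 ≤ (M * r) ^ 2 := by rw [mul_pow, hMsq, hrsq]; exact CS2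
    exact (sq_le_sq₀ hP0 (by positivity)).mp h1
  have h3 : r ^ 3 ≤ M * Q := by
    have h4 : r ^ 4 ≤ M * r * Q := by
      calc r ^ 4 = R ^ 2 := by rw [← hrsq]; ring
        _ ≤ P * Q := CS1
        _ ≤ M * r * Q := mul_le_mul_of_nonneg_right hPle hQ0
    have h5 : r * r ^ 3 ≤ r * (M * Q) := by nlinarith
    exact le_of_mul_le_mul_left h5 hrpos
  have hrt : 1 ≤ r * t := by
    have h1 : (1 : ℝ) ^ 2 ≤ (r * t) ^ 2 := by rw [mul_pow, hrsq, htsq]; linarith
    exact (sq_le_sq₀ (by norm_num) (by positivity)).mp h1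
  have h6 : 1 ≤ 3 * t * r ^ 3 := by
    have h7 : (1 : ℝ) ^ 3 ≤ (r * t) ^ 3 := pow_le_pow_left₀ (by norm_num) hrt 3
    have h8 : (r * t) ^ 3 = 3 * t * r ^ 3 := by
      have : t ^ 3 = 3 * t := by rw [pow_succ, htsq]
      rw [mul_pow, this]; ring
    rw [h8] at h7
    simpa using h7
  have hsqrt : Real.sqrt (3 * m) = t * M := by
    rw [Real.sqrt_mul (by norm_num)]
  rw [hsqrt]
  have h9 : 2 / (9 * (t * M)) ≤ R - 1 / 3 := by
    rw [div_le_iff₀ (by positivity)]
    have h10 : 1 ≤ 3 * t * (M * Q) := le_trans h6 (by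
      apply mul_le_mul_of_nonneg_left h3 (by positivity))
    nlinarith [mul_pos htpos hMpos]
  linarith

theorem cyl_bound
    (rvi : ∀ (K : Set ((ℝ × ℝ) × ℝ)), Convex ℝ K → IsCompact K → volume (Prod.fst '' K) ≠ 0 →
        ∀ (B : Set (ℝ × ℝ)), B ⊆ Prod.fst '' K →
        volume (K ∩ Prod.fst ⁻¹' B)
          ≤ ENNReal.ofReal ((volume B / volume (Prod.fst '' K)).toReal
              * (3 - 2 * Real.sqrt ((volume B / volume (Prod.fst '' K)).toReal))) * volume K)
    (K : Set (EuclideanSpace ℝ (Fin 3))) (hKconv : Convex ℝ K) (hKcomp : IsCompact K)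
    (hKint : (interior K).Nonempty)
    (u : EuclideanSpace ℝ (Fin 3)) (hu : ‖u‖ = 1)
    (B : Set (EuclideanSpace ℝ (Fin 3)))
    (hB : ∀ b ∈ B, inner ℝ b u = 0) :
    μHE[2] ((fun x : EuclideanSpace ℝ (Fin 3) => x - (inner ℝ u x : ℝ) • u) '' K) ≠ 0 ∧
    μHE[2] ((fun x : EuclideanSpace ℝ (Fin 3) => x - (inner ℝ u x : ℝ) • u) '' K) ≠ ⊤ ∧
    volume {x : EuclideanSpace ℝ (Fin 3) | x ∈ K ∧ ∃ b ∈ B, ∃ t : ℝ, x = b + t • u}
      ≤ ENNReal.ofReal
        ((μHE[2] (B ∩ (fun x : EuclideanSpace ℝ (Fin 3) => x - (inner ℝ u x : ℝ) • u) '' K) /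
          μHE[2] ((fun x : EuclideanSpace ℝ (Fin 3) => x - (inner ℝ u x : ℝ) • u) '' K)).toReal
        * (3 - 2 * Real.sqrt
          (μHE[2] (B ∩ (fun x : EuclideanSpace ℝ (Fin 3) => x - (inner ℝ u x : ℝ) • u) '' K) /
          μHE[2] ((fun x : EuclideanSpace ℝ (Fin 3) => x - (inner ℝ u x : ℝ) • u) '' K)).toReal))
        * volume K := by
  obtain ⟨w, hw, hwu, -⟩ := exists_unit_orthogonal u u
  obtain ⟨e, he, heu, hew⟩ := exists_unit_orthogonal u w
  have hwe : inner ℝ w e = 0 := by rw [real_inner_comm]; exact hew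
  set φ : EuclideanSpace ℝ (Fin 3) → ℝ × ℝ :=
    fun x => ((inner ℝ w x : ℝ), (inner ℝ e x : ℝ)) with hφ
  set π : EuclideanSpace ℝ (Fin 3) → EuclideanSpace ℝ (Fin 3) :=
    fun x => x - (inner ℝ u x : ℝ) • u with hπ
  -- the frame map
  set Ψl : EuclideanSpace ℝ (Fin 3) →ₗ[ℝ] (ℝ × ℝ) × ℝ :=
    ((coordMap w e).prod (innerSL ℝ u)).toLinearMap with hΨl
  have hΨl_apply : ∀ x, Ψl x = (φ x, (inner ℝ u x : ℝ)) := fun x => rfl
  have hinj : Function.Injective Ψl := by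
    rw [← LinearMap.ker_eq_bot, LinearMap.ker_eq_bot']
    intro x hx
    rw [hΨl_apply] at hx
    have h1 : inner ℝ w x = (0 : ℝ) := congrArg (fun p : (ℝ × ℝ) × ℝ => p.1.1) hx
    have h2 : inner ℝ e x = (0 : ℝ) := congrArg (fun p : (ℝ × ℝ) × ℝ => p.1.2) hx
    have h3 : inner ℝ u x = (0 : ℝ) := congrArg (fun p : (ℝ × ℝ) × ℝ => p.2) hx
    have := expand_orthonormal hw he hu hwe hwu heu x
    rw [h1, h2, h3] at this
    simpa using this
  have hdim : Module.finrank ℝ (EuclideanSpace ℝ (Fin 3)) = Module.finrank ℝ ((ℝ × ℝ) × ℝ) := by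
    simp
  set Ψ : EuclideanSpace ℝ (Fin 3) ≃L[ℝ] (ℝ × ℝ) × ℝ :=
    (LinearMap.linearEquivOfInjective Ψl hinj hdim).toContinuousLinearEquiv with hΨ
  have hΨ_apply : ∀ x, Ψ x = (φ x, (inner ℝ u x : ℝ)) := fun x => rfl
  -- Haar measure comparison
  set ν : Measure ((ℝ × ℝ) × ℝ) := Measure.map Ψ volume with hν
  have hνH : ν.IsAddHaarMeasure := Ψ.isAddHaarMeasure_map volume
  have hRR : (volume : Measure (ℝ × ℝ)).IsAddHaarMeasure :=
    inferInstanceAs ((volume : Measure ℝ).prod (volume : Measure ℝ)).IsAddHaarMeasure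
  have hRRR : (volume : Measure ((ℝ × ℝ) × ℝ)).IsAddHaarMeasure :=
    inferInstanceAs ((volume : Measure (ℝ × ℝ)).prod (volume : Measure ℝ)).IsAddHaarMeasure
  set c : NNReal := Measure.addHaarScalarFactor ν volume with hc
  have hνc : ν = c • (volume : Measure ((ℝ × ℝ) × ℝ)) :=
    Measure.isAddLeftInvariant_eq_smul ν volume
  have hvol : ∀ A : Set (EuclideanSpace ℝ (Fin 3)), volume A = c * volume (Ψ '' A) := by
    intro A
    have h1 : ν (Ψ '' A) = volume A := by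
      have := MeasurableEquiv.map_apply (μ := (volume : Measure (EuclideanSpace ℝ (Fin 3))))
        Ψ.toHomeomorph.toMeasurableEquiv (Ψ '' A)
      have h2 : Ψ.toHomeomorph.toMeasurableEquiv ⁻¹' (Ψ '' A) = A :=
        Set.preimage_image_eq A Ψ.injective
      rw [h2] at this
      exact this
    rw [← h1, hνc]
    rfl
  -- the transferred body
  set K' : Set ((ℝ × ℝ) × ℝ) := Ψ '' K with hK'
  have hK'conv : Convex ℝ K' := hKconv.is_linear_image Ψ.isLinear
  have hK'comp : IsCompact K' := hKcomp.image Ψ.continuous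
  have hfst : Prod.fst '' K' = φ '' K := by
    rw [hK', Set.image_image]
    rfl
  have hA : μHE[2] (π '' K) = volume (φ '' K) := proj_area_eq hw he hu hwe hwu heu K
  have hD0 : volume (φ '' K) ≠ 0 := volume_coordMap_image_pos hw he hwe K hKint
  have hDtop : volume (φ '' K) ≠ ⊤ := volume_coordMap_image_lt_top w e K hKcomp
  set S : Set (EuclideanSpace ℝ (Fin 3)) := B ∩ π '' K with hS
  set B' : Set (ℝ × ℝ) := φ '' S with hB'
  have hSvol : μHE[2] S = volume B' :=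
    plane_area_eq hw he hu hwe hwu heu S (fun x hx => hB x hx.1)
  have hφπ : ∀ x, φ (π x) = φ x := by
    intro x
    simp [hφ, hπ, inner_sub_right, inner_smul_right, hwu, heu]
  have hB'sub : B' ⊆ Prod.fst '' K' := by
    rw [hfst]
    rintro _ ⟨x, ⟨-, y, hy, rfl⟩, rfl⟩
    exact ⟨y, hy, (hφπ y).symm⟩
  have hrvi := rvi K' hK'conv hK'comp (by rw [hfst]; exact hD0) B' hB'sub
  rw [hfst, ← hSvol, ← hA] at hrvi
  refine ⟨by rw [hA]; exact hD0, by rw [hA]; exact hDtop, ?_⟩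
  set A : Set (EuclideanSpace ℝ (Fin 3)) := {x | x ∈ K ∧ ∃ b ∈ B, ∃ t : ℝ, x = b + t • u} with hAdef
  have hAsub : Ψ '' A ⊆ K' ∩ Prod.fst ⁻¹' B' := by
    rintro _ ⟨x, ⟨hxK, b, hb, t, hxb⟩, rfl⟩
    refine ⟨⟨x, hxK, rfl⟩, ?_⟩
    have hπx : π x = b := by
      have hub : inner ℝ u b = (0 : ℝ) := by rw [real_inner_comm]; exact hB b hb
      simp only [hπ, hxb, inner_add_right, inner_smul_right, hub, real_inner_self_eq_norm_sq, hu]
      simp
    have hbS : b ∈ S := ⟨hb, x, hxK, hπx⟩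
    show φ x ∈ B'
    exact ⟨b, hbS, by rw [← hπx, hφπ]⟩
  calc volume A = c * volume (Ψ '' A) := hvol A
    _ ≤ c * volume (K' ∩ Prod.fst ⁻¹' B') := mul_le_mul_right (measure_mono hAsub) _
    _ ≤ c * (ENNReal.ofReal ((μHE[2] S / μHE[2] (π '' K)).toReal
          * (3 - 2 * Real.sqrt ((μHE[2] S / μHE[2] (π '' K)).toReal))) * volume K') :=
        mul_le_mul_right hrvi _
    _ = ENNReal.ofReal ((μHE[2] S / μHE[2] (π '' K)).toReal
          * (3 - 2 * Real.sqrt ((μHE[2] S / μHE[2] (π '' K)).toReal))) * (c * volume K') := by ring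
    _ = ENNReal.ofReal ((μHE[2] S / μHE[2] (π '' K)).toReal
          * (3 - 2 * Real.sqrt ((μHE[2] S / μHE[2] (π '' K)).toReal))) * volume K := by
        rw [← hvol K]

theorem refined_of
    (rvi : ∀ (K : Set ((ℝ × ℝ) × ℝ)), Convex ℝ K → IsCompact K → volume (Prod.fst '' K) ≠ 0 →
        ∀ (B : Set (ℝ × ℝ)), B ⊆ Prod.fst '' K →
        volume (K ∩ Prod.fst ⁻¹' B)
          ≤ ENNReal.ofReal ((volume B / volume (Prod.fst '' K)).toReal
              * (3 - 2 * Real.sqrt ((volume B / volume (Prod.fst '' K)).toReal))) * volume K)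
    (K : Set (EuclideanSpace ℝ (Fin 3))) (hKconv : Convex ℝ K) (hKcomp : IsCompact K)
    (hKint : (interior K).Nonempty)
    (m : ℕ) (d : Fin m → EuclideanSpace ℝ (Fin 3)) (hd : ∀ i, ‖d i‖ = 1)
    (B : Fin m → Set (EuclideanSpace ℝ (Fin 3)))
    (hB : ∀ i, ∀ b ∈ B i, inner ℝ b (d i) = 0)
    (hcov : ∀ x ∈ K, ∃ i, ∃ b ∈ B i, ∃ t : ℝ, x = b + t • d i) :
    (1 : ℝ) ≤ ∑ i,
        (μHE[2] (B i ∩ (fun x : EuclideanSpace ℝ (Fin 3) => x - (inner ℝ (d i) x : ℝ) • d i) '' K) /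
          μHE[2] ((fun x : EuclideanSpace ℝ (Fin 3) => x - (inner ℝ (d i) x : ℝ) • d i) '' K)).toReal
        * (3 - 2 * Real.sqrt
          (μHE[2] (B i ∩ (fun x : EuclideanSpace ℝ (Fin 3) => x - (inner ℝ (d i) x : ℝ) • d i) '' K) /
          μHE[2] ((fun x : EuclideanSpace ℝ (Fin 3) => x - (inner ℝ (d i) x : ℝ) • d i) '' K)).toReal)
    ∧ ENNReal.ofReal (1 / 3 + 2 / (9 * Real.sqrt (3 * m)))
        ≤ ∑ i, μHE[2] (B i) /
          μHE[2] ((fun x : EuclideanSpace ℝ (Fin 3) => x - (inner ℝ (d i) x : ℝ) • d i) '' K) := by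
  classical
  set PK : Fin m → Set (EuclideanSpace ℝ (Fin 3)) :=
    fun i => (fun x : EuclideanSpace ℝ (Fin 3) => x - (inner ℝ (d i) x : ℝ) • d i) '' K with hPK
  set ρ : Fin m → ENNReal := fun i => μHE[2] (B i ∩ PK i) / μHE[2] (PK i) with hρ
  set β : Fin m → ℝ := fun i => (ρ i).toReal with hβ
  have hcyl := fun i => cyl_bound rvi K hKconv hKcomp hKint (d i) (hd i) (B i) (hB i)
  have hρle : ∀ i, ρ i ≤ 1 := by
    intro i
    exact ENNReal.div_le_of_le_mul (by
      rw [one_mul]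
      exact measure_mono Set.inter_subset_right)
  have hρtop : ∀ i, ρ i ≠ ⊤ := fun i => ne_top_of_le_ne_top ENNReal.one_ne_top (hρle i)
  have hβ0 : ∀ i, 0 ≤ β i := fun i => ENNReal.toReal_nonneg
  have hβ1 : ∀ i, β i ≤ 1 := by
    intro i
    have := ENNReal.toReal_mono ENNReal.one_ne_top (hρle i)
    simpa using this
  have hh0 : ∀ i, 0 ≤ β i * (3 - 2 * Real.sqrt (β i)) := by
    intro i
    have h1 : Real.sqrt (β i) ≤ 1 := Real.sqrt_le_one.mpr (hβ1 i)
    exact mul_nonneg (hβ0 i) (by linarith)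
  set A : Fin m → Set (EuclideanSpace ℝ (Fin 3)) :=
    fun i => {x | x ∈ K ∧ ∃ b ∈ B i, ∃ t : ℝ, x = b + t • d i} with hA
  have hKsub : K ⊆ ⋃ i, A i := by
    intro x hx
    obtain ⟨i, b, hb, t, hxb⟩ := hcov x hx
    exact Set.mem_iUnion.mpr ⟨i, hx, b, hb, t, hxb⟩
  have hK0 : volume K ≠ 0 := by
    have hpos : 0 < volume (interior K) := isOpen_interior.measure_pos volume hKint
    exact (lt_of_lt_of_le hpos (measure_mono interior_subset)).ne'
  have hKtop : volume K ≠ ⊤ := hKcomp.measure_lt_top.ne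
  have hsum : volume K ≤ ENNReal.ofReal (∑ i, β i * (3 - 2 * Real.sqrt (β i))) * volume K := by
    calc volume K ≤ volume (⋃ i, A i) := measure_mono hKsub
      _ ≤ ∑ i, volume (A i) := measure_iUnion_fintype_le _ _
      _ ≤ ∑ i, ENNReal.ofReal (β i * (3 - 2 * Real.sqrt (β i))) * volume K :=
        Finset.sum_le_sum (fun i _ => (hcyl i).2.2)
      _ = ENNReal.ofReal (∑ i, β i * (3 - 2 * Real.sqrt (β i))) * volume K := by
        rw [ENNReal.ofReal_sum_of_nonneg (fun i _ => hh0 i), Finset.sum_mul]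
  have hone : (1 : ℝ) ≤ ∑ i, β i * (3 - 2 * Real.sqrt (β i)) := by
    by_contra hlt
    push Not at hlt
    have h1 : ENNReal.ofReal (∑ i, β i * (3 - 2 * Real.sqrt (β i))) < 1 := by
      rw [← ENNReal.ofReal_one]
      exact (ENNReal.ofReal_lt_ofReal_iff (by norm_num)).mpr hlt
    have h2 : ENNReal.ofReal (∑ i, β i * (3 - 2 * Real.sqrt (β i))) * volume K < 1 * volume K :=
      (ENNReal.mul_lt_mul_iff_left hK0 hKtop).mpr h1
    rw [one_mul] at h2
    exact absurd hsum (not_le.mpr h2)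
  refine ⟨hone, ?_⟩
  have hR := real_bound m β hβ0 hone
  calc ENNReal.ofReal (1 / 3 + 2 / (9 * Real.sqrt (3 * m)))
      ≤ ENNReal.ofReal (∑ i, β i) := ENNReal.ofReal_le_ofReal hR
    _ = ∑ i, ρ i := by
        rw [ENNReal.ofReal_sum_of_nonneg (fun i _ => hβ0 i)]
        apply Finset.sum_congr rfl
        intro i _
        exact ENNReal.ofReal_toReal (hρtop i)
    _ ≤ ∑ i, μHE[2] (B i) / μHE[2] (PK i) := by
        apply Finset.sum_le_sum
        intro i _
        exact ENNReal.div_le_div_right (measure_mono Set.inter_subset_left) _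

end Vale.Agent.Lib.Helper9.P243
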