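import Mathlib
import Vale.Agent.Lib.Helper9.P243.Refined

-- P243: consequences of the refined volume inequality in terms of the number of distinct
-- axis directions (cylinders with the same direction are merged).

namespace Vale.Agent.Lib.Helper9.P243

open MeasureTheory

theorem tangent_bound {b a : ℝ} (hb : 0 ≤ b) (ha : 0 ≤ a) :
    b * (3 - 2 * Real.sqrt b) ≤ a * (3 - 2 * Real.sqrt a) + (3 - 3 * Real.sqrt a) * (b - a) := by
  obtain ⟨s, hs, rfl⟩ : ∃ s : ℝ, 0 ≤ s ∧ s ^ 2 = b :=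
    ⟨Real.sqrt b, Real.sqrt_nonneg b, Real.sq_sqrt hb⟩
  obtain ⟨t, ht, rfl⟩ : ∃ t : ℝ, 0 ≤ t ∧ t ^ 2 = a :=
    ⟨Real.sqrt a, Real.sqrt_nonneg a, Real.sq_sqrt ha⟩
  rw [Real.sqrt_sq hs, Real.sqrt_sq ht]
  nlinarith [mul_nonneg (sq_nonneg (s - t)) (by positivity : (0 : ℝ) ≤ 2 * s + t)]

theorem one_le_of_full {b : ℝ} (hb0 : 0 ≤ b) (hb1 : b ≤ 1)
    (h : 1 ≤ b * (3 - 2 * Real.sqrt b)) : 1 ≤ b := by
  obtain ⟨s, hs, rfl⟩ : ∃ s : ℝ, 0 ≤ s ∧ s ^ 2 = b :=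
    ⟨Real.sqrt b, Real.sqrt_nonneg b, Real.sq_sqrt hb0⟩
  rw [Real.sqrt_sq hs] at h
  by_contra hlt
  push Not at hlt
  have hs1 : s < 1 := by nlinarith
  have hpos : 0 < (1 - s) ^ 2 * (2 * s + 1) :=
    mul_pos (pow_pos (sub_pos.mpr hs1) 2) (by linarith)
  nlinarith

theorem sharp_bound (k : ℕ) (β : Fin k → ℝ) (h0 : ∀ i, 0 ≤ β i) (h1 : ∀ i, β i ≤ 1)
    (h : 1 ≤ ∑ i, β i * (3 - 2 * Real.sqrt (β i)))
    (a : ℝ) (ha0 : 0 ≤ a) (ha1 : a ≤ 1) (hk : (k : ℝ) * (a * (3 - 2 * Real.sqrt a)) ≤ 1) :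
    (k : ℝ) * a ≤ ∑ i, β i := by
  have hsum : ∑ i, β i * (3 - 2 * Real.sqrt (β i))
      ≤ ∑ i, (a * (3 - 2 * Real.sqrt a) + (3 - 3 * Real.sqrt a) * (β i - a)) :=
    Finset.sum_le_sum (fun i _ => tangent_bound (h0 i) ha0)
  have hexp : ∑ i : Fin k, (a * (3 - 2 * Real.sqrt a) + (3 - 3 * Real.sqrt a) * (β i - a))
      = k * (a * (3 - 2 * Real.sqrt a)) + (3 - 3 * Real.sqrt a) * (∑ i, β i - k * a) := by
    rw [Finset.sum_add_distrib, Finset.sum_const, Finset.card_univ, Fintype.card_fin,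
      nsmul_eq_mul, ← Finset.mul_sum, Finset.sum_sub_distrib, Finset.sum_const, Finset.card_univ,
      Fintype.card_fin, nsmul_eq_mul]
  have hta : Real.sqrt a ≤ 1 := Real.sqrt_le_one.mpr ha1
  rcases eq_or_lt_of_le hta with h1' | h1'
  · have ha : a = 1 := by
      have h2 := Real.sq_sqrt ha0
      rw [h1'] at h2
      linarith
    subst ha
    rw [h1'] at hk
    have hk1 : k ≤ 1 := by
      have : (k : ℝ) ≤ 1 := by linarith
      exact_mod_cast this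
    rcases Nat.le_one_iff_eq_zero_or_eq_one.mp hk1 with rfl | rfl
    · simp
    · simp only [Fin.sum_univ_one] at h ⊢
      simpa using one_le_of_full (h0 0) (h1 0) h
  · have h3 : 0 ≤ (3 - 3 * Real.sqrt a) * (∑ i, β i - k * a) := by linarith
    have hpos : 0 < 3 - 3 * Real.sqrt a := by linarith
    have h4 := nonneg_of_mul_nonneg_right h3 hpos
    linarith

theorem merged_of
    (rvi : ∀ (K : Set ((ℝ × ℝ) × ℝ)), Convex ℝ K → IsCompact K → volume (Prod.fst '' K) ≠ 0 →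
        ∀ (B : Set (ℝ × ℝ)), B ⊆ Prod.fst '' K →
        volume (K ∩ Prod.fst ⁻¹' B)
          ≤ ENNReal.ofReal ((volume B / volume (Prod.fst '' K)).toReal
              * (3 - 2 * Real.sqrt ((volume B / volume (Prod.fst '' K)).toReal))) * volume K)
    (K : Set (EuclideanSpace ℝ (Fin 3))) (hKconv : Convex ℝ K) (hKcomp : IsCompact K)
    (hKint : (interior K).Nonempty)
    (m : ℕ) (d : Fin m → EuclideanSpace ℝ (Fin 3)) (hd : ∀ i, ‖d i‖ = 1)
    (B : Fin m → Set (EuclideanSpace ℝ (Fin 3)))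
    (hB : ∀ i, ∀ b ∈ B i, inner ℝ b (d i) = 0)
    (hcov : ∀ x ∈ K, ∃ i, ∃ b ∈ B i, ∃ t : ℝ, x = b + t • d i) :
    (∀ a : ℝ, 0 ≤ a → a ≤ 1 →
        ((Set.range d).ncard : ℝ) * (a * (3 - 2 * Real.sqrt a)) ≤ 1 →
        ENNReal.ofReal ((Set.range d).ncard * a) ≤ ∑ i, μHE[2] (B i) /
          μHE[2] ((fun x : EuclideanSpace ℝ (Fin 3) => x - (inner ℝ (d i) x : ℝ) • d i) '' K))
    ∧ ENNReal.ofReal (1 / 3 + 2 / (9 * Real.sqrt (3 * (Set.range d).ncard)))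
        ≤ ∑ i, μHE[2] (B i) /
          μHE[2] ((fun x : EuclideanSpace ℝ (Fin 3) => x - (inner ℝ (d i) x : ℝ) • d i) '' K) := by
  classical
  set PK : EuclideanSpace ℝ (Fin 3) → Set (EuclideanSpace ℝ (Fin 3)) :=
    fun u => (fun x : EuclideanSpace ℝ (Fin 3) => x - (inner ℝ u x : ℝ) • u) '' K with hPK
  set g : Fin m → ENNReal := fun i => μHE[2] (B i) / μHE[2] (PK (d i)) with hg
  show (∀ a : ℝ, 0 ≤ a → a ≤ 1 →
        ((Set.range d).ncard : ℝ) * (a * (3 - 2 * Real.sqrt a)) ≤ 1 →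
        ENNReal.ofReal ((Set.range d).ncard * a) ≤ ∑ i, g i)
    ∧ ENNReal.ofReal (1 / 3 + 2 / (9 * Real.sqrt (3 * (Set.range d).ncard))) ≤ ∑ i, g i
  set U : Finset (EuclideanSpace ℝ (Fin 3)) := Finset.univ.image d with hU
  have hUcard : (Set.range d).ncard = U.card := by
    rw [← Set.ncard_coe_finset U, hU, Finset.coe_image, Finset.coe_univ, Set.image_univ]
  rw [hUcard]
  set k : ℕ := U.card with hk
  set e : Fin k ≃ U := U.equivFin.symm with he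
  set d' : Fin k → EuclideanSpace ℝ (Fin 3) :=
    fun j => (e j : EuclideanSpace ℝ (Fin 3)) with hd'
  set B' : Fin k → Set (EuclideanSpace ℝ (Fin 3)) :=
    fun j => ⋃ i ∈ Finset.univ.filter (fun i : Fin m => d i = d' j), B i with hB'
  have hmem : ∀ j, ∃ i, d i = d' j := by
    intro j
    have h1 : (e j : EuclideanSpace ℝ (Fin 3)) ∈ Finset.univ.image d := (e j).2
    obtain ⟨i, -, hi⟩ := Finset.mem_image.mp h1
    exact ⟨i, hi⟩
  have hd1 : ∀ j, ‖d' j‖ = 1 := by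
    intro j
    obtain ⟨i, hi⟩ := hmem j
    rw [← hi]
    exact hd i
  have hB1 : ∀ j, ∀ b ∈ B' j, inner ℝ b (d' j) = 0 := by
    intro j b hb
    obtain ⟨i, hi, hbi⟩ := Set.mem_iUnion₂.mp hb
    rw [← (Finset.mem_filter.mp hi).2]
    exact hB i b hbi
  have hcov1 : ∀ x ∈ K, ∃ j, ∃ b ∈ B' j, ∃ t : ℝ, x = b + t • d' j := by
    intro x hx
    obtain ⟨i, b, hb, t, hxb⟩ := hcov x hx
    have hiU : d i ∈ U := Finset.mem_image_of_mem d (Finset.mem_univ i)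
    have hdi : d' (e.symm ⟨d i, hiU⟩) = d i := by
      simp only [hd', Equiv.apply_symm_apply]
    refine ⟨e.symm ⟨d i, hiU⟩, b, ?_, t, ?_⟩
    · exact Set.mem_iUnion₂.mpr ⟨i, Finset.mem_filter.mpr ⟨Finset.mem_univ i, hdi.symm⟩, hb⟩
    · rw [hdi]
      exact hxb
  obtain ⟨hone, hexpl⟩ := refined_of rvi K hKconv hKcomp hKint k d' hd1 B' hB1 hcov1
  have hsumle : ∑ j, μHE[2] (B' j) / μHE[2] (PK (d' j)) ≤ ∑ i, g i := by
    have h1 : ∀ j, μHE[2] (B' j) / μHE[2] (PK (d' j))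
        ≤ ∑ i ∈ Finset.univ.filter (fun i : Fin m => d i = d' j), g i := by
      intro j
      calc μHE[2] (B' j) / μHE[2] (PK (d' j))
          ≤ (∑ i ∈ Finset.univ.filter (fun i : Fin m => d i = d' j), μHE[2] (B i))
              / μHE[2] (PK (d' j)) :=
            ENNReal.div_le_div_right (measure_biUnion_finset_le _ _) _
        _ = ∑ i ∈ Finset.univ.filter (fun i : Fin m => d i = d' j), g i := by
            rw [ENNReal.div_eq_inv_mul, Finset.mul_sum]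
            apply Finset.sum_congr rfl
            intro i hi
            rw [hg]
            simp only
            rw [(Finset.mem_filter.mp hi).2, ENNReal.div_eq_inv_mul]
    calc ∑ j, μHE[2] (B' j) / μHE[2] (PK (d' j))
        ≤ ∑ j, ∑ i ∈ Finset.univ.filter (fun i : Fin m => d i = d' j), g i :=
          Finset.sum_le_sum (fun j _ => h1 j)
      _ = ∑ u : U, ∑ i ∈ Finset.univ.filter
            (fun i : Fin m => d i = (u : EuclideanSpace ℝ (Fin 3))), g i :=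
          Equiv.sum_comp e (fun u : U => ∑ i ∈ Finset.univ.filter
            (fun i : Fin m => d i = (u : EuclideanSpace ℝ (Fin 3))), g i)
      _ = ∑ u ∈ U, ∑ i ∈ Finset.univ.filter (fun i : Fin m => d i = u), g i :=
          Finset.sum_coe_sort U
            (fun u => ∑ i ∈ Finset.univ.filter (fun i : Fin m => d i = u), g i)
      _ = ∑ i, g i :=
          Finset.sum_fiberwise_of_maps_to
            (fun i _ => Finset.mem_image_of_mem d (Finset.mem_univ i)) g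
  refine ⟨?_, le_trans hexpl hsumle⟩
  intro a ha0 ha1 hka
  set ρ : Fin k → ENNReal :=
    fun j => μHE[2] (B' j ∩ PK (d' j)) / μHE[2] (PK (d' j)) with hρ
  have hρle : ∀ j, ρ j ≤ 1 := by
    intro j
    exact ENNReal.div_le_of_le_mul (by
      rw [one_mul]
      exact measure_mono Set.inter_subset_right)
  have hρtop : ∀ j, ρ j ≠ ⊤ := fun j => ne_top_of_le_ne_top ENNReal.one_ne_top (hρle j)
  have hβ0 : ∀ j, 0 ≤ (ρ j).toReal := fun j => ENNReal.toReal_nonneg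
  have hβ1 : ∀ j, (ρ j).toReal ≤ 1 := by
    intro j
    have := ENNReal.toReal_mono ENNReal.one_ne_top (hρle j)
    simpa using this
  have hsb := sharp_bound k (fun j => (ρ j).toReal) hβ0 hβ1 hone a ha0 ha1 hka
  calc ENNReal.ofReal (k * a) ≤ ENNReal.ofReal (∑ j, (ρ j).toReal) :=
        ENNReal.ofReal_le_ofReal hsb
    _ = ∑ j, ρ j := by
        rw [ENNReal.ofReal_sum_of_nonneg (fun j _ => hβ0 j)]
        apply Finset.sum_congr rfl
        intro j _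
        exact ENNReal.ofReal_toReal (hρtop j)
    _ ≤ ∑ j, μHE[2] (B' j) / μHE[2] (PK (d' j)) := by
        apply Finset.sum_le_sum
        intro j _
        exact ENNReal.div_le_div_right (measure_mono Set.inter_subset_left) _
    _ ≤ ∑ i, g i := hsumle

theorem amin_of
    (K : Set (EuclideanSpace ℝ (Fin 3)))
    (m : ℕ) (d : Fin m → EuclideanSpace ℝ (Fin 3)) (hd : ∀ i, ‖d i‖ = 1)
    (B : Fin m → Set (EuclideanSpace ℝ (Fin 3)))
    (hden : ∀ i, μHE[2] ((fun x : EuclideanSpace ℝ (Fin 3) =>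
      x - (inner ℝ (d i) x : ℝ) • d i) '' K) ≠ 0 ∧
      μHE[2] ((fun x : EuclideanSpace ℝ (Fin 3) => x - (inner ℝ (d i) x : ℝ) • d i) '' K) ≠ ⊤)
    (c : ENNReal)
    (hc : c ≤ ∑ i, μHE[2] (B i) /
        μHE[2] ((fun x : EuclideanSpace ℝ (Fin 3) => x - (inner ℝ (d i) x : ℝ) • d i) '' K)) :
    c * (⨅ w ∈ {w : EuclideanSpace ℝ (Fin 3) | ‖w‖ = 1},
          μHE[2] ((fun x : EuclideanSpace ℝ (Fin 3) => x - (inner ℝ w x : ℝ) • w) '' K))
        ≤ ∑ i, μHE[2] (B i) := by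
  have hAle : ∀ i, (⨅ w ∈ {w : EuclideanSpace ℝ (Fin 3) | ‖w‖ = 1},
        μHE[2] ((fun x : EuclideanSpace ℝ (Fin 3) => x - (inner ℝ w x : ℝ) • w) '' K))
      ≤ μHE[2] ((fun x : EuclideanSpace ℝ (Fin 3) => x - (inner ℝ (d i) x : ℝ) • d i) '' K) := by
    intro i
    have hdi : d i ∈ {w : EuclideanSpace ℝ (Fin 3) | ‖w‖ = 1} := hd i
    exact iInf₂_le (d i) hdi
  calc c * (⨅ w ∈ {w : EuclideanSpace ℝ (Fin 3) | ‖w‖ = 1},
          μHE[2] ((fun x : EuclideanSpace ℝ (Fin 3) => x - (inner ℝ w x : ℝ) • w) '' K))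
      ≤ (∑ i, μHE[2] (B i) /
          μHE[2] ((fun x : EuclideanSpace ℝ (Fin 3) => x - (inner ℝ (d i) x : ℝ) • d i) '' K))
        * (⨅ w ∈ {w : EuclideanSpace ℝ (Fin 3) | ‖w‖ = 1},
          μHE[2] ((fun x : EuclideanSpace ℝ (Fin 3) => x - (inner ℝ w x : ℝ) • w) '' K)) :=
        mul_le_mul_left hc _
    _ = ∑ i, μHE[2] (B i) /
          μHE[2] ((fun x : EuclideanSpace ℝ (Fin 3) => x - (inner ℝ (d i) x : ℝ) • d i) '' K)
        * (⨅ w ∈ {w : EuclideanSpace ℝ (Fin 3) | ‖w‖ = 1},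
          μHE[2] ((fun x : EuclideanSpace ℝ (Fin 3) => x - (inner ℝ w x : ℝ) • w) '' K)) :=
        Finset.sum_mul _ _ _
    _ ≤ ∑ i, μHE[2] (B i) := by
        apply Finset.sum_le_sum
        intro i _
        calc μHE[2] (B i) /
              μHE[2] ((fun x : EuclideanSpace ℝ (Fin 3) => x - (inner ℝ (d i) x : ℝ) • d i) '' K)
            * (⨅ w ∈ {w : EuclideanSpace ℝ (Fin 3) | ‖w‖ = 1},
              μHE[2] ((fun x : EuclideanSpace ℝ (Fin 3) => x - (inner ℝ w x : ℝ) • w) '' K))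
            ≤ μHE[2] (B i) /
              μHE[2] ((fun x : EuclideanSpace ℝ (Fin 3) => x - (inner ℝ (d i) x : ℝ) • d i) '' K)
            * μHE[2] ((fun x : EuclideanSpace ℝ (Fin 3) => x - (inner ℝ (d i) x : ℝ) • d i) '' K) :=
              mul_le_mul_right (hAle i) _
          _ = μHE[2] (B i) := ENNReal.div_mul_cancel (hden i).1 (hden i).2

theorem refined_final
    (rvi : ∀ (K : Set ((ℝ × ℝ) × ℝ)), Convex ℝ K → IsCompact K → volume (Prod.fst '' K) ≠ 0 →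
        ∀ (B : Set (ℝ × ℝ)), B ⊆ Prod.fst '' K →
        volume (K ∩ Prod.fst ⁻¹' B)
          ≤ ENNReal.ofReal ((volume B / volume (Prod.fst '' K)).toReal
              * (3 - 2 * Real.sqrt ((volume B / volume (Prod.fst '' K)).toReal))) * volume K)
    (K : Set (EuclideanSpace ℝ (Fin 3))) (hKconv : Convex ℝ K) (hKcomp : IsCompact K)
    (hKint : (interior K).Nonempty)
    (m : ℕ) (d : Fin m → EuclideanSpace ℝ (Fin 3)) (hd : ∀ i, ‖d i‖ = 1)
    (B : Fin m → Set (EuclideanSpace ℝ (Fin 3)))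
    (hB : ∀ i, ∀ b ∈ B i, inner ℝ b (d i) = 0)
    (hcov : ∀ x ∈ K, ∃ i, ∃ b ∈ B i, ∃ t : ℝ, x = b + t • d i) :
    ((1 : ℝ) ≤ ∑ i,
        (μHE[2] (B i ∩ (fun x : EuclideanSpace ℝ (Fin 3) => x - (inner ℝ (d i) x : ℝ) • d i) '' K) /
          μHE[2] ((fun x : EuclideanSpace ℝ (Fin 3) => x - (inner ℝ (d i) x : ℝ) • d i) '' K)).toReal
        * (3 - 2 * Real.sqrt
          (μHE[2] (B i ∩ (fun x : EuclideanSpace ℝ (Fin 3) => x - (inner ℝ (d i) x : ℝ) • d i) '' K) /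
          μHE[2] ((fun x : EuclideanSpace ℝ (Fin 3) => x - (inner ℝ (d i) x : ℝ) • d i) '' K)).toReal))
    ∧ (∀ a : ℝ, 0 ≤ a → a ≤ 1 →
        ((Set.range d).ncard : ℝ) * (a * (3 - 2 * Real.sqrt a)) ≤ 1 →
        ENNReal.ofReal ((Set.range d).ncard * a) ≤ ∑ i, μHE[2] (B i) /
          μHE[2] ((fun x : EuclideanSpace ℝ (Fin 3) => x - (inner ℝ (d i) x : ℝ) • d i) '' K))
    ∧ ENNReal.ofReal (1 / 3 + 2 / (9 * Real.sqrt (3 * (Set.range d).ncard)))
        ≤ ∑ i, μHE[2] (B i) /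
          μHE[2] ((fun x : EuclideanSpace ℝ (Fin 3) => x - (inner ℝ (d i) x : ℝ) • d i) '' K)
    ∧ ENNReal.ofReal (1 / 3 + 2 / (9 * Real.sqrt (3 * (Set.range d).ncard)))
        * (⨅ w ∈ {w : EuclideanSpace ℝ (Fin 3) | ‖w‖ = 1},
          μHE[2] ((fun x : EuclideanSpace ℝ (Fin 3) => x - (inner ℝ w x : ℝ) • w) '' K))
        ≤ ∑ i, μHE[2] (B i)
    ∧ ((Set.range d).ncard ≤ 2 →
        (1 / 2 : ENNReal) ≤ ∑ i, μHE[2] (B i) /
          μHE[2] ((fun x : EuclideanSpace ℝ (Fin 3) => x - (inner ℝ (d i) x : ℝ) • d i) '' K)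
        ∧ (1 / 2 : ENNReal) * (⨅ w ∈ {w : EuclideanSpace ℝ (Fin 3) | ‖w‖ = 1},
          μHE[2] ((fun x : EuclideanSpace ℝ (Fin 3) => x - (inner ℝ w x : ℝ) • w) '' K))
        ≤ ∑ i, μHE[2] (B i)) := by
  have hden : ∀ i, μHE[2] ((fun x : EuclideanSpace ℝ (Fin 3) =>
      x - (inner ℝ (d i) x : ℝ) • d i) '' K) ≠ 0 ∧
      μHE[2] ((fun x : EuclideanSpace ℝ (Fin 3) => x - (inner ℝ (d i) x : ℝ) • d i) '' K) ≠ ⊤ :=
    fun i => ⟨(cyl_bound rvi K hKconv hKcomp hKint (d i) (hd i) (B i) (hB i)).1,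
      (cyl_bound rvi K hKconv hKcomp hKint (d i) (hd i) (B i) (hB i)).2.1⟩
  obtain ⟨ha, -⟩ := refined_of rvi K hKconv hKcomp hKint m d hd B hB hcov
  obtain ⟨hb, hc⟩ := merged_of rvi K hKconv hKcomp hKint m d hd B hB hcov
  refine ⟨ha, hb, hc, amin_of K m d hd B hden _ hc, ?_⟩
  intro hk2
  have hhalf : (1 / 2 : ENNReal) ≤ ∑ i, μHE[2] (B i) /
      μHE[2] ((fun x : EuclideanSpace ℝ (Fin 3) => x - (inner ℝ (d i) x : ℝ) • d i) '' K) := by
    obtain ⟨x, hx⟩ := hKint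
    obtain ⟨i, -⟩ := hcov x (interior_subset hx)
    have hne : (Set.range d).Nonempty := ⟨d i, i, rfl⟩
    have hpos : 0 < (Set.range d).ncard := (Set.ncard_pos (Set.finite_range d)).mpr hne
    have h12 : (Set.range d).ncard = 1 ∨ (Set.range d).ncard = 2 := by omega
    rcases h12 with h | h
    · have h1 := hb 1 (by norm_num) le_rfl (by rw [h]; simp; norm_num)
      rw [h] at h1
      calc (1 / 2 : ENNReal) ≤ 1 := ENNReal.half_le_self
        _ = ENNReal.ofReal (((1 : ℕ) : ℝ) * 1) := by simp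
        _ ≤ _ := h1
    · have hs : Real.sqrt (1 / 4) = 1 / 2 := by
        rw [show (1 / 4 : ℝ) = (1 / 2) ^ 2 by norm_num, Real.sqrt_sq (by norm_num)]
      have h1 := hb (1 / 4) (by norm_num) (by norm_num) (by rw [h, hs]; norm_num)
      rw [h] at h1
      calc (1 / 2 : ENNReal) = ENNReal.ofReal (((2 : ℕ) : ℝ) * (1 / 4)) := by
            rw [show ((2 : ℕ) : ℝ) * (1 / 4) = 1 / 2 by norm_num,
              ENNReal.ofReal_div_of_pos two_pos]
            simp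
        _ ≤ _ := h1
  exact ⟨hhalf, amin_of K m d hd B hden _ hhalf⟩

end Vale.Agent.Lib.Helper9.P243
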