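import Mathlib
import Vale.Agent.Lib.Helper9.P243.Layer
import Vale.Agent.Lib.Helper9.P243.BM

set_option autoImplicit false

open MeasureTheory Set
open scoped Pointwise

namespace Vale.Agent.Lib.Helper9.P243

/-- The set of base points over which `K` has a vertical chord of length at least `lam`. -/
def chordLevel (K : Set ((ℝ × ℝ) × ℝ)) (lam : ℝ) : Set (ℝ × ℝ) :=
  {y | ∃ z : ℝ, (y, z) ∈ K ∧ (y, z + lam) ∈ K}

theorem chordLevel_zero (K : Set ((ℝ × ℝ) × ℝ)) : chordLevel K 0 = Prod.fst '' K := by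
  ext y
  constructor
  · rintro ⟨z, hz, _⟩
    exact ⟨(y, z), hz, rfl⟩
  · rintro ⟨p, hp, rfl⟩
    exact ⟨p.2, hp, by simpa using hp⟩

theorem chordLevel_subset (K : Set ((ℝ × ℝ) × ℝ)) (lam : ℝ) :
    chordLevel K lam ⊆ Prod.fst '' K := by
  rintro y ⟨z, hz, _⟩
  exact ⟨(y, z), hz, rfl⟩

theorem isCompact_chordLevel {K : Set ((ℝ × ℝ) × ℝ)} (hKc : IsCompact K) (lam : ℝ) :
    IsCompact (chordLevel K lam) := by
  have hcont : Continuous (fun p : (ℝ × ℝ) × ℝ => ((p.1, p.2 + lam) : (ℝ × ℝ) × ℝ)) := by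
    fun_prop
  have e : chordLevel K lam
      = Prod.fst '' (K ∩ (fun p : (ℝ × ℝ) × ℝ => ((p.1, p.2 + lam) : (ℝ × ℝ) × ℝ)) ⁻¹' K) := by
    ext y
    constructor
    · rintro ⟨z, hz, hz'⟩
      exact ⟨(y, z), ⟨hz, hz'⟩, rfl⟩
    · rintro ⟨p, ⟨hp, hp'⟩, rfl⟩
      exact ⟨p.2, hp, hp'⟩
  rw [e]
  exact (hKc.inter_right (hKc.isClosed.preimage hcont)).image continuous_fst

/-- Convex combination of a base point and a point of the level set. -/
theorem chordLevel_combo {K : Set ((ℝ × ℝ) × ℝ)} (hK : Convex ℝ K) {lam : ℝ}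
    {y0 y1 : ℝ × ℝ} (h0 : y0 ∈ Prod.fst '' K) (h1 : y1 ∈ chordLevel K lam)
    {a b : ℝ} (ha : 0 ≤ a) (hb : 0 ≤ b) (hab : a + b = 1) :
    a • y0 + b • y1 ∈ chordLevel K (b * lam) := by
  obtain ⟨p, hp, rfl⟩ := h0
  obtain ⟨z, hz, hz'⟩ := h1
  refine ⟨a * p.2 + b * z, ?_, ?_⟩
  · have := hK hp hz ha hb hab
    have e : a • p + b • ((y1, z) : (ℝ × ℝ) × ℝ) = (a • p.1 + b • y1, a * p.2 + b * z) := by
      ext <;> simp
    rw [e] at this
    exact this
  · have := hK hp hz' ha hb hab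
    have e : a • p + b • ((y1, z + lam) : (ℝ × ℝ) × ℝ)
        = (a • p.1 + b • y1, a * p.2 + b * z + b * lam) := by
      refine Prod.ext ?_ ?_
      · simp
      · simp only [Prod.snd_add, Prod.smul_snd, smul_eq_mul]; ring
    rw [e] at this
    exact this

/-- The graph of the level sets is compact. -/
theorem isCompact_chordGraph {K : Set ((ℝ × ℝ) × ℝ)} (hKc : IsCompact K) :
    IsCompact {q : ℝ × (ℝ × ℝ) | q.2 ∈ chordLevel K q.1} := by
  have hcl : IsClosed {r : ((ℝ × ℝ) × ℝ) × ((ℝ × ℝ) × ℝ) | r.1.1 = r.2.1} :=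
    isClosed_eq (by fun_prop) (by fun_prop)
  have hc : IsCompact ((K ×ˢ K) ∩ {r : ((ℝ × ℝ) × ℝ) × ((ℝ × ℝ) × ℝ) | r.1.1 = r.2.1}) :=
    (hKc.prod hKc).inter_right hcl
  have hcont : Continuous (fun r : ((ℝ × ℝ) × ℝ) × ((ℝ × ℝ) × ℝ) =>
      ((r.2.2 - r.1.2, r.1.1) : ℝ × (ℝ × ℝ))) := by fun_prop
  have e : {q : ℝ × (ℝ × ℝ) | q.2 ∈ chordLevel K q.1}
      = (fun r : ((ℝ × ℝ) × ℝ) × ((ℝ × ℝ) × ℝ) => ((r.2.2 - r.1.2, r.1.1) : ℝ × (ℝ × ℝ))) ''
        ((K ×ˢ K) ∩ {r : ((ℝ × ℝ) × ℝ) × ((ℝ × ℝ) × ℝ) | r.1.1 = r.2.1}) := by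
    ext q
    constructor
    · rintro ⟨z, hz, hz'⟩
      refine ⟨((q.2, z), (q.2, z + q.1)), ⟨⟨hz, hz'⟩, rfl⟩, ?_⟩
      ext <;> simp
    · rintro ⟨r, ⟨⟨h1, h2⟩, h3⟩, rfl⟩
      refine ⟨r.1.2, h1, ?_⟩
      have h3' : r.1.1 = r.2.1 := h3
      have : ((r.1.1, r.1.2 + (r.2.2 - r.1.2)) : (ℝ × ℝ) × ℝ) = r.2 := by
        ext <;> simp [h3']
      show ((r.1.1, r.1.2 + (r.2.2 - r.1.2)) : (ℝ × ℝ) × ℝ) ∈ K
      rw [this]
      exact h2
  rw [e]
  exact hc.image hcont

/-- The area of the level set is a measurable function of the level. -/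
theorem measurable_chordLevel_volume {K : Set ((ℝ × ℝ) × ℝ)} (hKc : IsCompact K) :
    Measurable (fun lam : ℝ => volume (chordLevel K lam)) := by
  have h := measurable_measure_prodMk_left (ν := (volume : Measure (ℝ × ℝ)))
    (isCompact_chordGraph hKc).measurableSet
  exact h

/-- Section lengths of `K` equal the length of the set of admissible chord lengths. -/
theorem section_length_eq {K : Set ((ℝ × ℝ) × ℝ)} (hK : Convex ℝ K) (hKc : IsCompact K)
    (y : ℝ × ℝ) :
    volume (Prod.mk y ⁻¹' K) = volume {lam : ℝ | 0 < lam ∧ y ∈ chordLevel K lam} := by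
  set Ky : Set ℝ := Prod.mk y ⁻¹' K with hKy
  have hKyc : IsCompact Ky := by
    have e : Ky = Prod.snd '' (K ∩ {p : (ℝ × ℝ) × ℝ | p.1 = y}) := by
      ext z
      constructor
      · intro hz
        exact ⟨(y, z), ⟨hz, rfl⟩, rfl⟩
      · rintro ⟨p, ⟨hp, hpy⟩, rfl⟩
        have hpy' : p.1 = y := hpy
        have : (y, p.2) = p := by rw [← hpy']
        show (y, p.2) ∈ K
        rw [this]; exact hp
    rw [e]
    exact (hKc.inter_right (isClosed_eq continuous_fst continuous_const)).image continuous_snd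
  have hKyconv : Convex ℝ Ky := by
    intro z hz w hw a b ha hb hab
    have := hK hz hw ha hb hab
    have e : a • ((y, z) : (ℝ × ℝ) × ℝ) + b • ((y, w) : (ℝ × ℝ) × ℝ) = (y, a • z + b • w) := by
      have hy : a • y + b • y = y := by rw [← add_smul, hab, one_smul]
      refine Prod.ext ?_ ?_
      · simp only [Prod.fst_add, Prod.smul_fst]; exact hy
      · simp
    rw [e] at this
    exact this
  have hset : {lam : ℝ | 0 < lam ∧ y ∈ chordLevel K lam}
      = {lam : ℝ | 0 < lam ∧ ∃ z, z ∈ Ky ∧ z + lam ∈ Ky} := rfl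
  rw [hset]
  rcases Ky.eq_empty_or_nonempty with hemp | hne
  · rw [hemp]
    simp
  · have hIcc := eq_Icc_of_connected_compact (hKyconv.isConnected hne) hKyc
    set a := sInf Ky
    set b := sSup Ky
    have hab : a ≤ b := by
      obtain ⟨z, hz⟩ := hne
      rw [hIcc] at hz
      exact le_trans hz.1 hz.2
    have e2 : {lam : ℝ | 0 < lam ∧ ∃ z, z ∈ Ky ∧ z + lam ∈ Ky} = Ioc 0 (b - a) := by
      ext lam
      constructor
      · rintro ⟨hl, z, hz, hz'⟩
        rw [hIcc] at hz hz'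
        exact ⟨hl, by linarith [hz.1, hz'.2]⟩
      · rintro ⟨hl, hl'⟩
        refine ⟨hl, a, ?_, ?_⟩
        · rw [hIcc]; exact ⟨le_rfl, hab⟩
        · rw [hIcc]; exact ⟨by linarith, by linarith⟩
    rw [e2, hIcc, Real.volume_Icc, Real.volume_Ioc]
    simp

/-- Volume of the part of `K` above a measurable base, as an integral over chord levels. -/
theorem volume_cyl_eq {K : Set ((ℝ × ℝ) × ℝ)} (hK : Convex ℝ K) (hKc : IsCompact K)
    {B : Set (ℝ × ℝ)} (hBm : MeasurableSet B) :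
    volume (K ∩ Prod.fst ⁻¹' B) = ∫⁻ lam in Ioi (0 : ℝ), volume (B ∩ chordLevel K lam) := by
  set H : Set ((ℝ × ℝ) × ℝ) := {q | 0 < q.2 ∧ q.1 ∈ chordLevel K q.2 ∧ q.1 ∈ B} with hH
  have hHm : MeasurableSet H := by
    have h1 : MeasurableSet {q : (ℝ × ℝ) × ℝ | 0 < q.2} :=
      (isOpen_lt continuous_const continuous_snd).measurableSet
    have h2 : MeasurableSet {q : (ℝ × ℝ) × ℝ | q.1 ∈ chordLevel K q.2} := by
      have := (isCompact_chordGraph hKc).measurableSet.preimage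
        (measurable_swap (α := ℝ × ℝ) (β := ℝ))
      exact this
    have h3 : MeasurableSet {q : (ℝ × ℝ) × ℝ | q.1 ∈ B} := measurable_fst hBm
    exact h1.inter (h2.inter h3)
  have hvol : (volume : Measure ((ℝ × ℝ) × ℝ))
      = (volume : Measure (ℝ × ℝ)).prod (volume : Measure ℝ) := Measure.volume_eq_prod _ _
  have hKBm : MeasurableSet (K ∩ Prod.fst ⁻¹' B) :=
    hKc.measurableSet.inter (measurable_fst hBm)
  have hsec : ∀ y : ℝ × ℝ, volume (Prod.mk y ⁻¹' (K ∩ Prod.fst ⁻¹' B))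
      = volume (Prod.mk y ⁻¹' H) := by
    intro y
    by_cases hy : y ∈ B
    · have e1 : Prod.mk y ⁻¹' (K ∩ Prod.fst ⁻¹' B) = Prod.mk y ⁻¹' K := by
        ext z
        simp [hy]
      have e2 : Prod.mk y ⁻¹' H = {lam : ℝ | 0 < lam ∧ y ∈ chordLevel K lam} := by
        ext lam
        simp [hH, hy]
      rw [e1, e2, section_length_eq hK hKc y]
    · have e1 : Prod.mk y ⁻¹' (K ∩ Prod.fst ⁻¹' B) = ∅ := by
        ext z
        simp [hy]
      have e2 : Prod.mk y ⁻¹' H = ∅ := by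
        ext lam
        simp [hH, hy]
      rw [e1, e2]
  have hstep1 : volume (K ∩ Prod.fst ⁻¹' B) = volume H := by
    rw [hvol, Measure.prod_apply hKBm, Measure.prod_apply hHm]
    exact lintegral_congr hsec
  rw [hstep1, hvol, Measure.prod_apply_symm hHm]
  have hpt : ∀ lam : ℝ, volume ((fun y : ℝ × ℝ => (y, lam)) ⁻¹' H)
      = (Ioi (0 : ℝ)).indicator (fun lam => volume (B ∩ chordLevel K lam)) lam := by
    intro lam
    by_cases hl : 0 < lam
    · rw [indicator_of_mem (show lam ∈ Ioi (0 : ℝ) from hl)]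
      congr 1
      ext y
      simp [hH, hl, and_comm]
    · rw [indicator_of_notMem (show lam ∉ Ioi (0 : ℝ) from hl)]
      have : (fun y : ℝ × ℝ => (y, lam)) ⁻¹' H = ∅ := by
        ext y
        simp [hH, hl]
      rw [this]
      simp
  rw [lintegral_congr hpt, lintegral_indicator measurableSet_Ioi]

/-- Volume of `K` as the integral of the areas of its chord level sets. -/
theorem volume_eq_lintegral_chordLevel {K : Set ((ℝ × ℝ) × ℝ)} (hK : Convex ℝ K)
    (hKc : IsCompact K) :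
    volume K = ∫⁻ lam in Ioi (0 : ℝ), volume (chordLevel K lam) := by
  have h := volume_cyl_eq hK hKc (B := Prod.fst '' K) (hKc.image continuous_fst).measurableSet
  have e1 : K ∩ Prod.fst ⁻¹' (Prod.fst '' K) = K := by
    ext p
    constructor
    · exact fun hp => hp.1
    · exact fun hp => ⟨hp, ⟨p, hp, rfl⟩⟩
  have e2 : ∀ lam, Prod.fst '' K ∩ chordLevel K lam = chordLevel K lam :=
    fun lam => inter_eq_right.mpr (chordLevel_subset K lam)
  rw [e1] at h
  simp only [e2] at h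
  exact h

/-- Refined volume inequality in coordinates, with planar Brunn-Minkowski as a hypothesis. -/
theorem rvi_coord_of
    (bm : ∀ (X Y Z : Set (ℝ × ℝ)), IsCompact X → IsCompact Y → X.Nonempty → Y.Nonempty →
        IsCompact Z → ∀ (a b : ℝ), 0 ≤ a → 0 ≤ b →
        (∀ p ∈ X, ∀ q ∈ Y, a • p + b • q ∈ Z) →
        a * Real.sqrt (volume X).toReal + b * Real.sqrt (volume Y).toReal
          ≤ Real.sqrt (volume Z).toReal)
    {K : Set ((ℝ × ℝ) × ℝ)} (hK : Convex ℝ K) (hKc : IsCompact K)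
    (hD : volume (Prod.fst '' K) ≠ 0) {B : Set (ℝ × ℝ)} (hB : B ⊆ Prod.fst '' K) :
    volume (K ∩ Prod.fst ⁻¹' B)
      ≤ ENNReal.ofReal ((volume B / volume (Prod.fst '' K)).toReal
          * (3 - 2 * Real.sqrt ((volume B / volume (Prod.fst '' K)).toReal))) * volume K := by
  set D : Set (ℝ × ℝ) := Prod.fst '' K with hDdef
  have hDc : IsCompact D := hKc.image continuous_fst
  have hDne : D.Nonempty := by
    by_contra h
    rw [not_nonempty_iff_eq_empty] at h
    apply hD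
    rw [h]; simp
  set A : ENNReal := volume D with hA
  have hAt : A ≠ ⊤ := hDc.measure_lt_top.ne
  set Ar : ℝ := A.toReal with hAr
  have hArpos : 0 < Ar := ENNReal.toReal_pos hD hAt
  have hAeq : ENNReal.ofReal Ar = A := ENNReal.ofReal_toReal hAt
  set F : ℝ → ENNReal := fun lam => volume (chordLevel K lam) with hF
  have hFle : ∀ lam, F lam ≤ A := fun lam => measure_mono (chordLevel_subset K lam)
  have hFt : ∀ lam, F lam ≠ ⊤ := fun lam => ne_top_of_le_ne_top hAt (hFle lam)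
  set ψ : ℝ → ℝ := fun lam => Real.sqrt ((F lam).toReal / Ar) with hψ
  have hψm : Measurable ψ :=
    ((measurable_chordLevel_volume hKc).ennreal_toReal.div_const Ar).sqrt
  have hψ0 : ∀ x, 0 ≤ ψ x := fun x => Real.sqrt_nonneg _
  have hψ1 : ∀ x, ψ x ≤ 1 := by
    intro x
    have h1 : (F x).toReal ≤ Ar := ENNReal.toReal_mono hAt (hFle x)
    have h2 : (F x).toReal / Ar ≤ 1 := (div_le_one hArpos).mpr h1
    calc ψ x ≤ Real.sqrt 1 := Real.sqrt_le_sqrt h2
      _ = 1 := Real.sqrt_one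
  have hψsq : ∀ x, (ψ x) ^ 2 = (F x).toReal / Ar := by
    intro x
    exact Real.sq_sqrt (div_nonneg ENNReal.toReal_nonneg hArpos.le)
  -- Brunn-Minkowski for the base and a level set
  have hbm : ∀ lam θ : ℝ, (chordLevel K lam).Nonempty → 0 ≤ θ → θ ≤ 1 →
      (1 - θ) + θ * ψ lam ≤ ψ (θ * lam) := by
    intro lam θ hne hθ0 hθ1
    have h := bm D (chordLevel K lam) (chordLevel K (θ * lam)) hDc (isCompact_chordLevel hKc lam)
      hDne hne (isCompact_chordLevel hKc _) (1 - θ) θ (by linarith) hθ0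
      (fun p hp q hq => chordLevel_combo hK hp hq (by linarith) hθ0 (by ring))
    have hsA : 0 < Real.sqrt Ar := Real.sqrt_pos.mpr hArpos
    have e1 : ψ lam = Real.sqrt (F lam).toReal / Real.sqrt Ar :=
      Real.sqrt_div ENNReal.toReal_nonneg _
    have e2 : ψ (θ * lam) = Real.sqrt (F (θ * lam)).toReal / Real.sqrt Ar :=
      Real.sqrt_div ENNReal.toReal_nonneg _
    rw [e1, e2, le_div_iff₀ hsA]
    have e3 : (1 - θ + θ * (Real.sqrt (F lam).toReal / Real.sqrt Ar)) * Real.sqrt Ar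
        = (1 - θ) * Real.sqrt Ar + θ * Real.sqrt (F lam).toReal := by
      field_simp
    rw [e3]
    exact h
  have hstar : ∀ t t' : ℝ, 0 ≤ t → t ≤ t' → t' < 1 →
      ENNReal.ofReal (1 - t') * volume {x : ℝ | 0 < x ∧ t < ψ x}
        ≤ ENNReal.ofReal (1 - t) * volume {x : ℝ | 0 < x ∧ t' < ψ x} := by
    intro t t' ht0 htt' ht'1
    have h1t : 0 < 1 - t := by linarith
    have h1t' : 0 < 1 - t' := by linarith
    set θ : ℝ := (1 - t') / (1 - t) with hθ
    have hθ0 : 0 < θ := div_pos h1t' h1t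
    have hθ1 : θ ≤ 1 := (div_le_one h1t).mpr (by linarith)
    have hsub : θ • {x : ℝ | 0 < x ∧ t < ψ x} ⊆ {x : ℝ | 0 < x ∧ t' < ψ x} := by
      rintro _ ⟨x, ⟨hx0, hxt⟩, rfl⟩
      have hne : (chordLevel K x).Nonempty := by
        by_contra hemp
        rw [not_nonempty_iff_eq_empty] at hemp
        have : ψ x = 0 := by
          simp only [hψ, hF, hemp]
          simp
        linarith
      have h := hbm x θ hne hθ0.le hθ1
      refine ⟨by simpa using mul_pos hθ0 hx0, ?_⟩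
      have e : t' = (1 - θ) + θ * t := by
        rw [hθ]; field_simp; ring
      have : (1 - θ) + θ * t < (1 - θ) + θ * ψ x := by
        have := mul_lt_mul_of_pos_left hxt hθ0
        linarith
      calc t' = (1 - θ) + θ * t := e
        _ < (1 - θ) + θ * ψ x := this
        _ ≤ ψ (θ * x) := h
        _ = ψ (θ • x) := by rw [smul_eq_mul]
    have hvol : volume (θ • {x : ℝ | 0 < x ∧ t < ψ x})
        = ENNReal.ofReal θ * volume {x : ℝ | 0 < x ∧ t < ψ x} := by
      rw [Measure.addHaar_smul]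
      simp [abs_of_pos hθ0]
    have hle : ENNReal.ofReal θ * volume {x : ℝ | 0 < x ∧ t < ψ x}
        ≤ volume {x : ℝ | 0 < x ∧ t' < ψ x} := by
      rw [← hvol]; exact measure_mono hsub
    have e : ENNReal.ofReal (1 - t') = ENNReal.ofReal (1 - t) * ENNReal.ofReal θ := by
      rw [← ENNReal.ofReal_mul h1t.le]
      congr 1
      rw [hθ]; field_simp
    rw [e, mul_assoc]
    gcongr
  -- reduce to a measurable base
  set B' : Set (ℝ × ℝ) := toMeasurable volume B ∩ D with hB'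
  have hB'm : MeasurableSet B' := (measurableSet_toMeasurable _ _).inter hDc.measurableSet
  have hBB' : B ⊆ B' := fun y hy => ⟨subset_toMeasurable _ _ hy, hB hy⟩
  have hB'vol : volume B' = volume B := by
    apply le_antisymm
    · calc volume B' ≤ volume (toMeasurable volume B) := measure_mono inter_subset_left
        _ = volume B := measure_toMeasurable B
    · exact measure_mono hBB'
  have hBle : volume B ≤ A := measure_mono hB
  have hBt : volume B ≠ ⊤ := ne_top_of_le_ne_top hAt hBle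
  set β : ℝ := (volume B / A).toReal with hβ
  have hβeq : β = (volume B).toReal / Ar := ENNReal.toReal_div _ _
  have hβ0 : 0 ≤ β := ENNReal.toReal_nonneg
  have hβ1 : β ≤ 1 := by
    rw [hβeq]
    exact (div_le_one hArpos).mpr (ENNReal.toReal_mono hAt hBle)
  set s : ℝ := Real.sqrt β with hs
  have hs0 : 0 ≤ s := Real.sqrt_nonneg _
  have hs1 : s ≤ 1 := by
    calc s ≤ Real.sqrt 1 := Real.sqrt_le_sqrt hβ1
      _ = 1 := Real.sqrt_one
  have hssq : s ^ 2 = β := Real.sq_sqrt hβ0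
  have hlayer := weighted_layer_bound hψm hψ0 hψ1 hstar hs0 hs1
  -- pointwise identities
  have hpt1 : ∀ lam, volume (B' ∩ chordLevel K lam)
      ≤ A * ENNReal.ofReal ((min s (ψ lam)) ^ 2) := by
    intro lam
    have hfin : volume (B' ∩ chordLevel K lam) ≠ ⊤ :=
      ne_top_of_le_ne_top (hFt lam) (measure_mono inter_subset_right)
    have hmin : (min s (ψ lam)) ^ 2 = min β ((F lam).toReal / Ar) := by
      rcases le_total s (ψ lam) with h | h
      · rw [min_eq_left h, hssq, min_eq_left]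
        rw [← hssq, ← hψsq lam]
        exact pow_le_pow_left₀ hs0 h 2
      · rw [min_eq_right h, hψsq, min_eq_right]
        rw [← hssq, ← hψsq lam]
        exact pow_le_pow_left₀ (hψ0 lam) h 2
    have hreal : (volume (B' ∩ chordLevel K lam)).toReal ≤ Ar * (min s (ψ lam)) ^ 2 := by
      rw [hmin, mul_min_of_nonneg _ _ hArpos.le]
      apply le_min
      · rw [hβeq, mul_div_cancel₀ _ hArpos.ne']
        rw [← hB'vol]
        exact ENNReal.toReal_mono (by rw [hB'vol]; exact hBt) (measure_mono inter_subset_left)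
      · rw [mul_div_cancel₀ _ hArpos.ne']
        exact ENNReal.toReal_mono (hFt lam) (measure_mono inter_subset_right)
    calc volume (B' ∩ chordLevel K lam)
        = ENNReal.ofReal (volume (B' ∩ chordLevel K lam)).toReal :=
          (ENNReal.ofReal_toReal hfin).symm
      _ ≤ ENNReal.ofReal (Ar * (min s (ψ lam)) ^ 2) := ENNReal.ofReal_le_ofReal hreal
      _ = A * ENNReal.ofReal ((min s (ψ lam)) ^ 2) := by
          rw [ENNReal.ofReal_mul hArpos.le, hAeq]
  have hpt2 : ∀ lam, A * ENNReal.ofReal ((ψ lam) ^ 2) = F lam := by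
    intro lam
    rw [hψsq, ← hAeq, ← ENNReal.ofReal_mul hArpos.le, mul_div_cancel₀ _ hArpos.ne',
      ENNReal.ofReal_toReal (hFt lam)]
  have hconst : s ^ 2 * 3 - 2 * s ^ 3 = β * (3 - 2 * Real.sqrt β) := by
    have : s ^ 3 = β * s := by rw [← hssq]; ring
    rw [this, hssq]; ring
  calc volume (K ∩ Prod.fst ⁻¹' B)
      ≤ volume (K ∩ Prod.fst ⁻¹' B') :=
        measure_mono (inter_subset_inter_right _ (preimage_mono hBB'))
    _ = ∫⁻ lam in Ioi (0 : ℝ), volume (B' ∩ chordLevel K lam) := volume_cyl_eq hK hKc hB'm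
    _ ≤ ∫⁻ lam in Ioi (0 : ℝ), A * ENNReal.ofReal ((min s (ψ lam)) ^ 2) :=
        lintegral_mono (fun lam => hpt1 lam)
    _ = A * ∫⁻ lam in Ioi (0 : ℝ), ENNReal.ofReal ((min s (ψ lam)) ^ 2) :=
        lintegral_const_mul' _ _ hAt
    _ ≤ A * (ENNReal.ofReal (3 * s ^ 2 - 2 * s ^ 3)
          * ∫⁻ lam in Ioi (0 : ℝ), ENNReal.ofReal ((ψ lam) ^ 2)) := by gcongr
    _ = ENNReal.ofReal (3 * s ^ 2 - 2 * s ^ 3)
          * (A * ∫⁻ lam in Ioi (0 : ℝ), ENNReal.ofReal ((ψ lam) ^ 2)) := by ring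
    _ = ENNReal.ofReal (3 * s ^ 2 - 2 * s ^ 3)
          * ∫⁻ lam in Ioi (0 : ℝ), A * ENNReal.ofReal ((ψ lam) ^ 2) := by
        rw [lintegral_const_mul' _ _ hAt]
    _ = ENNReal.ofReal (3 * s ^ 2 - 2 * s ^ 3) * ∫⁻ lam in Ioi (0 : ℝ), F lam := by
        simp only [hpt2]
    _ = ENNReal.ofReal (β * (3 - 2 * Real.sqrt β)) * volume K := by
        rw [← volume_eq_lintegral_chordLevel hK hKc]
        congr 2
        rw [← hconst]; ring

/-- Refined volume inequality in coordinates: the part of a compact convex set `K` lying above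
a base `B` of relative area `β` has volume at most `β (3 - 2 √β)` times the volume of `K`. -/
theorem rvi_coord {K : Set ((ℝ × ℝ) × ℝ)} (hK : Convex ℝ K) (hKc : IsCompact K)
    (hD : volume (Prod.fst '' K) ≠ 0) {B : Set (ℝ × ℝ)} (hB : B ⊆ Prod.fst '' K) :
    volume (K ∩ Prod.fst ⁻¹' B)
      ≤ ENNReal.ofReal ((volume B / volume (Prod.fst '' K)).toReal
          * (3 - 2 * Real.sqrt ((volume B / volume (Prod.fst '' K)).toReal))) * volume K :=
  rvi_coord_of
    (fun _ _ _ hX hY hXne hYne hZ _ _ ha hb hsub => planar_bm hX hY hZ hXne hYne ha hb hsub)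
    hK hKc hD hB

end Vale.Agent.Lib.Helper9.P243
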