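import Mathlib
import Vale.Agent.Lib.Helper9.P243.BM

set_option autoImplicit false

open MeasureTheory Set
open scoped Pointwise

namespace Vale.Agent.Lib.Helper9.P243

/-- A nonempty compact subset of the line of diameter at most `c`, thickened by `σ` on both
sides, gains at least the factor `1 + 2 σ / c` in length. -/
theorem thicken_section {A W : Set ℝ} (hA : IsCompact A) (hAne : A.Nonempty) {c σ : ℝ}
    (hc : 0 < c) (hσ : 0 ≤ σ)
    (hdiam : ∀ t1 ∈ A, ∀ t2 ∈ A, |t2 - t1| ≤ c)
    (hW : ∀ t ∈ A, ∀ θ : ℝ, |θ| ≤ σ → t + θ ∈ W) :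
    ENNReal.ofReal (1 + 2 * σ / c) * volume A ≤ volume W := by
  obtain ⟨m, hmA, hm⟩ := hA.exists_isLeast hAne
  have hAsub : A ⊆ Icc m (m + c) := by
    intro t ht
    have h1 := hdiam m hmA t ht
    rw [abs_le] at h1
    exact ⟨hm ht, by linarith⟩
  have hvolA : volume A ≤ ENNReal.ofReal c := by
    calc volume A ≤ volume (Icc m (m + c)) := measure_mono hAsub
      _ = ENNReal.ofReal c := by rw [Real.volume_Icc]; congr 1; ring
  have hAtop : volume A ≠ ⊤ := ne_top_of_le_ne_top ENNReal.ofReal_ne_top hvolA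
  set S : Set ℝ := (fun t => t + (-σ)) ⁻¹' A with hS
  set T : Set ℝ := Ico (m - σ) (m + σ) with hT
  have hSvol : volume S = volume A := measure_preimage_add_right volume (-σ) A
  have hTvol : volume T = ENNReal.ofReal (2 * σ) := by
    rw [hT, Real.volume_Ico]; congr 1; ring
  have hdisj : Disjoint S T := by
    rw [Set.disjoint_left]
    intro t htS htT
    have h1 : m ≤ t + -σ := hm htS
    have h2 : t < m + σ := htT.2
    linarith
  have hsub : S ∪ T ⊆ W := by
    rintro t (ht | ht)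
    · have := hW (t + -σ) ht σ (by rw [abs_of_nonneg hσ])
      simpa using this
    · have := hW m hmA (t - m) (by rw [abs_le]; constructor <;> linarith [ht.1, ht.2])
      simpa using this
  have hfirst : ENNReal.ofReal (1 + 2 * σ / c) * volume A ≤ volume A + ENNReal.ofReal (2 * σ) := by
    have hv : volume A = ENNReal.ofReal (volume A).toReal := (ENNReal.ofReal_toReal hAtop).symm
    have hvle : (volume A).toReal ≤ c := by
      have := ENNReal.toReal_mono ENNReal.ofReal_ne_top hvolA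
      rwa [ENNReal.toReal_ofReal hc.le] at this
    have hv0 : 0 ≤ (volume A).toReal := ENNReal.toReal_nonneg
    rw [hv, ← ENNReal.ofReal_mul (by positivity), ← ENNReal.ofReal_add hv0 (by positivity)]
    apply ENNReal.ofReal_le_ofReal
    have h1 : 2 * σ / c * (volume A).toReal ≤ 2 * σ := by
      rw [div_mul_eq_mul_div, div_le_iff₀ hc]
      nlinarith
    nlinarith
  calc ENNReal.ofReal (1 + 2 * σ / c) * volume A
      ≤ volume A + ENNReal.ofReal (2 * σ) := hfirst
    _ = volume S + volume T := by rw [hSvol, hTvol]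
    _ = volume (S ∪ T) := (measure_union hdisj measurableSet_Ico).symm
    _ ≤ volume W := measure_mono hsub

/-- Planar version: thickening a compact set along the second coordinate. -/
theorem thicken_planar {Q Z : Set (ℝ × ℝ)} (hQ : IsCompact Q) (hZ : MeasurableSet Z) {c σ : ℝ}
    (hc : 0 < c) (hσ : 0 ≤ σ)
    (hchord : ∀ x t1 t2, (x, t1) ∈ Q → (x, t2) ∈ Q → |t2 - t1| ≤ c)
    (hZsub : ∀ x t θ, (x, t) ∈ Q → |θ| ≤ σ → (x, t + θ) ∈ Z) :
    ENNReal.ofReal (1 + 2 * σ / c) * volume Q ≤ volume Z := by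
  have hvol : (volume : Measure (ℝ × ℝ)) = (volume : Measure ℝ).prod (volume : Measure ℝ) :=
    Measure.volume_eq_prod _ _
  rw [hvol, Measure.prod_apply hQ.measurableSet, Measure.prod_apply hZ,
    ← lintegral_const_mul' _ _ ENNReal.ofReal_ne_top]
  apply lintegral_mono
  intro x
  by_cases hne : (Prod.mk x ⁻¹' Q).Nonempty
  · exact thicken_section (isCompact_sectionL hQ x) hne hc hσ
      (fun t1 h1 t2 h2 => hchord x t1 t2 h1 h2) (fun t ht θ hθ => hZsub x t θ ht hθ)
  · rw [Set.not_nonempty_iff_eq_empty] at hne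
    show ENNReal.ofReal (1 + 2 * σ / c) * volume (Prod.mk x ⁻¹' Q) ≤ volume (Prod.mk x ⁻¹' Z)
    rw [hne]
    simp

/-- Thickening a compact planar set along an arbitrary nonzero direction `y`. -/
theorem thicken_dir {Q Z : Set (ℝ × ℝ)} (hQ : IsCompact Q) (hZ : MeasurableSet Z) {y : ℝ × ℝ}
    (hy : y ≠ 0) {c σ : ℝ} (hc : 0 < c) (hσ : 0 ≤ σ)
    (hchord : ∀ q ∈ Q, ∀ τ : ℝ, q + τ • y ∈ Q → |τ| ≤ c)
    (hZsub : ∀ q ∈ Q, ∀ θ : ℝ, |θ| ≤ σ → q + θ • y ∈ Z) :
    ENNReal.ofReal (1 + 2 * σ / c) * volume Q ≤ volume Z := by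
  set yp : ℝ × ℝ := (y.2, -y.1) with hyp
  set M : ℝ × ℝ →ₗ[ℝ] ℝ × ℝ :=
    (LinearMap.fst ℝ ℝ ℝ).smulRight yp + (LinearMap.snd ℝ ℝ ℝ).smulRight y with hM
  have hMapp : ∀ p : ℝ × ℝ, M p = p.1 • yp + p.2 • y := fun p => rfl
  have hn : 0 < y.1 ^ 2 + y.2 ^ 2 := by
    by_contra hcon
    have h0 : y.1 ^ 2 + y.2 ^ 2 = 0 := le_antisymm (not_lt.mp hcon) (by positivity)
    have h1 : y.1 = 0 := by nlinarith [sq_nonneg y.1, sq_nonneg y.2]
    have h2 : y.2 = 0 := by nlinarith [sq_nonneg y.1, sq_nonneg y.2]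
    exact hy (Prod.ext h1 h2)
  have hinj : Function.Injective M := by
    rw [← LinearMap.ker_eq_bot, LinearMap.ker_eq_bot']
    intro p hp
    rw [hMapp] at hp
    have e1 : p.1 * y.2 + p.2 * y.1 = 0 := by
      have := congrArg Prod.fst hp
      simpa [hyp] using this
    have e2 : -(p.1 * y.1) + p.2 * y.2 = 0 := by
      have := congrArg Prod.snd hp
      simpa [hyp] using this
    have h1 : p.1 * (y.1 ^ 2 + y.2 ^ 2) = 0 := by linear_combination y.2 * e1 - y.1 * e2
    have h2 : p.2 * (y.1 ^ 2 + y.2 ^ 2) = 0 := by linear_combination y.1 * e1 + y.2 * e2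
    have h3 : p.1 = 0 := by
      rcases mul_eq_zero.mp h1 with h | h
      · exact h
      · exact absurd h hn.ne'
    have h4 : p.2 = 0 := by
      rcases mul_eq_zero.mp h2 with h | h
      · exact h
      · exact absurd h hn.ne'
    exact Prod.ext h3 h4
  have hsurj : Function.Surjective M := LinearMap.surjective_of_injective hinj
  set Me : (ℝ × ℝ) ≃L[ℝ] (ℝ × ℝ) :=
    (LinearEquiv.ofBijective M ⟨hinj, hsurj⟩).toContinuousLinearEquiv with hMe
  have hMe_app : ∀ p, Me p = M p := fun p => rfl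
  have hRR : (volume : Measure (ℝ × ℝ)).IsAddHaarMeasure :=
    inferInstanceAs ((volume : Measure ℝ).prod (volume : Measure ℝ)).IsAddHaarMeasure
  set Q' : Set (ℝ × ℝ) := M ⁻¹' Q with hQ'
  set Z' : Set (ℝ × ℝ) := M ⁻¹' Z with hZ'
  have hQ'c : IsCompact Q' := Me.toHomeomorph.isCompact_preimage.mpr hQ
  have hZ'm : MeasurableSet Z' := Me.continuous.measurable hZ
  have hQvol : volume Q = ENNReal.ofReal |LinearMap.det M| * volume Q' := by
    rw [← Measure.addHaar_image_linearMap volume M Q', hQ', Set.image_preimage_eq Q hsurj]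
  have hZvol : volume Z = ENNReal.ofReal |LinearMap.det M| * volume Z' := by
    rw [← Measure.addHaar_image_linearMap volume M Z', hZ', Set.image_preimage_eq Z hsurj]
  have hshift : ∀ x t θ : ℝ, M (x, t + θ) = M (x, t) + θ • y := by
    intro x t θ
    rw [hMapp, hMapp]
    simp only [add_smul]
    abel
  have key := thicken_planar hQ'c hZ'm hc hσ
    (fun x t1 t2 h1 h2 => by
      have h3 : M (x, t1) + (t2 - t1) • y ∈ Q := by
        rw [← hshift]
        have : t1 + (t2 - t1) = t2 := by ring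
        rw [this]
        exact h2
      exact hchord _ h1 _ h3)
    (fun x t θ h1 hθ => by
      show M (x, t + θ) ∈ Z
      rw [hshift]
      exact hZsub _ h1 θ hθ)
  calc ENNReal.ofReal (1 + 2 * σ / c) * volume Q
      = ENNReal.ofReal |LinearMap.det M| * (ENNReal.ofReal (1 + 2 * σ / c) * volume Q') := by
        rw [hQvol]; ring
    _ ≤ ENNReal.ofReal |LinearMap.det M| * volume Z' := mul_le_mul_right key _
    _ = volume Z := hZvol.symm

/-- Area of a roof level set: if all chords of the compact set `P` parallel to `y` have parameter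
length at most `2 / ρ`, then a set containing `(1 - s) P + [-s y, s y]` has area at least
`((1 - s)^2 + s (1 - s) ρ)` times the area of `P`. -/
theorem roof_area {P Z : Set (ℝ × ℝ)} (hP : IsCompact P) (hZ : MeasurableSet Z) {y : ℝ × ℝ}
    {ρ s : ℝ} (hρ : 0 ≤ ρ) (hs0 : 0 ≤ s) (hs1 : s < 1)
    (hchord : ∀ p ∈ P, ∀ τ : ℝ, p + τ • y ∈ P → |τ| * ρ ≤ 2)
    (hZsub : ∀ p ∈ P, ∀ θ : ℝ, |θ| ≤ s → (1 - s) • p + θ • y ∈ Z) :
    ENNReal.ofReal ((1 - s) ^ 2 + s * (1 - s) * ρ) * volume P ≤ volume Z := by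
  have hRR : (volume : Measure (ℝ × ℝ)).IsAddHaarMeasure :=
    inferInstanceAs ((volume : Measure ℝ).prod (volume : Measure ℝ)).IsAddHaarMeasure
  have h1s : 0 < 1 - s := by linarith
  set Q : Set (ℝ × ℝ) := (1 - s) • P with hQ
  have hQc : IsCompact Q := hP.smul (1 - s)
  have hQvol : volume Q = ENNReal.ofReal ((1 - s) ^ 2) * volume P := by
    rw [hQ, Measure.addHaar_smul]
    congr 2
    simp [abs_of_pos h1s]
  have hQZ : Q ⊆ Z := by
    rintro _ ⟨p, hp, rfl⟩
    have := hZsub p hp 0 (by simpa using hs0)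
    simpa using this
  rcases eq_or_lt_of_le hρ with hρ0 | hρpos
  · rw [← hρ0, mul_zero, add_zero, ← hQvol]
    exact measure_mono hQZ
  rcases P.eq_empty_or_nonempty with hPe | hPne
  · rw [hPe]; simp
  have hy : y ≠ 0 := by
    rintro rfl
    obtain ⟨p, hp⟩ := hPne
    have := hchord p hp (3 / ρ) (by simpa using hp)
    rw [abs_of_pos (by positivity), div_mul_cancel₀ _ hρpos.ne'] at this
    linarith
  have hc : 0 < 2 * (1 - s) / ρ := by positivity
  have key := thicken_dir hQc hZ hy hc hs0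
    (by
      rintro _ ⟨p, hp, rfl⟩ τ ⟨p', hp', he⟩
      have he' : p' = p + (τ / (1 - s)) • y := by
        have h2 : (1 - s)⁻¹ • ((1 - s) • p') = (1 - s)⁻¹ • ((1 - s) • p + τ • y) := by
          simp only at he
          rw [he]
        rw [smul_smul, inv_mul_cancel₀ h1s.ne', one_smul, smul_add, smul_smul, smul_smul,
          inv_mul_cancel₀ h1s.ne', one_smul] at h2
        rw [h2, div_eq_inv_mul]
      have h3 := hchord p hp (τ / (1 - s)) (he' ▸ hp')
      rw [abs_div, abs_of_pos h1s] at h3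
      rw [le_div_iff₀ hρpos]
      have h4 : |τ| / (1 - s) * ρ = |τ| * ρ / (1 - s) := by ring
      rw [h4, div_le_iff₀ h1s] at h3
      linarith)
    (by
      rintro _ ⟨p, hp, rfl⟩ θ hθ
      exact hZsub p hp θ hθ)
  calc ENNReal.ofReal ((1 - s) ^ 2 + s * (1 - s) * ρ) * volume P
      = ENNReal.ofReal (1 + 2 * s / (2 * (1 - s) / ρ)) * volume Q := by
        rw [hQvol, ← mul_assoc, ← ENNReal.ofReal_mul (by positivity)]
        congr 2
        field_simp
    _ ≤ volume Z := key

end Vale.Agent.Lib.Helper9.P243
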