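import Mathlib
import Vale.Agent.Lib.Helper9.P243.Rvi
import Vale.Agent.Lib.Helper9.P243.Sym1

set_option autoImplicit false

open MeasureTheory Set
open scoped Pointwise

namespace Vale.Agent.Lib.Helper9.P243

/-- Convex combination of two points of chord level sets. -/
theorem chordLevel_combo2 {K : Set ((ℝ × ℝ) × ℝ)} (hK : Convex ℝ K) {l0 l1 : ℝ}
    {y0 y1 : ℝ × ℝ} (h0 : y0 ∈ chordLevel K l0) (h1 : y1 ∈ chordLevel K l1)
    {a b : ℝ} (ha : 0 ≤ a) (hb : 0 ≤ b) (hab : a + b = 1) :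
    a • y0 + b • y1 ∈ chordLevel K (a * l0 + b * l1) := by
  obtain ⟨w, hw, hw'⟩ := h0
  obtain ⟨z, hz, hz'⟩ := h1
  refine ⟨a * w + b * z, ?_, ?_⟩
  · have := hK hw hz ha hb hab
    have e : a • ((y0, w) : (ℝ × ℝ) × ℝ) + b • ((y1, z) : (ℝ × ℝ) × ℝ)
        = (a • y0 + b • y1, a * w + b * z) := by
      ext <;> simp
    rw [e] at this
    exact this
  · have := hK hw' hz' ha hb hab
    have e : a • ((y0, w + l0) : (ℝ × ℝ) × ℝ) + b • ((y1, z + l1) : (ℝ × ℝ) × ℝ)
        = (a • y0 + b • y1, a * w + b * z + (a * l0 + b * l1)) := by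
      refine Prod.ext ?_ ?_
      · simp
      · simp only [Prod.snd_add, Prod.smul_snd, smul_eq_mul]; ring
    rw [e] at this
    exact this

/-- Chord level sets of a symmetric set are symmetric. -/
theorem chordLevel_neg {K : Set ((ℝ × ℝ) × ℝ)} (hsym : ∀ p ∈ K, -p ∈ K) {l : ℝ} {y : ℝ × ℝ}
    (h : y ∈ chordLevel K l) : -y ∈ chordLevel K l := by
  obtain ⟨z, hz, hz'⟩ := h
  refine ⟨-(z + l), ?_, ?_⟩
  · have := hsym _ hz'
    simpa using this
  · have := hsym _ hz
    have e : ((-y, -(z + l) + l) : (ℝ × ℝ) × ℝ) = -((y, z) : (ℝ × ℝ) × ℝ) := by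
      refine Prod.ext ?_ ?_
      · simp
      · simp
    rw [e]
    exact this

/-- A scalar multiple `c y` with `|c| ≤ 1` of a point of a chord level set of a symmetric convex
set stays in the level set. -/
theorem chordLevel_smul {K : Set ((ℝ × ℝ) × ℝ)} (hK : Convex ℝ K) (hsym : ∀ p ∈ K, -p ∈ K)
    {l : ℝ} {y : ℝ × ℝ} (h : y ∈ chordLevel K l) {c : ℝ} (hc : |c| ≤ 1) :
    c • y ∈ chordLevel K l := by
  rw [abs_le] at hc
  have h2 := chordLevel_combo2 hK h (chordLevel_neg hsym h)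
    (a := (1 + c) / 2) (b := (1 - c) / 2) (by linarith) (by linarith) (by ring)
  have e1 : ((1 + c) / 2) • y + ((1 - c) / 2) • (-y) = c • y := by
    rw [smul_neg, ← sub_eq_add_neg, ← sub_smul]
    congr 1
    ring
  have e2 : (1 + c) / 2 * l + (1 - c) / 2 * l = l := by ring
  rw [e1, e2] at h2
  exact h2

/-- The polynomial integral behind the roof bound. -/
theorem integral_roof_poly (a ρ : ℝ) (ha : a ≠ 0) :
    ∫ t in (0 : ℝ)..a, ((1 - t / a) ^ 2 + t / a * (1 - t / a) * ρ) = a * (2 + ρ) / 6 := by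
  have hderiv : ∀ x ∈ uIcc (0 : ℝ) a,
      HasDerivAt (fun t : ℝ => t - (2 - ρ) / (2 * a) * t ^ 2 + (1 - ρ) / (3 * a ^ 2) * t ^ 3)
        ((1 - x / a) ^ 2 + x / a * (1 - x / a) * ρ) x := by
    intro x _
    have h0 := hasDerivAt_id x
    have h1 := (hasDerivAt_pow 2 x).const_mul ((2 - ρ) / (2 * a))
    have h2 := (hasDerivAt_pow 3 x).const_mul ((1 - ρ) / (3 * a ^ 2))
    have h3 := (h0.sub h1).add h2
    refine h3.congr_deriv ?_
    push_cast
    field_simp
    ring
  have hint : IntervalIntegrable (fun x : ℝ => (1 - x / a) ^ 2 + x / a * (1 - x / a) * ρ)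
      volume 0 a :=
    (Continuous.intervalIntegrable (by fun_prop) 0 a)
  rw [intervalIntegral.integral_eq_sub_of_hasDerivAt hderiv hint]
  field_simp
  ring

/-- The same as a lower Lebesgue integral. -/
theorem lintegral_roof_poly {a ρ : ℝ} (ha : 0 < a) (hρ : 0 ≤ ρ) :
    ∫⁻ t in Ioo (0 : ℝ) a, ENNReal.ofReal ((1 - t / a) ^ 2 + t / a * (1 - t / a) * ρ)
      = ENNReal.ofReal (a * (2 + ρ) / 6) := by
  rw [← integral_roof_poly a ρ ha.ne', intervalIntegral.integral_of_le ha.le,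
    integral_Ioc_eq_integral_Ioo]
  rw [ofReal_integral_eq_lintegral_ofReal]
  · exact (Continuous.integrableOn_Icc (by fun_prop)).mono_set Ioo_subset_Icc_self
  · filter_upwards [ae_restrict_mem measurableSet_Ioo] with t ht
    have h1 : 0 ≤ t / a := div_nonneg ht.1.le ha.le
    have h2 : t / a ≤ 1 := by rw [div_le_one ha]; exact ht.2.le
    have h3 : 0 ≤ 1 - t / a := by linarith
    positivity

/-- Volume bound for a symmetric convex body: if the vertical chord over `y` has length at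
least `a`, and all chords of the shadow parallel to `y` have parameter length at most `2 / ρ`,
then the volume is at least `a (2 + ρ) / 6` times the area of the shadow. -/
theorem sym_volume_bound {K : Set ((ℝ × ℝ) × ℝ)} (hK : Convex ℝ K) (hKc : IsCompact K)
    (hsym : ∀ p ∈ K, -p ∈ K) {y : ℝ × ℝ} {a ρ : ℝ} (ha : 0 ≤ a) (hρ : 0 ≤ ρ)
    (hy : y ∈ chordLevel K a)
    (hchord : ∀ p ∈ Prod.fst '' K, ∀ τ : ℝ, p + τ • y ∈ Prod.fst '' K → |τ| * ρ ≤ 2) :
    ENNReal.ofReal (a * (2 + ρ) / 6) * volume (Prod.fst '' K) ≤ volume K := by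
  rcases eq_or_lt_of_le ha with ha0 | hapos
  · rw [← ha0]; simp
  have hPc : IsCompact (Prod.fst '' K) := hKc.image continuous_fst
  have hlevel : ∀ lam ∈ Ioo (0 : ℝ) a,
      ENNReal.ofReal ((1 - lam / a) ^ 2 + lam / a * (1 - lam / a) * ρ) * volume (Prod.fst '' K)
        ≤ volume (chordLevel K lam) := by
    intro lam hlam
    have hs0 : 0 < lam / a := div_pos hlam.1 hapos
    have hs1 : lam / a < 1 := by rw [div_lt_one hapos]; exact hlam.2
    refine roof_area hPc (isCompact_chordLevel hKc lam).measurableSet hρ hs0.le hs1 hchord ?_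
    intro p hp θ hθ
    have hc : |θ / (lam / a)| ≤ 1 := by
      rw [abs_div, abs_of_pos hs0, div_le_one hs0]
      exact hθ
    have h1 := chordLevel_smul hK hsym hy hc
    have h2 := chordLevel_combo hK hp h1 (a := 1 - lam / a) (b := lam / a) (by linarith) hs0.le
      (by ring)
    have e1 : (lam / a) • (θ / (lam / a)) • y = θ • y := by
      rw [smul_smul, mul_div_cancel₀ _ hs0.ne']
    have e2 : lam / a * a = lam := div_mul_cancel₀ _ hapos.ne'
    rw [e1, e2] at h2
    exact h2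
  calc ENNReal.ofReal (a * (2 + ρ) / 6) * volume (Prod.fst '' K)
      = ∫⁻ lam in Ioo (0 : ℝ) a,
          ENNReal.ofReal ((1 - lam / a) ^ 2 + lam / a * (1 - lam / a) * ρ)
            * volume (Prod.fst '' K) := by
        rw [lintegral_mul_const' _ _ hPc.measure_lt_top.ne, lintegral_roof_poly hapos hρ]
    _ ≤ ∫⁻ lam in Ioo (0 : ℝ) a, volume (chordLevel K lam) :=
        setLIntegral_mono' measurableSet_Ioo hlevel
    _ ≤ ∫⁻ lam in Ioi (0 : ℝ), volume (chordLevel K lam) :=
        lintegral_mono_set Ioo_subset_Ioi_self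
    _ = volume K := (volume_eq_lintegral_chordLevel hK hKc).symm

end Vale.Agent.Lib.Helper9.P243
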