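import Mathlib
import Vale.Agent.Lib.Helper9.P243.Sym2

set_option autoImplicit false

open MeasureTheory Set
open scoped Pointwise Topology

namespace Vale.Agent.Lib.Helper9.P243

/-- The trapezoid bound for the integral of a convex function. -/
theorem convex_integral_le {F : ℝ → ℝ} (hF : ConvexOn ℝ univ F) (hFc : Continuous F) {p q : ℝ}
    (hpq : p ≤ q) : ∫ z in p..q, F z ≤ (q - p) * (F p + F q) / 2 := by
  have h1 : ∫ z in p..q, F (p + q - z) = ∫ z in p..q, F z := by
    rw [intervalIntegral.integral_comp_sub_left]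
    congr 1 <;> ring
  have hint1 : IntervalIntegrable F volume p q := hFc.intervalIntegrable p q
  have hint2 : IntervalIntegrable (fun z => F (p + q - z)) volume p q :=
    (hFc.comp (by fun_prop)).intervalIntegrable p q
  have h2 : ∫ z in p..q, (F z + F (p + q - z)) ≤ ∫ z in p..q, (F p + F q) := by
    apply intervalIntegral.integral_mono_on hpq (hint1.add hint2) (by simp)
    intro z hz
    rcases eq_or_lt_of_le hpq with rfl | hlt
    · have hzp : z = p := le_antisymm hz.2 hz.1
      subst hzp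
      simp
    · have hd : 0 < q - p := by linarith
      have ha : 0 ≤ (q - z) / (q - p) := div_nonneg (by linarith [hz.2]) hd.le
      have hb : 0 ≤ (z - p) / (q - p) := div_nonneg (by linarith [hz.1]) hd.le
      have hab : (q - z) / (q - p) + (z - p) / (q - p) = 1 := by field_simp; ring
      have e1 := hF.2 (mem_univ p) (mem_univ q) ha hb hab
      have e2 := hF.2 (mem_univ p) (mem_univ q) hb ha (by rw [add_comm]; exact hab)
      have c1 : ((q - z) / (q - p)) • p + ((z - p) / (q - p)) • q = z := by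
        simp only [smul_eq_mul]; field_simp; ring
      have c2 : ((z - p) / (q - p)) • p + ((q - z) / (q - p)) • q = p + q - z := by
        simp only [smul_eq_mul]; field_simp; ring
      rw [c1] at e1
      rw [c2] at e2
      simp only [smul_eq_mul] at e1 e2
      have s1 : (q - z) / (q - p) * F p + (z - p) / (q - p) * F p = F p := by
        rw [← add_mul, hab, one_mul]
      have s2 : (q - z) / (q - p) * F q + (z - p) / (q - p) * F q = F q := by
        rw [← add_mul, hab, one_mul]
      linarith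
  rw [intervalIntegral.integral_add hint1 hint2, h1, intervalIntegral.integral_const] at h2
  simp only [smul_eq_mul] at h2
  linarith

/-- Along a vertical line the function `1 + 2 gauge` is convex. -/
theorem convexOn_gauge_line {K : Set ((ℝ × ℝ) × ℝ)} (hK : Convex ℝ K) (h0 : K ∈ 𝓝 0)
    (y : ℝ × ℝ) : ConvexOn ℝ univ (fun z : ℝ => 1 + 2 * gauge K (y, z)) := by
  refine ⟨convex_univ, ?_⟩
  intro z1 _ z2 _ a b ha hb hab
  have habs : Absorbent ℝ K := absorbent_nhds_zero h0
  have e : ((y, a • z1 + b • z2) : (ℝ × ℝ) × ℝ)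
      = a • ((y, z1) : (ℝ × ℝ) × ℝ) + b • ((y, z2) : (ℝ × ℝ) × ℝ) := by
    refine Prod.ext ?_ ?_
    · simp [← add_smul, hab]
    · simp
  have h1 := gauge_add_le hK habs (a • ((y, z1) : (ℝ × ℝ) × ℝ)) (b • ((y, z2) : (ℝ × ℝ) × ℝ))
  rw [gauge_smul_of_nonneg ha, gauge_smul_of_nonneg hb] at h1
  show 1 + 2 * gauge K (y, a • z1 + b • z2)
    ≤ a • (1 + 2 * gauge K (y, z1)) + b • (1 + 2 * gauge K (y, z2))
  rw [e]
  simp only [smul_eq_mul] at h1 ⊢
  have e2 : a * (1 + 2 * gauge K (y, z1)) + b * (1 + 2 * gauge K (y, z2))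
      = (a + b) + 2 * (a * gauge K (y, z1) + b * gauge K (y, z2)) := by ring
  rw [e2, hab]
  linarith

/-- Vertical sections of a compact set are compact. -/
theorem isCompact_section3 {K : Set ((ℝ × ℝ) × ℝ)} (hKc : IsCompact K) (y : ℝ × ℝ) :
    IsCompact (Prod.mk y ⁻¹' K) := by
  have e : Prod.mk y ⁻¹' K = Prod.snd '' (K ∩ {p : (ℝ × ℝ) × ℝ | p.1 = y}) := by
    ext z
    constructor
    · intro hz
      exact ⟨(y, z), ⟨hz, rfl⟩, rfl⟩
    · rintro ⟨p, ⟨hp, hps⟩, rfl⟩
      have hps' : p.1 = y := hps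
      have : (y, p.2) = p := by rw [← hps']
      show (y, p.2) ∈ K
      rw [this]; exact hp
  rw [e]
  exact (hKc.inter_right (isClosed_eq continuous_fst continuous_const)).image continuous_snd

/-- The weighted length of every vertical section of a symmetric convex body, times the area of
the shadow, is at most six times the volume. -/
theorem sym_section_bound {K : Set ((ℝ × ℝ) × ℝ)} (hK : Convex ℝ K) (hKc : IsCompact K)
    (hsym : ∀ p ∈ K, -p ∈ K) (h0 : K ∈ 𝓝 0) (y : ℝ × ℝ) :
    (∫⁻ z, K.indicator (fun p => ENNReal.ofReal (1 + 2 * gauge K p)) (y, z))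
        * volume (Prod.fst '' K)
      ≤ ENNReal.ofReal 6 * volume K := by
  set A : Set ℝ := Prod.mk y ⁻¹' K with hA
  have hAc : IsCompact A := isCompact_section3 hKc y
  have hind : ∀ z, K.indicator (fun p => ENNReal.ofReal (1 + 2 * gauge K p)) (y, z)
      = A.indicator (fun z => ENNReal.ofReal (1 + 2 * gauge K (y, z))) z := by
    intro z
    by_cases hz : (y, z) ∈ K
    · rw [indicator_of_mem hz, indicator_of_mem (show z ∈ A from hz)]
    · rw [indicator_of_notMem hz, indicator_of_notMem (show z ∉ A from hz)]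
  simp only [hind]
  rw [lintegral_indicator hAc.measurableSet]
  rcases A.eq_empty_or_nonempty with hAe | hAne
  · rw [hAe]; simp
  have hAconv : Convex ℝ A := by
    intro z1 hz1 z2 hz2 a b ha hb hab
    have := hK hz1 hz2 ha hb hab
    show (y, a • z1 + b • z2) ∈ K
    convert this using 1
    refine Prod.ext ?_ ?_
    · simp [← add_smul, hab]
    · simp
  set z1 := sInf A with hz1
  set z2 := sSup A with hz2
  have hz1A : z1 ∈ A := (hAc.isLeast_sInf hAne).1
  have hz2A : z2 ∈ A := (hAc.isGreatest_sSup hAne).1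
  have hz1le : ∀ z ∈ A, z1 ≤ z := fun z hz => (hAc.isLeast_sInf hAne).2 hz
  have hz2ge : ∀ z ∈ A, z ≤ z2 := fun z hz => (hAc.isGreatest_sSup hAne).2 hz
  have hAeq : A = Icc z1 z2 := by
    apply Subset.antisymm
    · intro z hz; exact ⟨hz1le z hz, hz2ge z hz⟩
    · exact hAconv.ordConnected.out hz1A hz2A
  have hz12 : z1 ≤ z2 := hz1le z2 hz2A
  have hgc : Continuous (gauge K) := continuous_gauge hK h0
  have hfc : Continuous (fun z : ℝ => gauge K (y, z)) := hgc.comp (by fun_prop)
  obtain ⟨z0, hz0A, hz0min⟩ := hAc.exists_isMinOn hAne hfc.continuousOn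
  set ρ := gauge K (y, z0) with hρ
  have hρ0 : 0 ≤ ρ := gauge_nonneg _
  have hρ1 : ρ ≤ 1 := gauge_le_one_of_mem hz0A
  set a := z2 - z1 with ha
  have ha0 : 0 ≤ a := by linarith
  have hyl : y ∈ chordLevel K a := by
    refine ⟨z1, hz1A, ?_⟩
    have : z1 + a = z2 := by rw [ha]; ring
    rw [this]; exact hz2A
  have h0K : (0 : (ℝ × ℝ) × ℝ) ∈ K := mem_of_mem_nhds h0
  have hchord : ∀ p ∈ Prod.fst '' K, ∀ τ : ℝ, p + τ • y ∈ Prod.fst '' K → |τ| * ρ ≤ 2 := by
    rintro _ ⟨q, hq, rfl⟩ τ ⟨q', hq', hqe⟩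
    have hmid : ∃ w : ℝ, ((|τ| / 2) • y, w) ∈ K := by
      rcases le_total 0 τ with hτ | hτ
      · have := hK hq' (hsym q hq) (a := 1 / 2) (b := 1 / 2) (by norm_num) (by norm_num)
          (by norm_num)
        refine ⟨(1 / 2) * q'.2 + (1 / 2) * (-q.2), ?_⟩
        convert this using 1
        refine Prod.ext ?_ ?_
        · simp only [Prod.fst_add, Prod.smul_fst, Prod.fst_neg]
          rw [hqe, abs_of_nonneg hτ]
          module
        · simp
      · have := hK hq (hsym q' hq') (a := 1 / 2) (b := 1 / 2) (by norm_num) (by norm_num)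
          (by norm_num)
        refine ⟨(1 / 2) * q.2 + (1 / 2) * (-q'.2), ?_⟩
        convert this using 1
        refine Prod.ext ?_ ?_
        · simp only [Prod.fst_add, Prod.smul_fst, Prod.fst_neg]
          rw [hqe, abs_of_nonpos hτ]
          module
        · simp
    obtain ⟨w, hw⟩ := hmid
    set t := |τ| / 2 with ht
    have ht0 : 0 ≤ t := by positivity
    have hτt : |τ| = 2 * t := by rw [ht]; ring
    rcases le_or_gt t 1 with ht1 | ht1
    · rw [hτt]; nlinarith
    · have htpos : 0 < t := by linarith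
      have hmem : t⁻¹ • ((t • y, w) : (ℝ × ℝ) × ℝ) ∈ K :=
        hK.smul_mem_of_zero_mem h0K hw ⟨by positivity, inv_le_one_of_one_le₀ ht1.le⟩
      have he : t⁻¹ • ((t • y, w) : (ℝ × ℝ) × ℝ) = (y, t⁻¹ * w) := by
        refine Prod.ext ?_ ?_
        · simp [smul_smul, inv_mul_cancel₀ htpos.ne']
        · simp
      have hmemA : t⁻¹ * w ∈ A := by
        rw [he] at hmem; exact hmem
      have h1 : ρ ≤ gauge K (y, t⁻¹ * w) := hz0min hmemA
      have h2 : gauge K (y, t⁻¹ * w) ≤ t⁻¹ := by
        rw [← he]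
        exact gauge_le_of_mem (by positivity) (Set.smul_mem_smul_set hw)
      have h3 : ρ * t ≤ 1 := by
        have h4 : ρ ≤ t⁻¹ := le_trans h1 h2
        calc ρ * t ≤ t⁻¹ * t := mul_le_mul_of_nonneg_right h4 ht0
          _ = 1 := inv_mul_cancel₀ htpos.ne'
      rw [hτt]; nlinarith
  have hvolb := sym_volume_bound hK hKc hsym ha0 hρ0 hyl hchord
  set F : ℝ → ℝ := fun z => 1 + 2 * gauge K (y, z) with hF
  have hFconv : ConvexOn ℝ univ F := convexOn_gauge_line hK h0 y
  have hFc : Continuous F := by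
    rw [hF]
    exact continuous_const.add (continuous_const.mul hfc)
  have hF0 : ∀ z, 0 ≤ F z := by
    intro z
    have := gauge_nonneg (s := K) (y, z)
    simp only [hF]; linarith
  have hz0mem : z0 ∈ Icc z1 z2 := hAeq ▸ hz0A
  have hI1 := convex_integral_le hFconv hFc hz0mem.1
  have hI2 := convex_integral_le hFconv hFc hz0mem.2
  have hFz1 : F z1 ≤ 3 := by
    have := gauge_le_one_of_mem (show ((y, z1) : (ℝ × ℝ) × ℝ) ∈ K from hz1A)
    simp only [hF]; linarith
  have hFz2 : F z2 ≤ 3 := by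
    have := gauge_le_one_of_mem (show ((y, z2) : (ℝ × ℝ) × ℝ) ∈ K from hz2A)
    simp only [hF]; linarith
  have hFz0 : F z0 = 1 + 2 * ρ := rfl
  have hint : ∫ z in z1..z2, F z ≤ a * (2 + ρ) := by
    rw [← intervalIntegral.integral_add_adjacent_intervals (hFc.intervalIntegrable z1 z0)
      (hFc.intervalIntegrable z0 z2)]
    have hA1 : 0 ≤ z0 - z1 := by linarith [hz0mem.1]
    have hA2 : 0 ≤ z2 - z0 := by linarith [hz0mem.2]
    have e1 : (z0 - z1) * (F z1 + F z0) / 2 ≤ (z0 - z1) * (2 + ρ) := by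
      rw [hFz0]; nlinarith
    have e2 : (z2 - z0) * (F z0 + F z2) / 2 ≤ (z2 - z0) * (2 + ρ) := by
      rw [hFz0]; nlinarith
    have e3 : a * (2 + ρ) = (z0 - z1) * (2 + ρ) + (z2 - z0) * (2 + ρ) := by rw [ha]; ring
    linarith
  have hlin : ∫⁻ z in A, ENNReal.ofReal (F z) = ENNReal.ofReal (∫ z in z1..z2, F z) := by
    rw [hAeq, intervalIntegral.integral_of_le hz12, ← integral_Icc_eq_integral_Ioc,
      ofReal_integral_eq_lintegral_ofReal]
    · exact hFc.integrableOn_Icc
    · exact Filter.Eventually.of_forall hF0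
  rw [hlin]
  calc ENNReal.ofReal (∫ z in z1..z2, F z) * volume (Prod.fst '' K)
      ≤ ENNReal.ofReal (a * (2 + ρ)) * volume (Prod.fst '' K) :=
        mul_le_mul_left (ENNReal.ofReal_le_ofReal hint) _
    _ = ENNReal.ofReal 6 * (ENNReal.ofReal (a * (2 + ρ) / 6) * volume (Prod.fst '' K)) := by
        rw [← mul_assoc, ← ENNReal.ofReal_mul (by norm_num)]
        congr 2
        ring
    _ ≤ ENNReal.ofReal 6 * volume K := mul_le_mul_right hvolb _

/-- The weighted volume of the part of a symmetric convex body above a measurable base. -/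
theorem sym_cyl_coord {K : Set ((ℝ × ℝ) × ℝ)} (hK : Convex ℝ K) (hKc : IsCompact K)
    (hsym : ∀ p ∈ K, -p ∈ K) (h0 : K ∈ 𝓝 0) {B : Set (ℝ × ℝ)} (hB : MeasurableSet B) :
    (∫⁻ p in K ∩ Prod.fst ⁻¹' B, ENNReal.ofReal (1 + 2 * gauge K p)) * volume (Prod.fst '' K)
      ≤ ENNReal.ofReal 6 * volume K * volume B := by
  have hgc : Continuous (gauge K) := continuous_gauge hK h0
  set F : (ℝ × ℝ) × ℝ → ENNReal := fun p => ENNReal.ofReal (1 + 2 * gauge K p) with hF
  have hFm : Measurable F :=
    (continuous_const.add (continuous_const.mul hgc)).measurable.ennreal_ofReal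
  have hKBm : MeasurableSet (K ∩ Prod.fst ⁻¹' B) := hKc.measurableSet.inter (measurable_fst hB)
  have hvol : (volume : Measure ((ℝ × ℝ) × ℝ))
      = (volume : Measure (ℝ × ℝ)).prod (volume : Measure ℝ) := Measure.volume_eq_prod _ _
  have h1 : ∫⁻ p in K ∩ Prod.fst ⁻¹' B, F p = ∫⁻ y in B, ∫⁻ z, K.indicator F (y, z) := by
    rw [← lintegral_indicator hKBm, hvol,
      lintegral_prod _ ((hFm.indicator hKBm).aemeasurable), ← lintegral_indicator hB]
    apply lintegral_congr
    intro y
    by_cases hy : y ∈ B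
    · rw [indicator_of_mem hy]
      apply lintegral_congr
      intro z
      by_cases hz : (y, z) ∈ K
      · rw [indicator_of_mem (show (y, z) ∈ K ∩ Prod.fst ⁻¹' B from ⟨hz, hy⟩),
          indicator_of_mem hz]
      · rw [indicator_of_notMem (fun h => hz h.1), indicator_of_notMem hz]
    · rw [indicator_of_notMem hy]
      have : ∀ z, (K ∩ Prod.fst ⁻¹' B).indicator F (y, z) = 0 :=
        fun z => indicator_of_notMem (fun h => hy h.2) _
      simp [this]
  rw [h1, ← lintegral_mul_const' _ _ (hKc.image continuous_fst).measure_lt_top.ne]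
  calc ∫⁻ y in B, (∫⁻ z, K.indicator F (y, z)) * volume (Prod.fst '' K)
      ≤ ∫⁻ _ in B, ENNReal.ofReal 6 * volume K :=
        lintegral_mono (fun y => sym_section_bound hK hKc hsym h0 y)
    _ = ENNReal.ofReal 6 * volume K * volume B := setLIntegral_const _ _

/-- The total weighted volume of a convex body with the origin in its interior, in dimension
three. -/
theorem sym_total {E : Type*} [NormedAddCommGroup E] [NormedSpace ℝ E] [MeasurableSpace E]
    [BorelSpace E] [FiniteDimensional ℝ E] (μ : Measure E) [μ.IsAddHaarMeasure] {K : Set E}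
    (hK : Convex ℝ K) (hKc : IsCompact K) (h0 : K ∈ 𝓝 0) (hdim : Module.finrank ℝ E = 3) :
    ENNReal.ofReal (5 / 2) * μ K ≤ ∫⁻ p in K, ENNReal.ofReal (1 + 2 * gauge K p) ∂μ := by
  have hgc : Continuous (gauge K) := continuous_gauge hK h0
  have hgm : Measurable (fun p => ENNReal.ofReal (gauge K p)) := hgc.measurable.ennreal_ofReal
  have hKtop : μ K ≠ ⊤ := hKc.measure_lt_top.ne
  have hsplit : ∀ p, ENNReal.ofReal (1 + 2 * gauge K p) = 1 + 2 * ENNReal.ofReal (gauge K p) := by
    intro p
    have hg := gauge_nonneg (s := K) p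
    rw [ENNReal.ofReal_add zero_le_one (by positivity), ENNReal.ofReal_one,
      ENNReal.ofReal_mul (by norm_num)]
    simp
  simp only [hsplit]
  rw [lintegral_add_left measurable_const, lintegral_const_mul _ hgm, setLIntegral_one]
  have hlayer : ∫⁻ p in K, ENNReal.ofReal (gauge K p) ∂μ
      = ∫⁻ t in Ioi (0 : ℝ), (μ.restrict K) {p | t < gauge K p} :=
    lintegral_eq_lintegral_meas_lt (μ.restrict K)
      (Filter.Eventually.of_forall (fun p => gauge_nonneg p)) hgc.measurable.aemeasurable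
  have hpt : ∀ t ∈ Ioo (0 : ℝ) 1,
      ENNReal.ofReal (1 - t ^ 3) * μ K ≤ (μ.restrict K) {p | t < gauge K p} := by
    intro t ht
    have hm : MeasurableSet {p | t < gauge K p} := (isOpen_lt continuous_const hgc).measurableSet
    rw [Measure.restrict_apply hm]
    have hsub : K ⊆ ({p | t < gauge K p} ∩ K) ∪ t • K := by
      intro p hp
      by_cases hlt : t < gauge K p
      · exact Or.inl ⟨hlt, hp⟩
      · right
        have hle : gauge K p ≤ t := not_lt.mp hlt
        have h1 : gauge K (t⁻¹ • p) ≤ 1 := by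
          rw [gauge_smul_of_nonneg (inv_nonneg.mpr ht.1.le), smul_eq_mul, inv_mul_le_iff₀ ht.1]
          simpa using hle
        have h2 : t⁻¹ • p ∈ closure K := (gauge_le_one_iff_mem_closure hK h0).mp h1
        rw [hKc.isClosed.closure_eq] at h2
        refine ⟨t⁻¹ • p, h2, ?_⟩
        show t • t⁻¹ • p = p
        rw [smul_smul, mul_inv_cancel₀ ht.1.ne', one_smul]
    have hsm : μ (t • K) = ENNReal.ofReal (t ^ 3) * μ K := by
      rw [Measure.addHaar_smul, hdim, abs_of_pos (pow_pos ht.1 3)]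
    have h3 : μ K ≤ μ ({p | t < gauge K p} ∩ K) + ENNReal.ofReal (t ^ 3) * μ K := by
      calc μ K ≤ μ (({p | t < gauge K p} ∩ K) ∪ t • K) := measure_mono hsub
        _ ≤ μ ({p | t < gauge K p} ∩ K) + μ (t • K) := measure_union_le _ _
        _ = μ ({p | t < gauge K p} ∩ K) + ENNReal.ofReal (t ^ 3) * μ K := by rw [hsm]
    have ht3 : t ^ 3 ≤ 1 := pow_le_one₀ ht.1.le ht.2.le
    have h4 : ENNReal.ofReal (1 - t ^ 3) * μ K + ENNReal.ofReal (t ^ 3) * μ K = μ K := by
      rw [← add_mul, ← ENNReal.ofReal_add (by linarith) (pow_nonneg ht.1.le 3)]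
      simp
    have h5 : ENNReal.ofReal (1 - t ^ 3) * μ K + ENNReal.ofReal (t ^ 3) * μ K
        ≤ μ ({p | t < gauge K p} ∩ K) + ENNReal.ofReal (t ^ 3) * μ K := by
      rw [h4]; exact h3
    exact ENNReal.le_of_add_le_add_right
      (ENNReal.mul_ne_top ENNReal.ofReal_ne_top hKtop) h5
  have hint : ∫⁻ t in Ioo (0 : ℝ) 1, ENNReal.ofReal (1 - t ^ 3) = ENNReal.ofReal (3 / 4) := by
    have e : ∫ t in (0 : ℝ)..1, (1 - t ^ 3) = 3 / 4 := by
      rw [intervalIntegral.integral_sub (by simp) (by simp)]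
      simp
      norm_num
    rw [← e, intervalIntegral.integral_of_le zero_le_one, integral_Ioc_eq_integral_Ioo,
      ofReal_integral_eq_lintegral_ofReal]
    · exact (Continuous.integrableOn_Icc (by fun_prop)).mono_set Ioo_subset_Icc_self
    · filter_upwards [ae_restrict_mem measurableSet_Ioo] with t ht
      have : t ^ 3 ≤ 1 := pow_le_one₀ ht.1.le ht.2.le
      simp only [Pi.zero_apply]
      linarith
  have hlow : ENNReal.ofReal (3 / 4) * μ K ≤ ∫⁻ p in K, ENNReal.ofReal (gauge K p) ∂μ := by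
    rw [hlayer]
    calc ENNReal.ofReal (3 / 4) * μ K
        = ∫⁻ t in Ioo (0 : ℝ) 1, ENNReal.ofReal (1 - t ^ 3) * μ K := by
          rw [lintegral_mul_const' _ _ hKtop, hint]
      _ ≤ ∫⁻ t in Ioo (0 : ℝ) 1, (μ.restrict K) {p | t < gauge K p} :=
          setLIntegral_mono' measurableSet_Ioo hpt
      _ ≤ ∫⁻ t in Ioi (0 : ℝ), (μ.restrict K) {p | t < gauge K p} :=
          lintegral_mono_set Ioo_subset_Ioi_self
  calc ENNReal.ofReal (5 / 2) * μ K = μ K + 2 * (ENNReal.ofReal (3 / 4) * μ K) := by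
        have e : ENNReal.ofReal (5 / 2) = 1 + 2 * ENNReal.ofReal (3 / 4) := by
          rw [show (2 : ENNReal) = ENNReal.ofReal 2 by simp, ← ENNReal.ofReal_mul (by norm_num),
            ← ENNReal.ofReal_one, ← ENNReal.ofReal_add (by norm_num) (by norm_num)]
          norm_num
        rw [e]; ring
    _ ≤ μ K + 2 * ∫⁻ p in K, ENNReal.ofReal (gauge K p) ∂μ := by
        gcongr

end Vale.Agent.Lib.Helper9.P243
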