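import Mathlib
import Vale.Agent.Lib.Helper9.P243.Final
import Vale.Agent.Lib.Helper9.P243.Merge
import Vale.Agent.Lib.Helper9.P243.Sym3

set_option autoImplicit false

open MeasureTheory Set
open scoped Pointwise Topology

namespace Vale.Agent.Lib.Helper9.P243

/-- A convex set with nonempty interior that is symmetric about the origin is a neighbourhood
of the origin. -/
theorem sym_mem_nhds_zero {E : Type*} [NormedAddCommGroup E] [NormedSpace ℝ E] {K : Set E}
    (hK : Convex ℝ K) (hint : (interior K).Nonempty) (hsym : ∀ x ∈ K, -x ∈ K) :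
    K ∈ 𝓝 (0 : E) := by
  obtain ⟨x, hx⟩ := hint
  have himg : (Homeomorph.neg E) '' K = K := by
    ext y
    constructor
    · rintro ⟨z, hz, rfl⟩
      exact hsym z hz
    · intro hy
      exact ⟨-y, hsym y hy, by simp⟩
  have hneg : -x ∈ interior K := by
    have h1 : (Homeomorph.neg E) x ∈ (Homeomorph.neg E) '' interior K := ⟨x, hx, rfl⟩
    rw [(Homeomorph.neg E).image_interior, himg] at h1
    exact h1
  have h0 : (0 : E) ∈ interior K := by
    have := hK.interior hx hneg (a := 1 / 2) (b := 1 / 2) (by norm_num) (by norm_num)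
      (by norm_num)
    simpa using this
  exact mem_interior_iff_mem_nhds.mp h0

/-- The gauge is invariant under a linear equivalence. -/
theorem gauge_image_equiv {E F : Type*} [NormedAddCommGroup E] [NormedSpace ℝ E]
    [NormedAddCommGroup F] [NormedSpace ℝ F] (Ψ : E ≃L[ℝ] F) (K : Set E) (x : E) :
    gauge (Ψ '' K) (Ψ x) = gauge K x := by
  simp only [gauge_def']
  congr 1
  ext r
  show (r ∈ Ioi (0 : ℝ) ∧ r⁻¹ • Ψ x ∈ Ψ '' K) ↔ (r ∈ Ioi (0 : ℝ) ∧ r⁻¹ • x ∈ K)
  rw [← map_smul, Ψ.injective.mem_set_image]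

/-- The weighted volume of the part of a symmetric convex body inside one cylinder. -/
theorem sym_cyl_bound
    (K : Set (EuclideanSpace ℝ (Fin 3))) (hKconv : Convex ℝ K) (hKcomp : IsCompact K)
    (hKint : (interior K).Nonempty) (hKsym : ∀ x ∈ K, -x ∈ K)
    (u : EuclideanSpace ℝ (Fin 3)) (hu : ‖u‖ = 1)
    (B : Set (EuclideanSpace ℝ (Fin 3)))
    (hB : ∀ b ∈ B, inner ℝ b u = 0) :
    μHE[2] ((fun x : EuclideanSpace ℝ (Fin 3) => x - (inner ℝ u x : ℝ) • u) '' K) ≠ 0 ∧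
    μHE[2] ((fun x : EuclideanSpace ℝ (Fin 3) => x - (inner ℝ u x : ℝ) • u) '' K) ≠ ⊤ ∧
    ((volume.restrict K).withDensity (fun x => ENNReal.ofReal (1 + 2 * gauge K x)))
        {x : EuclideanSpace ℝ (Fin 3) | x ∈ K ∧ ∃ b ∈ B, ∃ t : ℝ, x = b + t • u}
      * μHE[2] ((fun x : EuclideanSpace ℝ (Fin 3) => x - (inner ℝ u x : ℝ) • u) '' K)
      ≤ ENNReal.ofReal 6 * volume K
        * μHE[2] (B ∩ (fun x : EuclideanSpace ℝ (Fin 3) => x - (inner ℝ u x : ℝ) • u) '' K) := by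
  obtain ⟨w, hw, hwu, -⟩ := exists_unit_orthogonal u u
  obtain ⟨e, he, heu, hew⟩ := exists_unit_orthogonal u w
  have hwe : inner ℝ w e = 0 := by rw [real_inner_comm]; exact hew
  set φ : EuclideanSpace ℝ (Fin 3) → ℝ × ℝ :=
    fun x => ((inner ℝ w x : ℝ), (inner ℝ e x : ℝ)) with hφ
  set π : EuclideanSpace ℝ (Fin 3) → EuclideanSpace ℝ (Fin 3) :=
    fun x => x - (inner ℝ u x : ℝ) • u with hπ
  set Ψl : EuclideanSpace ℝ (Fin 3) →ₗ[ℝ] (ℝ × ℝ) × ℝ :=
    ((coordMap w e).prod (innerSL ℝ u)).toLinearMap with hΨl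
  have hΨl_apply : ∀ x, Ψl x = (φ x, (inner ℝ u x : ℝ)) := fun x => rfl
  have hinj : Function.Injective Ψl := by
    rw [← LinearMap.ker_eq_bot, LinearMap.ker_eq_bot']
    intro x hx
    rw [hΨl_apply] at hx
    have h1 : inner ℝ w x = (0 : ℝ) := congrArg (fun p : (ℝ × ℝ) × ℝ => p.1.1) hx
    have h2 : inner ℝ e x = (0 : ℝ) := congrArg (fun p : (ℝ × ℝ) × ℝ => p.1.2) hx
    have h3 : inner ℝ u x = (0 : ℝ) := congrArg (fun p : (ℝ × ℝ) × ℝ => p.2) hx
    have := expand_orthonormal hw he hu hwe hwu heu x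
    rw [h1, h2, h3] at this
    simpa using this
  have hdim : Module.finrank ℝ (EuclideanSpace ℝ (Fin 3)) = Module.finrank ℝ ((ℝ × ℝ) × ℝ) := by
    simp
  set Ψ : EuclideanSpace ℝ (Fin 3) ≃L[ℝ] (ℝ × ℝ) × ℝ :=
    (LinearMap.linearEquivOfInjective Ψl hinj hdim).toContinuousLinearEquiv with hΨ
  have hΨ_apply : ∀ x, Ψ x = (φ x, (inner ℝ u x : ℝ)) := fun x => rfl
  set ν : Measure ((ℝ × ℝ) × ℝ) := Measure.map Ψ volume with hν
  have hνH : ν.IsAddHaarMeasure := Ψ.isAddHaarMeasure_map volume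
  have hRR : (volume : Measure (ℝ × ℝ)).IsAddHaarMeasure :=
    inferInstanceAs ((volume : Measure ℝ).prod (volume : Measure ℝ)).IsAddHaarMeasure
  have hRRR : (volume : Measure ((ℝ × ℝ) × ℝ)).IsAddHaarMeasure :=
    inferInstanceAs ((volume : Measure (ℝ × ℝ)).prod (volume : Measure ℝ)).IsAddHaarMeasure
  set c : NNReal := Measure.addHaarScalarFactor ν volume with hc
  have hνc : ν = c • (volume : Measure ((ℝ × ℝ) × ℝ)) :=
    Measure.isAddLeftInvariant_eq_smul ν volume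
  have hvol : ∀ A : Set (EuclideanSpace ℝ (Fin 3)), volume A = c * volume (Ψ '' A) := by
    intro A
    have h1 : ν (Ψ '' A) = volume A := by
      have := MeasurableEquiv.map_apply (μ := (volume : Measure (EuclideanSpace ℝ (Fin 3))))
        Ψ.toHomeomorph.toMeasurableEquiv (Ψ '' A)
      have h2 : Ψ.toHomeomorph.toMeasurableEquiv ⁻¹' (Ψ '' A) = A :=
        Set.preimage_image_eq A Ψ.injective
      rw [h2] at this
      exact this
    rw [← h1, hνc]
    rfl
  set K' : Set ((ℝ × ℝ) × ℝ) := Ψ '' K with hK'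
  have hK'conv : Convex ℝ K' := hKconv.is_linear_image Ψ.isLinear
  have hK'comp : IsCompact K' := hKcomp.image Ψ.continuous
  have hK'sym : ∀ p ∈ K', -p ∈ K' := by
    rintro _ ⟨x, hx, rfl⟩
    exact ⟨-x, hKsym x hx, map_neg Ψ x⟩
  have h0 : K ∈ 𝓝 (0 : EuclideanSpace ℝ (Fin 3)) := sym_mem_nhds_zero hKconv hKint hKsym
  have h0' : K' ∈ 𝓝 (0 : (ℝ × ℝ) × ℝ) := by
    have := Ψ.toHomeomorph.isOpenMap.image_mem_nhds h0
    simpa using this
  have hfst : Prod.fst '' K' = φ '' K := by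
    rw [hK', Set.image_image]
    rfl
  have hA : μHE[2] (π '' K) = volume (φ '' K) := proj_area_eq hw he hu hwe hwu heu K
  have hD0 : volume (φ '' K) ≠ 0 := volume_coordMap_image_pos hw he hwe K hKint
  have hDtop : volume (φ '' K) ≠ ⊤ := volume_coordMap_image_lt_top w e K hKcomp
  set S : Set (EuclideanSpace ℝ (Fin 3)) := B ∩ π '' K with hS
  set B' : Set (ℝ × ℝ) := φ '' S with hB'
  have hSvol : μHE[2] S = volume B' :=
    plane_area_eq hw he hu hwe hwu heu S (fun x hx => hB x hx.1)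
  have hφπ : ∀ x, φ (π x) = φ x := by
    intro x
    simp [hφ, hπ, inner_sub_right, inner_smul_right, hwu, heu]
  refine ⟨by rw [hA]; exact hD0, by rw [hA]; exact hDtop, ?_⟩
  set A : Set (EuclideanSpace ℝ (Fin 3)) := {x | x ∈ K ∧ ∃ b ∈ B, ∃ t : ℝ, x = b + t • u} with hAdef
  have hAsub : Ψ '' A ⊆ K' ∩ Prod.fst ⁻¹' B' := by
    rintro _ ⟨x, ⟨hxK, b, hb, t, hxb⟩, rfl⟩
    refine ⟨⟨x, hxK, rfl⟩, ?_⟩
    have hπx : π x = b := by
      have hub : inner ℝ u b = (0 : ℝ) := by rw [real_inner_comm]; exact hB b hb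
      simp only [hπ, hxb, inner_add_right, inner_smul_right, hub, real_inner_self_eq_norm_sq, hu]
      simp
    have hbS : b ∈ S := ⟨hb, x, hxK, hπx⟩
    show φ x ∈ B'
    exact ⟨b, hbS, by rw [← hπx, hφπ]⟩
  -- measurable hull of the base
  set B'' : Set (ℝ × ℝ) := toMeasurable volume B' with hB''
  have hB''m : MeasurableSet B'' := measurableSet_toMeasurable _ _
  have hB''vol : volume B'' = volume B' := measure_toMeasurable _
  set T : Set ((ℝ × ℝ) × ℝ) := K' ∩ Prod.fst ⁻¹' B'' with hT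
  have hTm : MeasurableSet T := hK'comp.measurableSet.inter (measurable_fst hB''m)
  set A' : Set (EuclideanSpace ℝ (Fin 3)) := Ψ ⁻¹' T with hA'
  have hA'm : MeasurableSet A' := Ψ.continuous.measurable hTm
  have hAA' : A ⊆ A' := by
    intro x hx
    have h1 := hAsub ⟨x, hx, rfl⟩
    exact ⟨h1.1, subset_toMeasurable _ _ h1.2⟩
  have hA'K : A' ⊆ K := by
    intro x hx
    obtain ⟨z, hz, hze⟩ := hx.1
    rw [Ψ.injective hze] at hz
    exact hz
  set FK : EuclideanSpace ℝ (Fin 3) → ENNReal := fun x => ENNReal.ofReal (1 + 2 * gauge K x)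
    with hFK
  set FK' : (ℝ × ℝ) × ℝ → ENNReal := fun p => ENNReal.ofReal (1 + 2 * gauge K' p) with hFK'
  have hFF : ∀ x, FK x = FK' (Ψ x) := by
    intro x
    simp only [hFK, hFK', hK']
    rw [gauge_image_equiv]
  have hmA' : ((volume.restrict K).withDensity FK) A' = c * ∫⁻ p in T, FK' p := by
    rw [withDensity_apply _ hA'm, Measure.restrict_restrict hA'm,
      Set.inter_eq_left.mpr hA'K, ← lintegral_indicator hA'm]
    have hpt : ∀ x, A'.indicator FK x = (T.indicator FK') (Ψ x) := by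
      intro x
      by_cases hx : x ∈ A'
      · rw [indicator_of_mem hx, indicator_of_mem (show Ψ x ∈ T from hx), hFF]
      · rw [indicator_of_notMem hx, indicator_of_notMem (show Ψ x ∉ T from hx)]
    simp only [hpt]
    have h1 := lintegral_map_equiv (μ := (volume : Measure (EuclideanSpace ℝ (Fin 3))))
      (T.indicator FK') Ψ.toHomeomorph.toMeasurableEquiv
    have h2 : ∫⁻ x, T.indicator FK' (Ψ x) = ∫⁻ p, T.indicator FK' p ∂ν := h1.symm
    rw [h2, hνc, lintegral_smul_measure, lintegral_indicator hTm]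
    rfl
  have hcoord := sym_cyl_coord hK'conv hK'comp hK'sym h0' hB''m
  rw [hfst] at hcoord
  calc ((volume.restrict K).withDensity FK) A * μHE[2] (π '' K)
      ≤ ((volume.restrict K).withDensity FK) A' * μHE[2] (π '' K) :=
        mul_le_mul_left (measure_mono hAA') _
    _ = c * ((∫⁻ p in T, FK' p) * volume (φ '' K)) := by rw [hmA', hA, mul_assoc]
    _ ≤ c * (ENNReal.ofReal 6 * volume K' * volume B'') := mul_le_mul_right hcoord _
    _ = ENNReal.ofReal 6 * (c * volume K') * volume B' := by rw [hB''vol]; ring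
    _ = ENNReal.ofReal 6 * volume K * μHE[2] S := by rw [← hvol K, hSvol]

/-- Bang's cylinder covering problem for convex bodies symmetric about the origin. -/
theorem sym_final
    (K : Set (EuclideanSpace ℝ (Fin 3))) (hKconv : Convex ℝ K) (hKcomp : IsCompact K)
    (hKint : (interior K).Nonempty) (hKsym : ∀ x ∈ K, -x ∈ K)
    (m : ℕ) (d : Fin m → EuclideanSpace ℝ (Fin 3)) (hd : ∀ i, ‖d i‖ = 1)
    (B : Fin m → Set (EuclideanSpace ℝ (Fin 3)))
    (hB : ∀ i, ∀ b ∈ B i, inner ℝ b (d i) = 0)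
    (hcov : ∀ x ∈ K, ∃ i, ∃ b ∈ B i, ∃ t : ℝ, x = b + t • d i) :
    ENNReal.ofReal (5 / 12) ≤ ∑ i, μHE[2] (B i) /
        μHE[2] ((fun x : EuclideanSpace ℝ (Fin 3) => x - (inner ℝ (d i) x : ℝ) • d i) '' K)
    ∧ ENNReal.ofReal (5 / 12) * (⨅ w ∈ {w : EuclideanSpace ℝ (Fin 3) | ‖w‖ = 1},
          μHE[2] ((fun x : EuclideanSpace ℝ (Fin 3) => x - (inner ℝ w x : ℝ) • w) '' K))
        ≤ ∑ i, μHE[2] (B i) := by
  classical
  set PK : Fin m → Set (EuclideanSpace ℝ (Fin 3)) :=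
    fun i => (fun x : EuclideanSpace ℝ (Fin 3) => x - (inner ℝ (d i) x : ℝ) • d i) '' K with hPK
  set mm : Measure (EuclideanSpace ℝ (Fin 3)) :=
    (volume.restrict K).withDensity (fun x => ENNReal.ofReal (1 + 2 * gauge K x)) with hmm
  have hcyl := fun i => sym_cyl_bound K hKconv hKcomp hKint hKsym (d i) (hd i) (B i) (hB i)
  have hden : ∀ i, μHE[2] (PK i) ≠ 0 ∧ μHE[2] (PK i) ≠ ⊤ := fun i => ⟨(hcyl i).1, (hcyl i).2.1⟩
  set A : Fin m → Set (EuclideanSpace ℝ (Fin 3)) :=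
    fun i => {x | x ∈ K ∧ ∃ b ∈ B i, ∃ t : ℝ, x = b + t • d i} with hA
  have hKsub : K ⊆ ⋃ i, A i := by
    intro x hx
    obtain ⟨i, b, hb, t, hxb⟩ := hcov x hx
    exact Set.mem_iUnion.mpr ⟨i, hx, b, hb, t, hxb⟩
  have hK0 : volume K ≠ 0 := by
    have hpos : 0 < volume (interior K) := isOpen_interior.measure_pos volume hKint
    exact (lt_of_lt_of_le hpos (measure_mono interior_subset)).ne'
  have hKtop : volume K ≠ ⊤ := hKcomp.measure_lt_top.ne
  have h0 : K ∈ 𝓝 (0 : EuclideanSpace ℝ (Fin 3)) := sym_mem_nhds_zero hKconv hKint hKsym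
  have htotal : ENNReal.ofReal (5 / 2) * volume K ≤ mm K := by
    rw [hmm, withDensity_apply _ hKcomp.measurableSet, Measure.restrict_restrict
      hKcomp.measurableSet, Set.inter_self]
    exact sym_total volume hKconv hKcomp h0 (by simp)
  have heach : ∀ i, mm (A i) ≤ ENNReal.ofReal 6 * volume K *
      (μHE[2] (B i ∩ PK i) / μHE[2] (PK i)) := by
    intro i
    rw [← mul_div_assoc, ENNReal.le_div_iff_mul_le (Or.inl (hden i).1) (Or.inl (hden i).2)]
    exact (hcyl i).2.2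
  have hsum : ENNReal.ofReal (5 / 2) * volume K ≤ ENNReal.ofReal 6 * volume K *
      ∑ i, μHE[2] (B i ∩ PK i) / μHE[2] (PK i) := by
    calc ENNReal.ofReal (5 / 2) * volume K ≤ mm K := htotal
      _ ≤ mm (⋃ i, A i) := measure_mono hKsub
      _ ≤ ∑ i, mm (A i) := measure_iUnion_fintype_le _ _
      _ ≤ ∑ i, ENNReal.ofReal 6 * volume K * (μHE[2] (B i ∩ PK i) / μHE[2] (PK i)) :=
        Finset.sum_le_sum (fun i _ => heach i)
      _ = ENNReal.ofReal 6 * volume K * ∑ i, μHE[2] (B i ∩ PK i) / μHE[2] (PK i) := by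
        rw [Finset.mul_sum]
  have h6 : ENNReal.ofReal 6 * volume K ≠ 0 :=
    mul_ne_zero (by simp) hK0
  have h6top : ENNReal.ofReal 6 * volume K ≠ ⊤ := ENNReal.mul_ne_top ENNReal.ofReal_ne_top hKtop
  have hmain : ENNReal.ofReal (5 / 12) ≤ ∑ i, μHE[2] (B i ∩ PK i) / μHE[2] (PK i) := by
    have e : ENNReal.ofReal (5 / 2) * volume K
        = ENNReal.ofReal 6 * volume K * ENNReal.ofReal (5 / 12) := by
      rw [mul_comm (ENNReal.ofReal 6) (volume K), mul_assoc, ← ENNReal.ofReal_mul (by norm_num),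
        mul_comm (volume K)]
      norm_num
    rw [e] at hsum
    exact (ENNReal.mul_le_mul_iff_right h6 h6top).mp hsum
  have hfirst : ENNReal.ofReal (5 / 12) ≤ ∑ i, μHE[2] (B i) / μHE[2] (PK i) := by
    calc ENNReal.ofReal (5 / 12) ≤ ∑ i, μHE[2] (B i ∩ PK i) / μHE[2] (PK i) := hmain
      _ ≤ ∑ i, μHE[2] (B i) / μHE[2] (PK i) := by
        apply Finset.sum_le_sum
        intro i _
        exact ENNReal.div_le_div_right (measure_mono Set.inter_subset_left) _
  exact ⟨hfirst, amin_of K m d hd B hden _ hfirst⟩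

/-- Bang's cylinder covering problem for centrally symmetric convex bodies, with an arbitrary
centre of symmetry `c`. -/
theorem sym_final_center
    (K : Set (EuclideanSpace ℝ (Fin 3))) (hKconv : Convex ℝ K) (hKcomp : IsCompact K)
    (hKint : (interior K).Nonempty) (c : EuclideanSpace ℝ (Fin 3))
    (hKsym : ∀ x ∈ K, (2 : ℝ) • c - x ∈ K)
    (m : ℕ) (d : Fin m → EuclideanSpace ℝ (Fin 3)) (hd : ∀ i, ‖d i‖ = 1)
    (B : Fin m → Set (EuclideanSpace ℝ (Fin 3)))
    (hB : ∀ i, ∀ b ∈ B i, inner ℝ b (d i) = 0)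
    (hcov : ∀ x ∈ K, ∃ i, ∃ b ∈ B i, ∃ t : ℝ, x = b + t • d i) :
    ENNReal.ofReal (5 / 12) ≤ ∑ i, μHE[2] (B i) /
        μHE[2] ((fun x : EuclideanSpace ℝ (Fin 3) => x - (inner ℝ (d i) x : ℝ) • d i) '' K)
    ∧ ENNReal.ofReal (5 / 12) * (⨅ w ∈ {w : EuclideanSpace ℝ (Fin 3) | ‖w‖ = 1},
          μHE[2] ((fun x : EuclideanSpace ℝ (Fin 3) => x - (inner ℝ w x : ℝ) • w) '' K))
        ≤ ∑ i, μHE[2] (B i) := by
  set K0 : Set (EuclideanSpace ℝ (Fin 3)) := (fun x => x - c) '' K with hK0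
  have hK0conv : Convex ℝ K0 := by
    rintro _ ⟨x, hx, rfl⟩ _ ⟨y, hy, rfl⟩ a b ha hb hab
    refine ⟨a • x + b • y, hKconv hx hy ha hb hab, ?_⟩
    have e : a • (x - c) + b • (y - c) = a • x + b • y - (a + b) • c := by module
    rw [e, hab, one_smul]
  have hK0comp : IsCompact K0 := hKcomp.image (continuous_id.sub continuous_const)
  have hK0int : (interior K0).Nonempty := by
    obtain ⟨x, hx⟩ := hKint
    have h1 : (Homeomorph.subRight c) x ∈ (Homeomorph.subRight c) '' interior K := ⟨x, hx, rfl⟩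
    rw [(Homeomorph.subRight c).image_interior] at h1
    exact ⟨_, h1⟩
  have hK0sym : ∀ y ∈ K0, -y ∈ K0 := by
    rintro _ ⟨x, hx, rfl⟩
    refine ⟨(2 : ℝ) • c - x, hKsym x hx, ?_⟩
    module
  set v : Fin m → EuclideanSpace ℝ (Fin 3) := fun i => c - (inner ℝ (d i) c : ℝ) • d i with hv
  set B0 : Fin m → Set (EuclideanSpace ℝ (Fin 3)) := fun i => (fun b => b - v i) '' B i with hB0
  have hB0orth : ∀ i, ∀ b ∈ B0 i, inner ℝ b (d i) = 0 := by
    rintro i _ ⟨b, hb, rfl⟩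
    have h1 := hB i b hb
    simp only [hv, inner_sub_left, inner_smul_left, h1, real_inner_self_eq_norm_sq, hd i]
    rw [real_inner_comm]
    simp
  have hcov0 : ∀ y ∈ K0, ∃ i, ∃ b ∈ B0 i, ∃ t : ℝ, y = b + t • d i := by
    rintro _ ⟨x, hx, rfl⟩
    obtain ⟨i, b, hb, t, hxb⟩ := hcov x hx
    refine ⟨i, b - v i, ⟨b, hb, rfl⟩, t - (inner ℝ (d i) c : ℝ), ?_⟩
    simp only [hv, hxb]
    module
  have key := sym_final K0 hK0conv hK0comp hK0int hK0sym m d hd B0 hB0orth hcov0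
  have hBvol : ∀ i, μHE[2] (B0 i) = μHE[2] (B i) := by
    intro i
    exact (IsometryEquiv.subRight (v i)).isometry.euclideanHausdorffMeasure_image (B i)
  have hPvol : ∀ w : EuclideanSpace ℝ (Fin 3),
      μHE[2] ((fun x : EuclideanSpace ℝ (Fin 3) => x - (inner ℝ w x : ℝ) • w) '' K0)
        = μHE[2] ((fun x : EuclideanSpace ℝ (Fin 3) => x - (inner ℝ w x : ℝ) • w) '' K) := by
    intro w
    have e : (fun x : EuclideanSpace ℝ (Fin 3) => x - (inner ℝ w x : ℝ) • w) '' K0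
        = (fun p => p - (c - (inner ℝ w c : ℝ) • w)) ''
          ((fun x : EuclideanSpace ℝ (Fin 3) => x - (inner ℝ w x : ℝ) • w) '' K) := by
      rw [hK0, Set.image_image, Set.image_image]
      apply Set.image_congr
      intro x _
      simp only [inner_sub_right]
      module
    rw [e]
    exact (IsometryEquiv.subRight _).isometry.euclideanHausdorffMeasure_image _
  simp only [hBvol, hPvol] at key
  exact key

end Vale.Agent.Lib.Helper9.P243
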